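import Vale.Agent.Lib.P254.Defs

/-!
# P254: affine invariance of the isotropic constant
-/

open MeasureTheory Set Matrix

namespace Vale.Agent.Lib.P254

variable {n : ℕ}

private lemma vol_eq_integral_one' (A : Set (Fin n → ℝ)) : ∫ _x in A, (1 : ℝ) = vol A := by
  rw [setIntegral_const, smul_eq_mul, mul_one]
  rfl

private lemma aff_injective {M : Matrix (Fin n) (Fin n) ℝ} (c : Fin n → ℝ) (hM : M.det ≠ 0) :
    Function.Injective (fun x => M.mulVec x + c) := by
  intro x y h
  have h1 : M.mulVec x = M.mulVec y := add_right_cancel h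
  have hU : IsUnit M := (Matrix.isUnit_iff_isUnit_det M).mpr (isUnit_iff_ne_zero.mpr hM)
  exact Matrix.mulVec_injective_of_isUnit hU h1

/-- Change of variables for an affine map. -/
private lemma integral_image_aff {M : Matrix (Fin n) (Fin n) ℝ} (c : Fin n → ℝ) (hM : M.det ≠ 0)
    {K : Set (Fin n → ℝ)} (hK : MeasurableSet K) (g : (Fin n → ℝ) → ℝ) :
    ∫ x in (fun x => M.mulVec x + c) '' K, g x = |M.det| * ∫ x in K, g (M.mulVec x + c) := by
  set L : (Fin n → ℝ) →L[ℝ] (Fin n → ℝ) := LinearMap.toContinuousLinearMap (Matrix.toLin' M) with hL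
  have hLx : ∀ x, L x = M.mulVec x := by
    intro x
    simp [hL, Matrix.toLin'_apply]
  have hder : ∀ x ∈ K, HasFDerivWithinAt (fun x => M.mulVec x + c) L K x := by
    intro x _
    have h1 : HasFDerivAt (fun x => L x + c) L x := L.hasFDerivAt.add_const c
    have h2 : (fun x => L x + c) = fun x => M.mulVec x + c := by
      funext y
      rw [hLx]
    rw [h2] at h1
    exact h1.hasFDerivWithinAt
  rw [integral_image_eq_integral_abs_det_fderiv_smul volume hK hder
    (aff_injective c hM).injOn g]
  have hdet : L.det = M.det := by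
    simp [hL, ContinuousLinearMap.det]
  rw [hdet]
  simp only [smul_eq_mul]
  rw [integral_const_mul]

private lemma integrableOn_of_bounded {K : Set (Fin n → ℝ)} (hb : Bornology.IsBounded K)
    {f : (Fin n → ℝ) → ℝ} (hf : Continuous f) : IntegrableOn f K :=
  (hf.continuousOn.integrableOn_compact hb.isCompact_closure).mono_set subset_closure

private lemma vol_image {M : Matrix (Fin n) (Fin n) ℝ} (c : Fin n → ℝ) (hM : M.det ≠ 0)
    {K : Set (Fin n → ℝ)} (hK : MeasurableSet K) :
    vol ((fun x => M.mulVec x + c) '' K) = |M.det| * vol K := by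
  rw [← vol_eq_integral_one', ← vol_eq_integral_one', integral_image_aff c hM hK]

private lemma centroid_image {M : Matrix (Fin n) (Fin n) ℝ} (c : Fin n → ℝ) (hM : M.det ≠ 0)
    {K : Set (Fin n → ℝ)} (hK : MeasurableSet K) (hb : Bornology.IsBounded K) (hk : vol K ≠ 0)
    (i : Fin n) :
    centroid ((fun x => M.mulVec x + c) '' K) i = M.mulVec (centroid K) i + c i := by
  have hd : |M.det| ≠ 0 := abs_ne_zero.mpr hM
  unfold centroid
  rw [integral_image_aff c hM hK, vol_image c hM hK]
  have e1 : ∀ x : Fin n → ℝ, (M.mulVec x + c) i = ∑ j, M i j * x j + c i * 1 := by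
    intro x
    simp [Matrix.mulVec, dotProduct]
  simp_rw [e1]
  have hI : ∀ j : Fin n, IntegrableOn (fun x : Fin n → ℝ => M i j * x j) K := fun j =>
    (integrableOn_of_bounded hb (continuous_apply j)).const_mul _
  have hS : IntegrableOn (fun x : Fin n → ℝ => ∑ j, M i j * x j) K :=
    integrable_finsetSum _ fun j _ => hI j
  have hC : IntegrableOn (fun _ : Fin n → ℝ => c i * 1) K :=
    integrableOn_of_bounded hb continuous_const
  rw [integral_add hS hC, integral_finsetSum _ fun j _ => hI j, integral_const_mul,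
    vol_eq_integral_one']
  simp_rw [integral_const_mul]
  simp only [Matrix.mulVec, dotProduct]
  rw [mul_div_mul_left _ _ hd, add_div, Finset.sum_div]
  congr 1
  · refine Finset.sum_congr rfl fun j _ => ?_
    rw [mul_div_assoc]
  · field_simp

private lemma cov_image {M : Matrix (Fin n) (Fin n) ℝ} (c : Fin n → ℝ) (hM : M.det ≠ 0)
    {K : Set (Fin n → ℝ)} (hK : MeasurableSet K) (hb : Bornology.IsBounded K) (hk : vol K ≠ 0) :
    cov ((fun x => M.mulVec x + c) '' K) = M * cov K * Mᵀ := by
  have hd : |M.det| ≠ 0 := abs_ne_zero.mpr hM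
  ext i j
  have hL : cov ((fun x => M.mulVec x + c) '' K) i j =
      (∫ x in (fun x => M.mulVec x + c) '' K,
        (x i - centroid ((fun x => M.mulVec x + c) '' K) i) *
          (x j - centroid ((fun x => M.mulVec x + c) '' K) j)) /
        vol ((fun x => M.mulVec x + c) '' K) := rfl
  rw [hL, integral_image_aff c hM hK, vol_image c hM hK]
  simp_rw [centroid_image c hM hK hb hk]
  -- the integrand
  set b := centroid K with hbdef
  have e0 : ∀ (x : Fin n → ℝ) (r : Fin n), (M.mulVec x + c) r - (M.mulVec b r + c r)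
      = ∑ l, M r l * (x l - b l) := by
    intro x r
    simp only [Pi.add_apply, Matrix.mulVec, dotProduct]
    rw [add_sub_add_right_eq_sub, ← Finset.sum_sub_distrib]
    refine Finset.sum_congr rfl fun l _ => ?_
    ring
  have e1 : ∀ x : Fin n → ℝ, ((M.mulVec x + c) i - (M.mulVec b i + c i)) *
        ((M.mulVec x + c) j - (M.mulVec b j + c j))
      = ∑ l, ∑ r, (M i l * M j r) * ((x l - b l) * (x r - b r)) := by
    intro x
    rw [e0, e0, Finset.sum_mul_sum]
    refine Finset.sum_congr rfl fun l _ => Finset.sum_congr rfl fun r _ => ?_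
    ring
  simp_rw [e1]
  have hf : ∀ l : Fin n, Continuous fun x : Fin n → ℝ => x l - b l :=
    fun l => (continuous_apply l).sub continuous_const
  have hI : ∀ l r : Fin n, IntegrableOn
      (fun x : Fin n → ℝ => (M i l * M j r) * ((x l - b l) * (x r - b r))) K := fun l r =>
    (integrableOn_of_bounded hb ((hf l).mul (hf r))).const_mul _
  have hI2 : ∀ l : Fin n, IntegrableOn
      (fun x : Fin n → ℝ => ∑ r, (M i l * M j r) * ((x l - b l) * (x r - b r))) K := fun l =>
    integrable_finsetSum _ fun r _ => hI l r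
  rw [integral_finsetSum _ fun l _ => hI2 l, mul_div_mul_left _ _ hd]
  simp_rw [integral_finsetSum _ fun r _ => hI _ r, integral_const_mul]
  have hC : ∀ l r, cov K l r = (∫ x in K, (x l - b l) * (x r - b r)) / vol K := fun _ _ => rfl
  simp only [Matrix.mul_apply, Matrix.transpose_apply, hC]
  rw [Finset.sum_div]
  simp_rw [Finset.sum_mul, Finset.sum_div]
  rw [Finset.sum_comm]
  refine Finset.sum_congr rfl fun l _ => Finset.sum_congr rfl fun r _ => ?_
  ring

/-- **Affine invariance of the isotropic constant.** -/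
theorem iso_affine {n : ℕ} (M : Matrix (Fin n) (Fin n) ℝ) (c : Fin n → ℝ) (hM : M.det ≠ 0)
    (K : Set (Fin n → ℝ)) (hK : MeasurableSet K) (hb : Bornology.IsBounded K)
    (hv : 0 < volume K) : isoConst ((fun x => M.mulVec x + c) '' K) = isoConst K := by
  have hfin : volume K ≠ ⊤ := hb.measure_lt_top.ne
  have hk : vol K ≠ 0 := (ENNReal.toReal_pos hv.ne' hfin).ne'
  have hd : |M.det| ≠ 0 := abs_ne_zero.mpr hM
  unfold isoConst
  rw [cov_image c hM hK hb hk, vol_image c hM hK]
  congr 1
  rw [Matrix.det_mul, Matrix.det_mul, Matrix.det_transpose, mul_pow, sq_abs]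
  have hM2 : M.det ^ 2 ≠ 0 := pow_ne_zero _ hM
  field_simp

end Vale.Agent.Lib.P254
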