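import Vale.Agent.Lib.P254.Defs

/-!
# P254: the radial lift and the Dirichlet integrals on the simplex
-/

open MeasureTheory Set
open scoped ENNReal Nat

namespace Vale.Agent.Lib.P254

lemma measurableSet_orth (n : ℕ) : MeasurableSet (orth n) := by
  have : orth n = ⋂ j, {y : Fin n → ℝ | 0 ≤ y j} := by
    ext y; simp [orth]
  rw [this]
  exact MeasurableSet.iInter fun j => measurableSet_le measurable_const (measurable_pi_apply j)

lemma measurableSet_T (n : ℕ) : MeasurableSet (T n) := by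
  have : T n = orth n ∩ {y : Fin n → ℝ | ∑ j, y j ≤ 1} := by
    ext y; simp [T, orth]
  rw [this]
  refine (measurableSet_orth n).inter (measurableSet_le ?_ measurable_const)
  exact Finset.measurable_sum _ fun j _ => measurable_pi_apply j

/-- The Gamma integral in lintegral form. -/
lemma lintegral_pow_exp (k : ℕ) :
    ∫⁻ r in Ioi (0 : ℝ), ENNReal.ofReal (r ^ k * Real.exp (-r)) = (k ! : ℝ≥0∞) := by
  have hs : (0 : ℝ) < (k : ℝ) + 1 := by positivity
  have hconv := Real.GammaIntegral_convergent hs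
  have hG : Real.Gamma ((k : ℝ) + 1) =
      ∫ x in Ioi (0 : ℝ), Real.exp (-x) * x ^ ((k : ℝ) + 1 - 1) := Real.Gamma_eq_integral hs
  rw [Real.Gamma_nat_eq_factorial] at hG
  have hcongr : ∀ x ∈ Ioi (0 : ℝ), Real.exp (-x) * x ^ ((k : ℝ) + 1 - 1) = x ^ k * Real.exp (-x) := by
    intro x _
    have : (k : ℝ) + 1 - 1 = (k : ℝ) := by ring
    rw [this, Real.rpow_natCast]; ring
  have hint : IntegrableOn (fun x : ℝ => x ^ k * Real.exp (-x)) (Ioi 0) :=
    hconv.congr_fun hcongr measurableSet_Ioi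
  have hval : ∫ x in Ioi (0 : ℝ), x ^ k * Real.exp (-x) = (k ! : ℝ) := by
    rw [hG]
    exact (setIntegral_congr_fun measurableSet_Ioi hcongr).symm
  have hnn : 0 ≤ᵐ[volume.restrict (Ioi (0 : ℝ))] fun x : ℝ => x ^ k * Real.exp (-x) := by
    refine ae_restrict_of_forall_mem measurableSet_Ioi fun x hx => ?_
    have : (0 : ℝ) < x := hx
    positivity
  rw [← ofReal_integral_eq_lintegral_ofReal hint hnn, hval]
  simp

/-- Fubini in the first coordinate. -/
lemma lintegral_fin_succ (m : ℕ) (F : (Fin (m + 1) → ℝ) → ℝ≥0∞) (hF : Measurable F) :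
    ∫⁻ x, F x = ∫⁻ w : Fin m → ℝ, ∫⁻ t : ℝ, F (Fin.cons t w) := by
  have hp := (volume_preserving_piFinSuccAbove (fun _ : Fin (m + 1) => ℝ) 0).symm
  have hm : Measurable fun a : ℝ × (Fin m → ℝ) =>
      F ((MeasurableEquiv.piFinSuccAbove (fun _ : Fin (m + 1) => ℝ) 0).symm a) :=
    hF.comp hp.measurable
  rw [← hp.lintegral_comp hF, Measure.volume_eq_prod]
  change ∫⁻ a : ℝ × (Fin m → ℝ), F ((MeasurableEquiv.piFinSuccAbove
    (fun _ : Fin (m + 1) => ℝ) 0).symm a) ∂(volume.prod volume) = _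
  rw [lintegral_prod_symm _ hm.aemeasurable]
  refine lintegral_congr fun w => lintegral_congr fun t => ?_
  congr 1
  ext i
  refine Fin.cases ?_ (fun j => ?_) i <;> simp [MeasurableEquiv.piFinSuccAbove]

/-- Product formula on `ℝ^n`. -/
lemma lintegral_pi_prod (n : ℕ) (f : Fin n → ℝ → ℝ≥0∞) (hf : ∀ i, Measurable (f i)) :
    ∫⁻ x : Fin n → ℝ, ∏ i, f i (x i) = ∏ i, ∫⁻ t, f i t := by
  induction n with
  | zero =>
    simp only [Finset.univ_eq_empty, Finset.prod_empty, lintegral_one]
    rw [volume_pi, Measure.pi_of_empty _ (fun i => i.elim0)]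
    simp
  | succ n ih =>
    have hm : Measurable fun x : Fin (n + 1) → ℝ => ∏ i, f i (x i) :=
      Finset.measurable_prod _ fun i _ => (hf i).comp (measurable_pi_apply i)
    rw [lintegral_fin_succ n _ hm]
    simp only [Fin.prod_univ_succ, Fin.cons_zero, Fin.cons_succ]
    have h1 : ∀ w : Fin n → ℝ, ∫⁻ t, f 0 t * ∏ i : Fin n, f i.succ (w i) =
        (∫⁻ t, f 0 t) * ∏ i : Fin n, f i.succ (w i) := fun w =>
      lintegral_mul_const _ (hf 0)
    simp_rw [h1]
    rw [lintegral_const_mul _ (Finset.measurable_prod _ fun i _ =>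
      (hf i.succ).comp (measurable_pi_apply i)), ih (fun i => f i.succ) (fun i => hf i.succ)]

/-- Scaling in `ℝ^m`. -/
lemma lintegral_inv_smul (m : ℕ) {r : ℝ} (hr : 0 < r) (h : (Fin m → ℝ) → ℝ≥0∞) (hh : Measurable h) :
    ∫⁻ w : Fin m → ℝ, h (r⁻¹ • w) = ENNReal.ofReal (r ^ m) * ∫⁻ u, h u := by
  have hr' : r⁻¹ ≠ 0 := inv_ne_zero hr.ne'
  have hmap := Measure.map_addHaar_smul (volume : Measure (Fin m → ℝ)) hr'
  have hfr : Module.finrank ℝ (Fin m → ℝ) = m := by simp
  have hm : Measurable fun w : Fin m → ℝ => r⁻¹ • w := measurable_const_smul _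
  rw [← lintegral_map hh hm, hmap, lintegral_smul_measure, hfr]
  have : |((r⁻¹) ^ m)⁻¹| = r ^ m := by
    rw [inv_pow, inv_inv, abs_of_pos (by positivity)]
  rw [this, smul_eq_mul]

/-- Membership of the rescaled point in the simplex. -/
lemma inv_smul_mem_T (m : ℕ) {r : ℝ} (hr : 0 < r) (w : Fin m → ℝ) :
    r⁻¹ • w ∈ T m ↔ w ∈ orth m ∧ ∑ j, w j ≤ r := by
  have hrinv : 0 < r⁻¹ := inv_pos.mpr hr
  constructor
  · rintro ⟨h1, h2⟩
    refine ⟨fun j => ?_, ?_⟩
    · have := h1 j
      simp only [Pi.smul_apply, smul_eq_mul] at this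
      exact nonneg_of_mul_nonneg_right this hrinv
    · simp only [Pi.smul_apply, smul_eq_mul, ← Finset.mul_sum] at h2
      rwa [inv_mul_le_iff₀ hr, mul_one] at h2
  · rintro ⟨h1, h2⟩
    refine ⟨fun j => ?_, ?_⟩
    · simp only [Pi.smul_apply, smul_eq_mul]
      exact mul_nonneg hrinv.le (h1 j)
    · simp only [Pi.smul_apply, smul_eq_mul, ← Finset.mul_sum]
      rwa [inv_mul_le_iff₀ hr, mul_one]

/-- **Radial lift.** -/
theorem lift_lintegral (m k : ℕ) (g : (Fin m → ℝ) → ℝ≥0∞) (hg : Measurable g) :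
    ∫⁻ x in orth (m + 1), g ((∑ j, x j)⁻¹ • (fun j : Fin m => x j.succ)) *
        ENNReal.ofReal ((∑ j, x j) ^ k * Real.exp (-∑ j, x j)) =
      ((m + k)! : ℝ≥0∞) * ∫⁻ u in T m, g u := by
  classical
  set Γ : ℝ → (Fin m → ℝ) → ℝ≥0∞ := fun r w =>
    g (r⁻¹ • w) * ENNReal.ofReal (r ^ k * Real.exp (-r)) with hΓ
  have hΓm : Measurable fun p : ℝ × (Fin m → ℝ) => Γ p.1 p.2 := by
    refine Measurable.mul (hg.comp ?_) ?_
    · exact (measurable_fst.inv).smul measurable_snd
    · exact ENNReal.measurable_ofReal.comp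
        ((measurable_fst.pow_const k).mul (Real.measurable_exp.comp measurable_fst.neg))
  -- step 1: rewrite as a double integral
  set A : (Fin m → ℝ) → ℝ := fun w => ∑ j, w j with hA
  have hAm : Measurable A := Finset.measurable_sum _ fun j _ => measurable_pi_apply j
  have hfull : Measurable (indicator (orth (m + 1)) fun x : Fin (m + 1) → ℝ =>
      g ((∑ j, x j)⁻¹ • (fun j : Fin m => x j.succ)) *
        ENNReal.ofReal ((∑ j, x j) ^ k * Real.exp (-∑ j, x j))) := by
    refine Measurable.indicator ?_ (measurableSet_orth _)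
    have hs : Measurable fun x : Fin (m + 1) → ℝ => ∑ j, x j :=
      Finset.measurable_sum _ fun j _ => measurable_pi_apply j
    refine Measurable.mul (hg.comp ?_) ?_
    · refine (hs.inv).smul ?_
      exact measurable_pi_lambda _ fun j => measurable_pi_apply j.succ
    · exact ENNReal.measurable_ofReal.comp ((hs.pow_const k).mul (Real.measurable_exp.comp hs.neg))
  rw [← lintegral_indicator (measurableSet_orth _), lintegral_fin_succ m _ hfull]
  -- step 2: translate in the first variable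
  have hstep2 : ∀ w : Fin m → ℝ, ∫⁻ t : ℝ, indicator (orth (m + 1)) (fun x : Fin (m + 1) → ℝ =>
        g ((∑ j, x j)⁻¹ • (fun j : Fin m => x j.succ)) *
          ENNReal.ofReal ((∑ j, x j) ^ k * Real.exp (-∑ j, x j))) (Fin.cons t w) =
      ∫⁻ r : ℝ, indicator {p : ℝ × (Fin m → ℝ) | p.2 ∈ orth m ∧ A p.2 ≤ p.1}
        (fun p => Γ p.1 p.2) (r, w) := by
    intro w
    rw [← lintegral_add_right_eq_self (μ := volume) (fun r : ℝ =>
      indicator {p : ℝ × (Fin m → ℝ) | p.2 ∈ orth m ∧ A p.2 ≤ p.1}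
        (fun p => Γ p.1 p.2) (r, w)) (A w)]
    refine lintegral_congr fun t => ?_
    have hsum : ∑ j, (Fin.cons t w : Fin (m + 1) → ℝ) j = t + A w := by
      simp [Fin.sum_univ_succ, hA]
    have hmem : (Fin.cons t w : Fin (m + 1) → ℝ) ∈ orth (m + 1) ↔
        (t + A w, w) ∈ {p : ℝ × (Fin m → ℝ) | p.2 ∈ orth m ∧ A p.2 ≤ p.1} := by
      simp only [orth, Set.mem_ofPred_eq, Fin.forall_fin_succ, Fin.cons_zero, Fin.cons_succ]
      constructor
      · rintro ⟨h1, h2⟩
        exact ⟨h2, by linarith⟩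
      · rintro ⟨h1, h2⟩
        exact ⟨by linarith, h1⟩
    by_cases hx : (Fin.cons t w : Fin (m + 1) → ℝ) ∈ orth (m + 1)
    · rw [indicator_of_mem hx, indicator_of_mem (hmem.mp hx), hsum]
      simp [hΓ]
    · rw [indicator_of_notMem hx, indicator_of_notMem (fun h => hx (hmem.mpr h))]
  simp_rw [hstep2]
  -- step 3: Tonelli
  have hS : MeasurableSet {p : ℝ × (Fin m → ℝ) | p.2 ∈ orth m ∧ A p.2 ≤ p.1} := by
    refine (measurable_snd (measurableSet_orth m)).inter ?_
    exact measurableSet_le (hAm.comp measurable_snd) measurable_fst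
  have hΨ : Measurable (indicator {p : ℝ × (Fin m → ℝ) | p.2 ∈ orth m ∧ A p.2 ≤ p.1}
      (fun p => Γ p.1 p.2)) := hΓm.indicator hS
  have hswap : ∫⁻ w : Fin m → ℝ, ∫⁻ r : ℝ, indicator {p : ℝ × (Fin m → ℝ) | p.2 ∈ orth m ∧ A p.2 ≤ p.1}
        (fun p => Γ p.1 p.2) (r, w) =
      ∫⁻ r : ℝ, ∫⁻ w : Fin m → ℝ, indicator {p : ℝ × (Fin m → ℝ) | p.2 ∈ orth m ∧ A p.2 ≤ p.1}
        (fun p => Γ p.1 p.2) (r, w) := by
    rw [lintegral_lintegral_swap]
    exact (hΨ.comp measurable_swap).aemeasurable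
  rw [hswap]
  -- step 4: the inner integral
  set C : ℝ≥0∞ := ∫⁻ u in T m, g u with hC
  have hinner : ∀ r : ℝ, r ≠ 0 → ∫⁻ w : Fin m → ℝ,
      indicator {p : ℝ × (Fin m → ℝ) | p.2 ∈ orth m ∧ A p.2 ≤ p.1} (fun p => Γ p.1 p.2) (r, w) =
      indicator (Ioi (0 : ℝ)) (fun r => ENNReal.ofReal (r ^ (m + k) * Real.exp (-r)) * C) r := by
    intro r hr0
    rcases lt_or_gt_of_ne hr0 with hr | hr
    · -- negative radius
      rw [indicator_of_notMem (by simpa using hr.le)]
      have hz : ∀ w : Fin m → ℝ, indicator {p : ℝ × (Fin m → ℝ) | p.2 ∈ orth m ∧ A p.2 ≤ p.1}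
          (fun p => Γ p.1 p.2) (r, w) = 0 := by
        intro w
        refine indicator_of_notMem ?_ _
        rintro ⟨h1, h2⟩
        have h3 : 0 ≤ A w := Finset.sum_nonneg fun j _ => h1 j
        have h4 : A w ≤ r := h2
        linarith
      simp_rw [hz]
      simp
    · rw [indicator_of_mem (by simpa using hr)]
      have hpt : ∀ w : Fin m → ℝ,
          indicator {p : ℝ × (Fin m → ℝ) | p.2 ∈ orth m ∧ A p.2 ≤ p.1} (fun p => Γ p.1 p.2) (r, w) =
          ENNReal.ofReal (r ^ k * Real.exp (-r)) * indicator (T m) g (r⁻¹ • w) := by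
        intro w
        have hmem := inv_smul_mem_T m hr w
        by_cases hw : w ∈ orth m ∧ ∑ j, w j ≤ r
        · rw [indicator_of_mem (show (r, w) ∈ {p : ℝ × (Fin m → ℝ) | p.2 ∈ orth m ∧ A p.2 ≤ p.1} from hw),
            indicator_of_mem (hmem.mpr hw)]
          simp [hΓ, mul_comm]
        · rw [indicator_of_notMem (show (r, w) ∉ {p : ℝ × (Fin m → ℝ) | p.2 ∈ orth m ∧ A p.2 ≤ p.1} from hw),
            indicator_of_notMem (fun h => hw (hmem.mp h))]
          simp
      simp_rw [hpt]
      have hmm : Measurable fun w : Fin m → ℝ => indicator (T m) g (r⁻¹ • w) :=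
        (hg.indicator (measurableSet_T m)).comp (measurable_const_smul _)
      rw [lintegral_const_mul _ hmm,
        lintegral_inv_smul m hr _ (hg.indicator (measurableSet_T m)),
        lintegral_indicator (measurableSet_T m), ← mul_assoc,
        ← ENNReal.ofReal_mul (by positivity)]
      congr 2
      rw [pow_add]; ring
  have hae : (fun r : ℝ => ∫⁻ w : Fin m → ℝ,
      indicator {p : ℝ × (Fin m → ℝ) | p.2 ∈ orth m ∧ A p.2 ≤ p.1} (fun p => Γ p.1 p.2) (r, w)) =ᵐ[volume]
      indicator (Ioi (0 : ℝ)) (fun r => ENNReal.ofReal (r ^ (m + k) * Real.exp (-r)) * C) := by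
    have hne : ∀ᵐ r : ℝ, r ≠ 0 := by simp [ae_iff]
    filter_upwards [hne] with r hr using hinner r hr
  have hmeas : Measurable fun r : ℝ => ENNReal.ofReal (r ^ (m + k) * Real.exp (-r)) :=
    ENNReal.measurable_ofReal.comp ((measurable_id.pow_const _).mul
      (Real.measurable_exp.comp measurable_id.neg))
  rw [lintegral_congr_ae hae, lintegral_indicator measurableSet_Ioi,
    lintegral_mul_const _ hmeas, lintegral_pow_exp]

lemma measurable_bc {n : ℕ} (i : Fin (n + 1)) : Measurable fun x : Fin n → ℝ => bc x i := by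
  refine Fin.cases ?_ (fun j => ?_) i
  · simp only [bc, Fin.cases_zero]
    exact measurable_const.sub (Finset.measurable_sum _ fun j _ => measurable_pi_apply j)
  · simp only [bc, Fin.cases_succ]
    exact measurable_pi_apply j

/-- One dimensional factor. -/
lemma lintegral_Ici_pow_exp (k : ℕ) :
    ∫⁻ t, indicator (Ici (0 : ℝ)) (fun t => ENNReal.ofReal (t ^ k * Real.exp (-t))) t =
      (k ! : ℝ≥0∞) := by
  rw [lintegral_indicator measurableSet_Ici, setLIntegral_congr Ioi_ae_eq_Ici.symm,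
    lintegral_pow_exp]

/-- Barycentric coordinates of the rescaled tail. -/
lemma bc_inv_smul_tail {n : ℕ} (x : Fin (n + 1) → ℝ) (hs : (∑ j, x j) ≠ 0) (i : Fin (n + 1)) :
    bc ((∑ j, x j)⁻¹ • (fun j : Fin n => x j.succ)) i = x i / ∑ j, x j := by
  refine Fin.cases ?_ (fun j => ?_) i
  · simp only [bc, Fin.cases_zero, Pi.smul_apply, smul_eq_mul, ← Finset.mul_sum]
    have : ∑ j : Fin n, x j.succ = (∑ j, x j) - x 0 := by
      rw [Fin.sum_univ_succ]; ring
    rw [this]
    field_simp
    ring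
  · simp only [bc, Fin.cases_succ, Pi.smul_apply, smul_eq_mul]
    field_simp

/-- **Dirichlet integrals on the simplex.** -/
theorem dirichlet (n : ℕ) (p : Fin (n + 1) → ℕ) :
    ∫ x in T n, ∏ i, (bc x i) ^ (p i) = (∏ i, ((p i)! : ℝ)) / ((n + ∑ i, p i)! : ℝ) := by
  classical
  set k : ℕ := ∑ i, p i with hk
  set f : (Fin n → ℝ) → ℝ := fun x => ∏ i, (bc x i) ^ (p i) with hf
  have hfm : Measurable f := Finset.measurable_prod _ fun i _ => (measurable_bc i).pow_const _
  set g : (Fin n → ℝ) → ℝ≥0∞ := fun u => ENNReal.ofReal (f u) with hg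
  have hgm : Measurable g := ENNReal.measurable_ofReal.comp hfm
  have hlift := lift_lintegral n k g hgm
  -- the left side is a product
  have hne : ∀ᵐ x : Fin (n + 1) → ℝ, x ≠ 0 := by
    simp [ae_iff]
  have hL : ∫⁻ x in orth (n + 1), g ((∑ j, x j)⁻¹ • (fun j : Fin n => x j.succ)) *
        ENNReal.ofReal ((∑ j, x j) ^ k * Real.exp (-∑ j, x j)) =
      ∏ i, ((p i)! : ℝ≥0∞) := by
    rw [← lintegral_indicator (measurableSet_orth _)]
    have hcongr : (indicator (orth (n + 1)) fun x : Fin (n + 1) → ℝ =>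
          g ((∑ j, x j)⁻¹ • (fun j : Fin n => x j.succ)) *
          ENNReal.ofReal ((∑ j, x j) ^ k * Real.exp (-∑ j, x j))) =ᵐ[volume]
        fun x => ∏ i, indicator (Ici (0 : ℝ))
          (fun t => ENNReal.ofReal (t ^ (p i) * Real.exp (-t))) (x i) := by
      filter_upwards [hne] with x hx
      by_cases hxo : x ∈ orth (n + 1)
      · have hnn : ∀ i, 0 ≤ x i := hxo
        have hs : 0 < ∑ j, x j := by
          have h0 : 0 ≤ ∑ j, x j := Finset.sum_nonneg fun j _ => hnn j
          refine lt_of_le_of_ne h0 fun h => hx ?_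
          funext i
          exact (Finset.sum_eq_zero_iff_of_nonneg fun j _ => hnn j).mp h.symm i (Finset.mem_univ i)
        rw [indicator_of_mem hxo]
        have hpt : ∀ i, indicator (Ici (0 : ℝ))
            (fun t => ENNReal.ofReal (t ^ (p i) * Real.exp (-t))) (x i) =
            ENNReal.ofReal (x i ^ (p i) * Real.exp (-x i)) := fun i =>
          indicator_of_mem (mem_Ici.mpr (hnn i)) _
        simp_rw [hpt]
        rw [← ENNReal.ofReal_prod_of_nonneg fun i _ => by have := hnn i; positivity]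
        simp only [hg, hf]
        rw [← ENNReal.ofReal_mul]
        · congr 1
          simp_rw [bc_inv_smul_tail x hs.ne']
          simp only [div_pow]
          rw [Finset.prod_div_distrib, Finset.prod_mul_distrib, ← Real.exp_sum,
            Finset.prod_pow_eq_pow_sum, Finset.sum_neg_distrib]
          rw [← hk]
          field_simp
        · refine Finset.prod_nonneg fun i _ => ?_
          rw [bc_inv_smul_tail x hs.ne']
          have := hnn i
          positivity
      · rw [indicator_of_notMem hxo]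
        obtain ⟨i, hi⟩ : ∃ i, x i < 0 := by
          by_contra hcon
          simp only [not_exists, not_lt] at hcon
          exact hxo hcon
        symm
        refine Finset.prod_eq_zero (Finset.mem_univ i) (indicator_of_notMem ?_ _)
        simpa using hi
    have hmeas : ∀ i, Measurable (indicator (Ici (0 : ℝ))
        (fun t => ENNReal.ofReal (t ^ (p i) * Real.exp (-t)))) := fun i => by
      refine Measurable.indicator ?_ measurableSet_Ici
      exact ENNReal.measurable_ofReal.comp ((measurable_id.pow_const _).mul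
        (Real.measurable_exp.comp measurable_id.neg))
    rw [lintegral_congr_ae hcongr, lintegral_pi_prod (n + 1) (fun i => indicator (Ici (0 : ℝ))
      (fun t => ENNReal.ofReal (t ^ (p i) * Real.exp (-t)))) hmeas]
    exact Finset.prod_congr rfl fun i _ => lintegral_Ici_pow_exp (p i)
  rw [hL] at hlift
  -- pass to the Bochner integral
  have hnn : 0 ≤ᵐ[volume.restrict (T n)] f := by
    refine ae_restrict_of_forall_mem (measurableSet_T n) fun x hx => ?_
    refine Finset.prod_nonneg fun i _ => pow_nonneg ?_ _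
    refine Fin.cases ?_ (fun j => ?_) i
    · simp only [bc, Fin.cases_zero]
      linarith [hx.2]
    · simp only [bc, Fin.cases_succ]
      exact hx.1 j
  rw [integral_eq_lintegral_of_nonneg_ae hnn hfm.aestronglyMeasurable]
  have hR := congrArg ENNReal.toReal hlift
  rw [ENNReal.toReal_prod, ENNReal.toReal_mul] at hR
  have hfac : ∀ a : ℕ, ((a ! : ℝ≥0∞)).toReal = (a ! : ℝ) := fun a => by simp
  simp only [hfac] at hR
  have hpos : (0 : ℝ) < ((n + k)! : ℝ) := by positivity
  rw [hR, mul_div_cancel_left₀ _ hpos.ne']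

end Vale.Agent.Lib.P254
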