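import Vale.Agent.Lib.P254.Tensor
import Vale.Agent.Lib.P254.Lift

/-!
# P254: the cone over `K` and the boundary functions over the sectors
-/

open MeasureTheory Set
open scoped Nat

namespace Vale.Agent.Lib.P254

variable {n : ℕ}

/-- The tail of a vector. -/
def tl (x : Fin (n + 1) → ℝ) : Fin n → ℝ := fun j => x j.succ

/-- The cone over `K`. -/
def CC (K : Set (Fin n → ℝ)) : Set (Fin (n + 1) → ℝ) :=
  {x | x ∈ orth (n + 1) ∧ ∃ u ∈ K, tl x = (∑ k, x k) • u}

/-- A point of the `i`-th sector, with height `z` and base `y`. -/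
noncomputable def xp (i : Fin (n + 1)) (z : ℝ) (y : Fin n → ℝ) : Fin (n + 1) → ℝ :=
  ins i z (fun j => z + y j)

lemma sum_xp (i : Fin (n + 1)) (z : ℝ) (y : Fin n → ℝ) :
    ∑ k, xp i z y k = ((n : ℝ) + 1) * z + ∑ j, y j := by
  unfold xp
  rw [sum_ins, Finset.sum_add_distrib]
  simp
  ring

lemma xp_mem_orth (i : Fin (n + 1)) {z : ℝ} {y : Fin n → ℝ} (hz : 0 ≤ z) (hy : y ∈ orth n) :
    xp i z y ∈ orth (n + 1) :=
  ins_mem_orth i hz fun j => add_nonneg hz (hy j)

lemma xp_eq (i : Fin (n + 1)) (z : ℝ) (y : Fin n → ℝ) :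
    xp i z y = (fun _ => z) + ins i 0 y := by
  funext k
  rcases Fin.eq_self_or_eq_succAbove i k with rfl | ⟨j, rfl⟩
  · simp [xp]
  · simp [xp]

lemma xp_linear (i : Fin (n + 1)) (a b z z' : ℝ) (y y' : Fin n → ℝ) :
    xp i (a * z + b * z') (a • y + b • y') = a • xp i z y + b • xp i z' y' := by
  funext k
  rcases Fin.eq_self_or_eq_succAbove i k with rfl | ⟨j, rfl⟩
  · simp [xp]
  · simp [xp]; ring

lemma xp_smul (i : Fin (n + 1)) (a z : ℝ) (y : Fin n → ℝ) :
    xp i (a * z) (a • y) = a • xp i z y := by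
  funext k
  rcases Fin.eq_self_or_eq_succAbove i k with rfl | ⟨j, rfl⟩
  · simp [xp]
  · simp [xp]; ring

lemma orth_add {x x' : Fin n → ℝ} (h : x ∈ orth n) (h' : x' ∈ orth n) : x + x' ∈ orth n :=
  fun j => add_nonneg (h j) (h' j)

lemma orth_smul {x : Fin n → ℝ} {a : ℝ} (ha : 0 ≤ a) (h : x ∈ orth n) : a • x ∈ orth n :=
  fun j => mul_nonneg ha (h j)

lemma convex_orth : Convex ℝ (orth n) := by
  intro x hx y hy a b ha hb _
  exact orth_add (orth_smul ha hx) (orth_smul hb hy)

lemma CC_add {K : Set (Fin n → ℝ)} (hK : Convex ℝ K) {x x' : Fin (n + 1) → ℝ}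
    (h : x ∈ CC K) (h' : x' ∈ CC K) : x + x' ∈ CC K := by
  obtain ⟨h1, u, hu, e⟩ := h
  obtain ⟨h1', u', hu', e'⟩ := h'
  refine ⟨orth_add h1 h1', ?_⟩
  set s := ∑ k, x k with hs
  set s' := ∑ k, x' k with hs'
  have hs0 : 0 ≤ s := sum_nonneg_of_orth h1
  have hs0' : 0 ≤ s' := sum_nonneg_of_orth h1'
  have hsum : ∑ k, (x + x') k = s + s' := by
    simp only [Pi.add_apply, Finset.sum_add_distrib, hs, hs']
  have htl : tl (x + x') = s • u + s' • u' := by
    rw [← e, ← e']; rfl
  rw [hsum, htl]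
  rcases eq_or_lt_of_le (add_nonneg hs0 hs0') with h0 | h0
  · have h2 : s = 0 := by linarith
    have h3 : s' = 0 := by linarith
    refine ⟨u, hu, ?_⟩
    simp [h2, h3]
  · have ha : 0 ≤ s / (s + s') := by positivity
    have hb : 0 ≤ s' / (s + s') := by positivity
    have hab : s / (s + s') + s' / (s + s') = 1 := by field_simp
    refine ⟨_, hK hu hu' ha hb hab, ?_⟩
    rw [smul_add, smul_smul, smul_smul]
    congr 2 <;> field_simp

lemma CC_smul {K : Set (Fin n → ℝ)} {x : Fin (n + 1) → ℝ} {a : ℝ} (ha : 0 ≤ a)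
    (h : x ∈ CC K) : a • x ∈ CC K := by
  obtain ⟨h1, u, hu, e⟩ := h
  refine ⟨orth_smul ha h1, u, hu, ?_⟩
  have e1 : tl (a • x) = a • tl x := rfl
  have e2 : ∑ k, (a • x) k = a * ∑ k, x k := by
    simp [Finset.mul_sum]
  rw [e1, e2, e, smul_smul]

lemma mem_CC_of_pos {K : Set (Fin n → ℝ)} {x : Fin (n + 1) → ℝ} (hx : x ∈ orth (n + 1))
    (hs : 0 < ∑ k, x k) : x ∈ CC K ↔ (∑ k, x k)⁻¹ • tl x ∈ K := by
  constructor
  · rintro ⟨-, u, hu, e⟩
    rw [e, smul_smul, inv_mul_cancel₀ hs.ne', one_smul]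
    exact hu
  · intro h
    refine ⟨hx, _, h, ?_⟩
    rw [smul_smul, mul_inv_cancel₀ hs.ne', one_smul]

lemma zero_of_sum_eq_zero {m : ℕ} {x : Fin m → ℝ} (hx : x ∈ orth m) (hs : ∑ k, x k = 0) :
    x = 0 := by
  funext k
  have := (Finset.sum_eq_zero_iff_of_nonneg (fun j _ => hx j)).1 hs k (Finset.mem_univ k)
  simpa using this

lemma bary_mem_T : bary n ∈ T n := by
  refine ⟨fun j => by simp only [bary]; positivity, ?_⟩
  simp only [bary, Finset.sum_const, Finset.card_univ, Fintype.card_fin, nsmul_eq_mul]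
  rw [mul_one_div, div_le_one (by positivity)]
  linarith

section data

variable {ε : ℝ} {K : Set (Fin n → ℝ)}

lemma NearSimplex.bary_mem (hK : NearSimplex ε K) : bary n ∈ K := by
  have := hK.inner _ bary_mem_T
  simpa using this

lemma NearSimplex.zero_mem_CC (hK : NearSimplex ε K) : (0 : Fin (n + 1) → ℝ) ∈ CC K := by
  refine ⟨zero_mem_orth, bary n, hK.bary_mem, ?_⟩
  simp only [Pi.zero_apply, Finset.sum_const_zero, zero_smul]
  rfl

lemma NearSimplex.ones_mem (hK : NearSimplex ε K) :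
    (fun _ => 1 : Fin (n + 1) → ℝ) ∈ CC K := by
  refine ⟨fun _ => zero_le_one, bary n, hK.bary_mem, ?_⟩
  funext j
  simp only [tl, Finset.sum_const, Finset.card_univ, Fintype.card_fin, nsmul_eq_mul, mul_one,
    Pi.smul_apply, bary, smul_eq_mul]
  push_cast
  field_simp

lemma NearSimplex.const_mem (hK : NearSimplex ε K) {z : ℝ} (hz : 0 ≤ z) :
    (fun _ => z : Fin (n + 1) → ℝ) ∈ CC K := by
  have := CC_smul hz hK.ones_mem
  have e : z • (fun _ => 1 : Fin (n + 1) → ℝ) = fun _ => z := by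
    funext k; simp
  rwa [e] at this

/-- The set of admissible heights over `y`. -/
def Aset (K : Set (Fin n → ℝ)) (i : Fin (n + 1)) (y : Fin n → ℝ) : Set ℝ :=
  {z | 0 ≤ z ∧ xp i z y ∈ CC K}

/-- The constant `ε'`. -/
noncomputable def eps' (n : ℕ) (ε : ℝ) : ℝ := ε / ((1 - ε) * ((n : ℝ) + 1))

lemma eps'_nonneg (h0 : 0 < ε) (h1 : ε < 1) : 0 ≤ eps' n ε := by
  unfold eps'
  have : 0 < 1 - ε := by linarith
  positivity

lemma NearSimplex.Aset_up (hK : NearSimplex ε K) (i : Fin (n + 1)) {y : Fin n → ℝ} {z z' : ℝ}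
    (h : z ∈ Aset K i y) (hz : z ≤ z') : z' ∈ Aset K i y := by
  refine ⟨h.1.trans hz, ?_⟩
  have h2 := CC_add hK.convex h.2 (hK.const_mem (sub_nonneg.2 hz))
  have e : xp i z' y = xp i z y + fun _ => z' - z := by
    rw [xp_eq, xp_eq]
    funext k
    simp only [Pi.add_apply]
    ring
  rw [e]
  exact h2

lemma NearSimplex.Aset_upper (hK : NearSimplex ε K) (h0 : 0 < ε) (h1 : ε < 1)
    (i : Fin (n + 1)) {y : Fin n → ℝ} (hy : y ∈ orth n) :
    eps' n ε * ∑ j, y j ∈ Aset K i y := by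
  have hsy := sum_nonneg_of_orth hy
  have he := eps'_nonneg (n := n) h0 h1
  have hz0 : 0 ≤ eps' n ε * ∑ j, y j := mul_nonneg he hsy
  refine ⟨hz0, ?_⟩
  rcases eq_or_lt_of_le hsy with hs | hs
  · have hy0 : y = 0 := zero_of_sum_eq_zero hy hs.symm
    have : xp i (eps' n ε * ∑ j, y j) y = 0 := by
      rw [← hs, mul_zero, hy0]
      funext k
      rcases Fin.eq_self_or_eq_succAbove i k with rfl | ⟨j, rfl⟩
      · simp [xp]
      · simp [xp]
    rw [this]
    exact hK.zero_mem_CC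
  · set sy := ∑ j, y j with hsydef
    set z0 := eps' n ε * sy with hz0def
    have hx := xp_mem_orth i hz0 hy
    have h1e : 0 < 1 - ε := by linarith
    have hS : ∑ k, xp i z0 y k = sy / (1 - ε) := by
      rw [sum_xp, hz0def]
      simp only [eps']
      field_simp
      ring
    have hSpos : 0 < ∑ k, xp i z0 y k := by
      rw [hS]; positivity
    refine (mem_CC_of_pos hx hSpos).2 ?_
    -- the point `t` of the simplex
    set v : Fin (n + 1) → ℝ := ins i 0 y with hv
    have hvo : v ∈ orth (n + 1) := ins_mem_orth i le_rfl hy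
    have hvs : ∑ k, v k = sy := by
      rw [hv, sum_ins, zero_add]
    set t : Fin n → ℝ := sy⁻¹ • tl v with ht
    have htT : t ∈ T n := by
      refine ⟨fun j => mul_nonneg (by positivity) (hvo _), ?_⟩
      have e1 : ∑ k, v k = v 0 + ∑ j : Fin n, v j.succ := Fin.sum_univ_succ v
      have e2 : ∑ j, t j = sy⁻¹ * ∑ j : Fin n, v j.succ := by
        simp only [ht, tl, Pi.smul_apply, smul_eq_mul, Finset.mul_sum]
      rw [e2, inv_mul_le_iff₀ hs, mul_one, ← hvs, e1]
      linarith [hvo 0]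
    have hmem := hK.inner t htT
    have e : (∑ k, xp i z0 y k)⁻¹ • tl (xp i z0 y) = bary n + (1 - ε) • (t - bary n) := by
      rw [hS]
      funext j
      have e3 : tl (xp i z0 y) j = z0 + v j.succ := by
        simp only [tl, xp_eq, Pi.add_apply, hv]
      have e4 : t j = sy⁻¹ * v j.succ := rfl
      rw [Pi.smul_apply, e3]
      simp only [Pi.add_apply, Pi.smul_apply, Pi.sub_apply, smul_eq_mul, e4, bary, hz0def, eps']
      have hne : 1 - ε ≠ 0 := h1e.ne'
      field_simp
      ring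
    rw [e]
    exact hmem

lemma NearSimplex.Aset_closed (hK : NearSimplex ε K) (i : Fin (n + 1)) {y : Fin n → ℝ}
    (hy : y ∈ orth n) : IsClosed (Aset K i y) := by
  have hsy := sum_nonneg_of_orth hy
  rcases eq_or_lt_of_le hsy with hs | hs
  · have hy0 : y = 0 := zero_of_sum_eq_zero hy hs.symm
    have : Aset K i y = Ici 0 := by
      ext z
      constructor
      · exact fun h => h.1
      · intro h
        refine ⟨h, ?_⟩
        have e : xp i z y = fun _ => z := by
          rw [hy0]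
          funext k
          rcases Fin.eq_self_or_eq_succAbove i k with rfl | ⟨j, rfl⟩
          · simp [xp]
          · simp [xp]
        rw [e]
        exact hK.const_mem h
    rw [this]
    exact isClosed_Ici
  · set f : ℝ → (Fin n → ℝ) := fun z => (∑ k, xp i z y k)⁻¹ • tl (xp i z y) with hf
    have hcont : ContinuousOn f (Ici 0) := by
      have h1 : Continuous fun z : ℝ => tl (xp i z y) := by
        refine continuous_pi fun j => ?_
        have : (fun z : ℝ => tl (xp i z y) j) = fun z => z + ins i 0 y j.succ := by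
          funext z
          simp only [tl, xp_eq, Pi.add_apply]
        rw [this]
        fun_prop
      have h2 : ContinuousOn (fun z : ℝ => (∑ k, xp i z y k)⁻¹) (Ici 0) := by
        simp only [sum_xp]
        refine ContinuousOn.inv₀ (by fun_prop) fun z hz => ?_
        have : 0 ≤ z := hz
        have : 0 < ((n : ℝ) + 1) * z + ∑ j, y j := by positivity
        exact this.ne'
      exact h2.smul h1.continuousOn
    have e : Aset K i y = Ici 0 ∩ f ⁻¹' K := by
      ext z
      constructor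
      · rintro ⟨h1, h2⟩
        refine ⟨h1, ?_⟩
        have hS : 0 < ∑ k, xp i z y k := by
          rw [sum_xp]; positivity
        exact (mem_CC_of_pos (xp_mem_orth i h1 hy) hS).1 h2
      · rintro ⟨h1, h2⟩
        have h1' : 0 ≤ z := h1
        refine ⟨h1', ?_⟩
        have hS : 0 < ∑ k, xp i z y k := by
          rw [sum_xp]; positivity
        exact (mem_CC_of_pos (xp_mem_orth i h1' hy) hS).2 h2
    rw [e]
    exact hcont.preimage_isClosed_of_isClosed isClosed_Ici hK.closed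

/-- The boundary function over the `i`-th sector. -/
noncomputable def aF (K : Set (Fin n → ℝ)) (i : Fin (n + 1)) (y : Fin n → ℝ) : ℝ :=
  open Classical in if y ∈ orth n then sInf (Aset K i y) else 0

lemma NearSimplex.aF_mem (hK : NearSimplex ε K) (h0 : 0 < ε) (h1 : ε < 1)
    (i : Fin (n + 1)) {y : Fin n → ℝ} (hy : y ∈ orth n) : aF K i y ∈ Aset K i y := by
  unfold aF
  rw [if_pos hy]
  exact (hK.Aset_closed i hy).csInf_mem ⟨_, hK.Aset_upper h0 h1 i hy⟩ ⟨0, fun z hz => hz.1⟩

lemma NearSimplex.aF_nonneg (hK : NearSimplex ε K) (h0 : 0 < ε) (h1 : ε < 1)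
    (i : Fin (n + 1)) (y : Fin n → ℝ) : 0 ≤ aF K i y := by
  by_cases hy : y ∈ orth n
  · exact (hK.aF_mem h0 h1 i hy).1
  · unfold aF; rw [if_neg hy]

lemma NearSimplex.aF_le_of_mem {i : Fin (n + 1)} {y : Fin n → ℝ} (hy : y ∈ orth n) {z : ℝ}
    (h : z ∈ Aset K i y) : aF K i y ≤ z := by
  unfold aF
  rw [if_pos hy]
  exact csInf_le ⟨0, fun z hz => hz.1⟩ h

lemma NearSimplex.aF_le (hK : NearSimplex ε K) (h0 : 0 < ε) (h1 : ε < 1)
    (i : Fin (n + 1)) {y : Fin n → ℝ} (hy : y ∈ orth n) : aF K i y ≤ eps' n ε * ∑ j, y j :=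
  NearSimplex.aF_le_of_mem hy (hK.Aset_upper h0 h1 i hy)

/-- Exact description of membership in the cone along the vertical line over `y`. -/
lemma NearSimplex.xp_mem_iff (hK : NearSimplex ε K) (h0 : 0 < ε) (h1 : ε < 1)
    (i : Fin (n + 1)) {y : Fin n → ℝ} (hy : y ∈ orth n) {z : ℝ} (hz : 0 ≤ z) :
    xp i z y ∈ CC K ↔ aF K i y ≤ z := by
  constructor
  · intro h
    exact NearSimplex.aF_le_of_mem hy ⟨hz, h⟩
  · intro h
    exact (hK.Aset_up i (hK.aF_mem h0 h1 i hy) h).2

lemma measurable_lam : Measurable fun x : Fin (n + 1) → ℝ => (∑ k, x k)⁻¹ • tl x := by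
  refine measurable_pi_iff.2 fun j => ?_
  simp only [Pi.smul_apply, tl, smul_eq_mul]
  exact ((Finset.measurable_sum _ fun k _ => measurable_pi_apply k).inv).mul
    (measurable_pi_apply j.succ)

lemma NearSimplex.CC_eq (hK : NearSimplex ε K) :
    CC K = (orth (n + 1) ∩ {x | ∑ k, x k = 0}) ∪
      (orth (n + 1) ∩ ({x | ∑ k, x k = 0}ᶜ ∩ (fun x => (∑ k, x k)⁻¹ • tl x) ⁻¹' K)) := by
  ext x
  constructor
  · intro h
    by_cases hs : ∑ k, x k = 0
    · exact Or.inl ⟨h.1, hs⟩
    · have hpos : 0 < ∑ k, x k := lt_of_le_of_ne (sum_nonneg_of_orth h.1) (Ne.symm hs)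
      exact Or.inr ⟨h.1, hs, (mem_CC_of_pos h.1 hpos).1 h⟩
  · rintro (⟨h1, h2⟩ | ⟨h1, h2, h3⟩)
    · have := zero_of_sum_eq_zero h1 h2
      rw [this]
      exact hK.zero_mem_CC
    · have hpos : 0 < ∑ k, x k := lt_of_le_of_ne (sum_nonneg_of_orth h1) (Ne.symm h2)
      exact (mem_CC_of_pos h1 hpos).2 h3

lemma NearSimplex.measurableSet_CC (hK : NearSimplex ε K) : MeasurableSet (CC K) := by
  rw [hK.CC_eq]
  have h1 : MeasurableSet {x : Fin (n + 1) → ℝ | ∑ k, x k = 0} :=
    measurableSet_eq_fun (Finset.measurable_sum _ fun k _ => measurable_pi_apply k)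
      measurable_const
  exact ((measurableSet_orth _).inter h1).union
    ((measurableSet_orth _).inter (h1.compl.inter (measurable_lam hK.closed.measurableSet)))

lemma measurable_xp_right (i : Fin (n + 1)) (z : ℝ) : Measurable fun y : Fin n → ℝ => xp i z y := by
  unfold xp
  refine (measurable_ins i).comp (measurable_const.prodMk ?_)
  exact measurable_pi_iff.2 fun j => measurable_const.add (measurable_pi_apply j)

lemma measurable_xp (i : Fin (n + 1)) :
    Measurable fun p : ℝ × (Fin n → ℝ) => xp i p.1 p.2 := by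
  unfold xp
  have h : Measurable fun p : ℝ × (Fin n → ℝ) =>
      ((p.1, fun j => p.1 + p.2 j) : ℝ × (Fin n → ℝ)) :=
    measurable_fst.prodMk (measurable_pi_iff.2 fun j =>
      measurable_fst.add ((measurable_pi_apply j).comp measurable_snd))
  exact (measurable_ins i).comp h

lemma NearSimplex.measurable_aF (hK : NearSimplex ε K) (h0 : 0 < ε) (h1 : ε < 1)
    (i : Fin (n + 1)) : Measurable (aF K i) := by
  refine measurable_of_Iic fun q => ?_
  rcases lt_or_ge q 0 with hq | hq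
  · have : aF K i ⁻¹' Iic q = ∅ := by
      ext y
      simp only [mem_preimage, mem_Iic, mem_empty_iff_false, iff_false, not_le]
      exact lt_of_lt_of_le hq (hK.aF_nonneg h0 h1 i y)
    rw [this]
    exact MeasurableSet.empty
  · have : aF K i ⁻¹' Iic q = (orth n)ᶜ ∪ (orth n ∩ (fun y => xp i q y) ⁻¹' CC K) := by
      ext y
      simp only [mem_preimage, mem_Iic, mem_union, mem_compl_iff, mem_inter_iff]
      by_cases hy : y ∈ orth n
      · simp only [hy, not_true_eq_false, false_or, true_and]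
        exact (hK.xp_mem_iff h0 h1 i hy hq).symm
      · simp only [hy, not_false_eq_true, true_or, iff_true]
        unfold aF; rw [if_neg hy]; exact hq
    rw [this]
    exact (measurableSet_orth _).compl.union
      ((measurableSet_orth _).inter (measurable_xp_right i q hK.measurableSet_CC))

lemma NearSimplex.aF_convex (hK : NearSimplex ε K) (h0 : 0 < ε) (h1 : ε < 1)
    (i : Fin (n + 1)) : ConvexOn ℝ (orth n) (aF K i) := by
  refine ⟨convex_orth, fun y hy y' hy' a b ha hb hab => ?_⟩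
  have h2 := hK.aF_mem h0 h1 i hy
  have h3 := hK.aF_mem h0 h1 i hy'
  have hc : a • y + b • y' ∈ orth n := convex_orth hy hy' ha hb hab
  refine NearSimplex.aF_le_of_mem hc ⟨?_, ?_⟩
  · simp only [smul_eq_mul]
    exact add_nonneg (mul_nonneg ha h2.1) (mul_nonneg hb h3.1)
  · simp only [smul_eq_mul]
    rw [xp_linear]
    exact CC_add hK.convex (CC_smul ha h2.2) (CC_smul hb h3.2)

lemma NearSimplex.aF_hom_le (hK : NearSimplex ε K) (h0 : 0 < ε) (h1 : ε < 1)
    (i : Fin (n + 1)) {y : Fin n → ℝ} (hy : y ∈ orth n) {a : ℝ} (ha : 0 ≤ a) :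
    aF K i (a • y) ≤ a * aF K i y := by
  have h2 := hK.aF_mem h0 h1 i hy
  refine NearSimplex.aF_le_of_mem (orth_smul ha hy) ⟨mul_nonneg ha h2.1, ?_⟩
  rw [xp_smul]
  exact CC_smul ha h2.2

lemma NearSimplex.aF_hom (hK : NearSimplex ε K) (h0 : 0 < ε) (h1 : ε < 1)
    (i : Fin (n + 1)) {y : Fin n → ℝ} (hy : y ∈ orth n) {a : ℝ} (ha : 0 < a) :
    aF K i (a • y) = a * aF K i y := by
  refine le_antisymm (hK.aF_hom_le h0 h1 i hy ha.le) ?_
  have h2 := hK.aF_hom_le h0 h1 i (orth_smul ha.le hy) (a := a⁻¹) (by positivity)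
  rw [smul_smul, inv_mul_cancel₀ ha.ne', one_smul] at h2
  have h3 := mul_le_mul_of_nonneg_left h2 ha.le
  rwa [mul_inv_cancel_left₀ ha.ne'] at h3

lemma NearSimplex.aF_ones (hK : NearSimplex ε K) (h0 : 0 < ε) (h1 : ε < 1) (hn : 0 < n)
    (i : Fin (n + 1)) : aF K i (fun _ => 1) = 0 := by
  have hy : (fun _ => 1 : Fin n → ℝ) ∈ orth n := fun _ => zero_le_one
  refine le_antisymm (NearSimplex.aF_le_of_mem hy ⟨le_rfl, ?_⟩) (hK.aF_nonneg h0 h1 i _)
  have hnr : (0 : ℝ) < n := by exact_mod_cast hn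
  refine ⟨xp_mem_orth i le_rfl hy, facetCentroid n i, hK.facet i, ?_⟩
  rw [sum_xp]
  simp only [Finset.sum_const, Finset.card_univ, Fintype.card_fin, nsmul_eq_mul, mul_one, mul_zero,
    zero_add]
  funext j
  simp only [tl, Pi.smul_apply, facetCentroid, smul_eq_mul]
  rcases Fin.eq_self_or_eq_succAbove i j.succ with h | ⟨k, hk⟩
  · rw [if_pos h, h]
    simp [xp]
  · have hne : j.succ ≠ i := by
      rw [hk]; exact Fin.succAbove_ne i k
    rw [if_neg hne, hk]
    simp only [xp, ins_succAbove]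
    field_simp
    ring

/-- The boundary function is admissible. -/
lemma NearSimplex.adm (hK : NearSimplex ε K) (h0 : 0 < ε) (h1 : ε < 1) (hn : 0 < n)
    (i : Fin (n + 1)) : Adm (aF K i) (eps' n ε) where
  meas := hK.measurable_aF h0 h1 i
  conv := hK.aF_convex h0 h1 i
  nonneg := fun y _ => hK.aF_nonneg h0 h1 i y
  growth := fun y hy => by
    have := hK.aF_le h0 h1 i hy
    have he := eps'_nonneg (n := n) h0 h1
    nlinarith
  zero := hK.aF_ones h0 h1 hn i

end data

end Vale.Agent.Lib.P254
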