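import Mathlib

/-!
# P254: basic definitions
-/

open MeasureTheory Set

namespace Vale.Agent.Lib.P254

/-- The nonnegative orthant of `ℝ^n`. -/
def orth (n : ℕ) : Set (Fin n → ℝ) := {y | ∀ j, 0 ≤ y j}

/-- The standard simplex `{x : x_j ≥ 0, ∑ x_j ≤ 1}` in `ℝ^n`. -/
def T (n : ℕ) : Set (Fin n → ℝ) := {x | (∀ j, 0 ≤ x j) ∧ ∑ j, x j ≤ 1}

/-- Barycentric coordinates `(1 - ∑ x_j, x_1, …, x_n)` of `x ∈ ℝ^n`. -/
noncomputable def bc {n : ℕ} (x : Fin n → ℝ) : Fin (n + 1) → ℝ :=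
  fun i => Fin.cases (1 - ∑ j, x j) x i

/-- Lebesgue volume as a real number. -/
noncomputable def vol {n : ℕ} (K : Set (Fin n → ℝ)) : ℝ := (volume K).toReal

/-- Centroid `b_K = |K|⁻¹ ∫_K x dx`. -/
noncomputable def centroid {n : ℕ} (K : Set (Fin n → ℝ)) : Fin n → ℝ :=
  fun i => (∫ x in K, x i) / vol K

/-- Covariance matrix `|K|⁻¹ ∫_K (x - b_K)(x - b_K)ᵀ dx`. -/
noncomputable def cov {n : ℕ} (K : Set (Fin n → ℝ)) : Matrix (Fin n) (Fin n) ℝ :=
  fun i j => (∫ x in K, (x i - centroid K i) * (x j - centroid K j)) / vol K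

/-- The isotropic constant `L_K = (det Σ_K / |K|²)^{1/(2n)}`. -/
noncomputable def isoConst {n : ℕ} (K : Set (Fin n → ℝ)) : ℝ :=
  ((cov K).det / vol K ^ 2) ^ ((1 : ℝ) / (2 * (n : ℝ)))

/-- The barycenter of the standard simplex. -/
noncomputable def bary (n : ℕ) : Fin n → ℝ := fun _ => 1 / ((n : ℝ) + 1)

/-- The centroid of the `i`-th facet of the standard simplex (`i = 0` is the facet `∑ x_j = 1`,
`i = j.succ` is the facet `x_j = 0`). -/
noncomputable def facetCentroid (n : ℕ) (i : Fin (n + 1)) : Fin n → ℝ :=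
  fun j => if j.succ = i then 0 else 1 / (n : ℝ)

/-- The hypothesis on `K`: closed convex, inside the simplex, containing all facet centroids and
the homothetic copy of the simplex with ratio `1 - ε` about its barycenter. -/
structure NearSimplex {n : ℕ} (ε : ℝ) (K : Set (Fin n → ℝ)) : Prop where
  closed : IsClosed K
  convex : Convex ℝ K
  subset : K ⊆ T n
  facet : ∀ i, facetCentroid n i ∈ K
  inner : ∀ t ∈ T n, bary n + (1 - ε) • (t - bary n) ∈ K

end Vale.Agent.Lib.P254
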