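import Vale.Agent.Lib.P254.FinalT

/-!
# P254: the final step, from the main inequality to the comparison of isotropic constants
-/

open MeasureTheory Set Matrix
open scoped ENNReal Nat

namespace Vale.Agent.Lib.P254

lemma wMat_apply (n : ℕ) (i j : Fin n) :
    wMat n i j = ((n : ℝ) + 1) * ((n : ℝ) + 2) * ((if i = j then 1 else 0) + 1) := by
  simp [wMat, allOnes, Matrix.one_apply]

lemma wMat_quad (n : ℕ) (v : Fin n → ℝ) :
    ∑ i, ∑ j, wMat n i j * (v i * v j)
      = ((n : ℝ) + 1) * ((n : ℝ) + 2) * (∑ i, v i ^ 2 + (∑ i, v i) ^ 2) := by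
  simp_rw [wMat_apply]
  rw [pow_two (∑ i, v i), Finset.sum_mul_sum, ← Finset.sum_add_distrib, Finset.mul_sum]
  refine Finset.sum_congr rfl fun i _ => ?_
  have e : v i ^ 2 = ∑ j, (if i = j then 1 else 0) * (v i * v j) := by
    rw [Finset.sum_eq_single i]
    · simp [pow_two]
    · intro j _ hj
      simp [Ne.symm hj]
    · simp
  rw [e, ← Finset.sum_add_distrib, Finset.mul_sum]
  refine Finset.sum_congr rfl fun j _ => ?_
  ring

lemma wMat_quad_nonneg (n : ℕ) (v : Fin n → ℝ) : 0 ≤ ∑ i, ∑ j, wMat n i j * (v i * v j) := by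
  rw [wMat_quad]
  have : 0 ≤ ∑ i, v i ^ 2 := Finset.sum_nonneg fun i _ => sq_nonneg _
  positivity

/-- The function `G x = (n + 2) ((n + 1) ∑ l_i ^ 2 - 1)`. -/
noncomputable def fG (n : ℕ) (x : Fin n → ℝ) : ℝ :=
  ((n : ℝ) + 2) * (((n : ℝ) + 1) * ∑ i, (bc x i) ^ (2 : ℕ) - 1)

lemma continuous_sum_bc (n : ℕ) :
    Continuous fun x : Fin n → ℝ => ∑ i, (bc x i) ^ (2 : ℕ) :=
  continuous_finsetSum _ fun i _ => (continuous_bc i).pow 2

lemma continuous_fG (n : ℕ) : Continuous (fG n) := by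
  unfold fG
  exact continuous_const.mul ((continuous_const.mul (continuous_sum_bc n)).sub continuous_const)

lemma fG_eq (n : ℕ) (x : Fin n → ℝ) :
    ∑ i, ∑ j, wMat n i j * ((x i - 1 / ((n : ℝ) + 1)) * (x j - 1 / ((n : ℝ) + 1))) = fG n x := by
  have h1 : (0 : ℝ) < (n : ℝ) + 1 := by positivity
  rw [wMat_quad n (fun i => x i - 1 / ((n : ℝ) + 1))]
  unfold fG
  rw [Fin.sum_univ_succ]
  simp only [bc_zero, bc_succ]
  obtain ⟨s, hs⟩ : ∃ s, s = ∑ j, x j := ⟨_, rfl⟩
  obtain ⟨p, hp⟩ : ∃ p, p = ∑ j, x j ^ 2 := ⟨_, rfl⟩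
  have e1 : ∑ i, (x i - 1 / ((n : ℝ) + 1)) ^ 2
      = p - 2 * (1 / ((n : ℝ) + 1)) * s + n * (1 / ((n : ℝ) + 1)) ^ 2 := by
    have : ∀ i, (x i - 1 / ((n : ℝ) + 1)) ^ 2
        = x i ^ 2 - 2 * (1 / ((n : ℝ) + 1)) * x i + (1 / ((n : ℝ) + 1)) ^ 2 := by
      intro i; ring
    simp_rw [this]
    rw [Finset.sum_add_distrib, Finset.sum_sub_distrib, ← Finset.mul_sum, ← hp, ← hs]
    simp
  have e2 : ∑ i, (x i - 1 / ((n : ℝ) + 1)) = s - n * (1 / ((n : ℝ) + 1)) := by
    rw [Finset.sum_sub_distrib, ← hs]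
    simp
  rw [e1, e2, ← hs, ← hp]
  field_simp
  ring

/-- Second moments about two centres. -/
lemma steiner {n : ℕ} {K : Set (Fin n → ℝ)} (hK : K ⊆ T n) (hk : vol K ≠ 0) (i j : Fin n) (b : ℝ) :
    ∫ x in K, (x i - b) * (x j - b)
      = (∫ x in K, (x i - centroid K i) * (x j - centroid K j))
        + vol K * ((centroid K i - b) * (centroid K j - b)) := by
  rw [expand hK, expand hK]
  have hi : ∫ x in K, x i = centroid K i * vol K := by
    rw [centroid]; field_simp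
  have hj : ∫ x in K, x j = centroid K j * vol K := by
    rw [centroid]; field_simp
  rw [hi, hj]
  ring

lemma vol_mul_trace_le {n : ℕ} {K : Set (Fin n → ℝ)} (hK : K ⊆ T n) (hk : 0 < vol K) :
    vol K * (wMat n * cov K).trace ≤ ∫ x in K, fG n x := by
  set b : ℝ := 1 / ((n : ℝ) + 1) with hb
  have hk' : vol K ≠ 0 := hk.ne'
  have hfc : ∀ i : Fin n, Continuous fun x : Fin n → ℝ => x i - b :=
    fun i => (continuous_apply i).sub continuous_const
  have hint : ∀ i j : Fin n, IntegrableOn (fun x : Fin n → ℝ => (x i - b) * (x j - b)) K :=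
    fun i j => integrableOn_of_subset_T hK ((hfc i).mul (hfc j))
  have e1 : ∫ x in K, fG n x = ∑ i, ∑ j, wMat n i j * ∫ x in K, (x i - b) * (x j - b) := by
    have hfG : ∀ x, fG n x = ∑ i, ∑ j, wMat n i j * ((x i - b) * (x j - b)) := by
      intro x
      rw [hb]
      exact (fG_eq n x).symm
    simp_rw [hfG]
    have hI1 : ∀ i j : Fin n, IntegrableOn
        (fun x : Fin n → ℝ => wMat n i j * ((x i - b) * (x j - b))) K :=
      fun i j => (hint i j).const_mul _
    have hI2 : ∀ i : Fin n, IntegrableOn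
        (fun x : Fin n → ℝ => ∑ j, wMat n i j * ((x i - b) * (x j - b))) K :=
      fun i => integrable_finsetSum _ fun j _ => hI1 i j
    rw [integral_finsetSum _ fun i _ => hI2 i]
    refine Finset.sum_congr rfl fun i _ => ?_
    rw [integral_finsetSum _ fun j _ => hI1 i j]
    refine Finset.sum_congr rfl fun j _ => ?_
    rw [integral_const_mul]
  have e2 : vol K * (wMat n * cov K).trace
      = ∑ i, ∑ j, wMat n i j *
        ∫ x in K, (x i - centroid K i) * (x j - centroid K j) := by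
    rw [Matrix.trace, Finset.mul_sum]
    refine Finset.sum_congr rfl fun i _ => ?_
    rw [Matrix.diag_apply, Matrix.mul_apply, Finset.mul_sum]
    refine Finset.sum_congr rfl fun j _ => ?_
    have e3 : ∫ x in K, (x i - centroid K i) * (x j - centroid K j) = vol K * cov K j i := by
      rw [cov]
      rw [mul_div_cancel₀ _ hk']
      refine integral_congr_ae (Filter.Eventually.of_forall fun x => ?_)
      simp only
      ring
    rw [e3]
    ring
  have e3 : (∫ x in K, fG n x) - vol K * (wMat n * cov K).trace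
      = vol K * ∑ i, ∑ j, wMat n i j * ((centroid K i - b) * (centroid K j - b)) := by
    rw [e1, e2, Finset.mul_sum, ← Finset.sum_sub_distrib]
    refine Finset.sum_congr rfl fun i _ => ?_
    rw [Finset.mul_sum, ← Finset.sum_sub_distrib]
    refine Finset.sum_congr rfl fun j _ => ?_
    rw [steiner hK hk' i j b]
    ring
  have h0 := wMat_quad_nonneg n (fun i => centroid K i - b)
  have h1 : 0 ≤ (∫ x in K, fG n x) - vol K * (wMat n * cov K).trace := by
    rw [e3]
    exact mul_nonneg hk.le h0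
  linarith

lemma integral_sum_bc_T (n : ℕ) :
    ∫ x in T n, ∑ i, (bc x i) ^ (2 : ℕ) = ((n : ℝ) + 1) * (2 / ((n + 2)! : ℝ)) := by
  have hI : ∀ i : Fin (n + 1), IntegrableOn (fun x : Fin n → ℝ => (bc x i) ^ (2 : ℕ)) (T n) :=
    fun i => integrableOn_of_subset_T (le_refl _) ((continuous_bc i).pow 2)
  rw [integral_finsetSum _ fun i _ => hI i]
  simp_rw [moment2]
  simp

lemma integral_fG_subset {n : ℕ} {A : Set (Fin n → ℝ)} (hA : A ⊆ T n) :
    ∫ x in A, fG n x
      = ((n : ℝ) + 2) * (((n : ℝ) + 1) * (∫ x in A, ∑ i, (bc x i) ^ (2 : ℕ)) - vol A) := by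
  unfold fG
  have h1 : IntegrableOn (fun x : Fin n → ℝ => ∑ i, (bc x i) ^ (2 : ℕ)) A :=
    integrableOn_of_subset_T hA (continuous_sum_bc n)
  have h2 : IntegrableOn (fun _ : Fin n → ℝ => (1 : ℝ)) A :=
    integrableOn_of_subset_T hA continuous_const
  rw [integral_const_mul, integral_sub (h1.const_mul _) h2, integral_const_mul,
    vol_eq_integral_one]

lemma integral_fG_T (n : ℕ) : ∫ x in T n, fG n x = (n : ℝ) * vol (T n) := by
  rw [integral_fG_subset (le_refl _), integral_sum_bc_T, vol_T, factorial_ratio2]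
  have hf : (0 : ℝ) < n ! := by positivity
  have h1 : (0 : ℝ) < (n : ℝ) + 1 := by positivity
  have h2 : (0 : ℝ) < (n : ℝ) + 2 := by positivity
  field_simp
  ring

/-- Bernoulli. -/
lemma bernoulli_aux {n : ℕ} (hn : 0 < n) {ρ : ℝ} (_h0 : 0 ≤ ρ) (h1 : ρ < 1)
    (ha : 0 ≤ 1 - (1 + 2 / (n : ℝ)) * ρ) :
    (1 - (1 + 2 / (n : ℝ)) * ρ) ^ n ≤ (1 - ρ) ^ (n + 2) ∧
      (0 < ρ → (1 - (1 + 2 / (n : ℝ)) * ρ) ^ n < (1 - ρ) ^ (n + 2)) := by
  have hn' : (0 : ℝ) < n := by exact_mod_cast hn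
  have hb0 : 0 ≤ 1 - ρ := by linarith
  have hp : (1 : ℝ) < 1 + 2 / (n : ℝ) := by
    have : 0 < 2 / (n : ℝ) := by positivity
    linarith
  have hs : (-1 : ℝ) ≤ -ρ := by linarith
  have e : ((1 - ρ) ^ (1 + 2 / (n : ℝ))) ^ n = (1 - ρ) ^ (n + 2) := by
    rw [← Real.rpow_natCast ((1 - ρ) ^ (1 + 2 / (n : ℝ))) n, ← Real.rpow_mul hb0]
    have : (1 + 2 / (n : ℝ)) * (n : ℝ) = ((n + 2 : ℕ) : ℝ) := by
      push_cast
      field_simp
    rw [this, Real.rpow_natCast]
  have hab : ∀ x : ℝ, 1 + (1 + 2 / (n : ℝ)) * (-x) = 1 - (1 + 2 / (n : ℝ)) * x := by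
    intro x; ring
  constructor
  · have h2 := one_add_mul_self_le_rpow_one_add hs hp.le
    rw [hab, ← sub_eq_add_neg] at h2
    rw [← e]
    exact pow_le_pow_left₀ ha h2 n
  · intro hρ
    have hne : -ρ ≠ 0 := by
      intro h
      linarith
    have h2 := one_add_mul_self_lt_rpow_one_add hs hne hp
    rw [hab, ← sub_eq_add_neg] at h2
    rw [← e]
    exact pow_lt_pow_left₀ h2 ha hn.ne'

/-- The inequality between numbers. -/
lemma final_real {n : ℕ} (hn : 0 < n) {t r k τ dC dW : ℝ} (ht : 0 < t) (hr : 0 ≤ r) (hk : 0 < k)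
    (hsum : k = t - r) (hτ0 : 0 ≤ τ) (hτ : k * τ ≤ n * t - ((n : ℝ) + 2) * r) (hdC0 : 0 ≤ dC)
    (hdW : 0 < dW) (hAM : dC * dW ≤ (τ / n) ^ n) :
    dC / k ^ 2 ≤ (1 / dW) / t ^ 2 ∧ (0 < r → dC / k ^ 2 < (1 / dW) / t ^ 2) := by
  have hn' : (0 : ℝ) < n := by exact_mod_cast hn
  obtain ⟨ρ, hρ⟩ : ∃ ρ, ρ = r / t := ⟨_, rfl⟩
  have hr_eq : r = ρ * t := by rw [hρ]; field_simp
  have hρ0 : 0 ≤ ρ := by rw [hρ]; positivity
  have hb_eq : k = (1 - ρ) * t := by rw [hsum, hr_eq]; ring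
  have hb_pos : 0 < 1 - ρ := by
    by_contra h
    push Not at h
    have := mul_nonpos_of_nonpos_of_nonneg h ht.le
    linarith
  have hρ1 : ρ < 1 := by linarith
  obtain ⟨a, ha⟩ : ∃ a, a = 1 - (1 + 2 / (n : ℝ)) * ρ := ⟨_, rfl⟩
  have hA : n * t - ((n : ℝ) + 2) * r = n * t * a := by
    rw [ha, hr_eq]; field_simp
  rw [hA] at hτ
  have ha0 : 0 ≤ a := by
    have h1 : 0 ≤ k * τ := by positivity
    have h2 : 0 ≤ n * t * a := by linarith
    have h3 : 0 < n * t := by positivity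
    by_contra h
    push Not at h
    have := mul_neg_of_pos_of_neg h3 h
    linarith
  have hτn : τ / n ≤ a / (1 - ρ) := by
    rw [div_le_div_iff₀ hn' hb_pos]
    have h1 : (1 - ρ) * t * τ ≤ n * t * a := by rw [← hb_eq]; exact hτ
    have h2 : t * (τ * (1 - ρ)) ≤ t * (a * n) := by nlinarith
    exact le_of_mul_le_mul_left h2 ht
  have hpow : (τ / n) ^ n ≤ (a / (1 - ρ)) ^ n :=
    pow_le_pow_left₀ (by positivity) hτn n
  have hk2 : k ^ 2 = (1 - ρ) ^ 2 * t ^ 2 := by rw [hb_eq]; ring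
  obtain ⟨hB1, hB2⟩ := bernoulli_aux hn hρ0 hρ1 (ha ▸ ha0)
  rw [← ha] at hB1 hB2
  have hkey : dC / k ^ 2 ≤ (a ^ n / (1 - ρ) ^ (n + 2)) * ((1 / dW) / t ^ 2) := by
    rw [hk2, div_le_iff₀ (by positivity)]
    have e1 : a ^ n / (1 - ρ) ^ (n + 2) * (1 / dW / t ^ 2) * ((1 - ρ) ^ 2 * t ^ 2)
        = (a / (1 - ρ)) ^ n / dW := by
      rw [div_pow, pow_add]
      field_simp
    rw [e1, le_div_iff₀ hdW]
    exact hAM.trans hpow
  have hpos : 0 < (1 / dW) / t ^ 2 := by positivity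
  have hbp : 0 < (1 - ρ) ^ (n + 2) := by positivity
  constructor
  · refine hkey.trans ?_
    have h1 : a ^ n / (1 - ρ) ^ (n + 2) ≤ 1 := by
      rw [div_le_one hbp]
      exact hB1
    calc a ^ n / (1 - ρ) ^ (n + 2) * ((1 / dW) / t ^ 2) ≤ 1 * ((1 / dW) / t ^ 2) :=
          mul_le_mul_of_nonneg_right h1 hpos.le
      _ = (1 / dW) / t ^ 2 := one_mul _
  · intro hrpos
    have hρpos : 0 < ρ := by rw [hρ]; positivity
    refine lt_of_le_of_lt hkey ?_
    have h1 : a ^ n / (1 - ρ) ^ (n + 2) < 1 := by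
      rw [div_lt_one hbp]
      exact hB2 hρpos
    calc a ^ n / (1 - ρ) ^ (n + 2) * ((1 / dW) / t ^ 2) < 1 * ((1 / dW) / t ^ 2) :=
          mul_lt_mul_of_pos_right h1 hpos
      _ = (1 / dW) / t ^ 2 := one_mul _

lemma measure_T_ne_top (n : ℕ) : volume (T n) ≠ ∞ := (isCompact_T n).measure_lt_top.ne

lemma vol_K_pos {n : ℕ} {ε : ℝ} (h1 : ε < 1) {K : Set (Fin n → ℝ)} (hK : NearSimplex ε K) :
    0 < vol K := by
  have himg : AffineMap.homothety (bary n) (1 - ε) '' (T n) ⊆ K := by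
    rintro _ ⟨t, ht, rfl⟩
    have := hK.inner t ht
    have e : AffineMap.homothety (bary n) (1 - ε) t = bary n + (1 - ε) • (t - bary n) := by
      rw [AffineMap.homothety_apply]
      simp [add_comm]
    rw [e]
    exact this
  have h2 := Measure.addHaar_image_homothety (volume : Measure (Fin n → ℝ)) (bary n) (1 - ε) (T n)
  have h3 : 0 < volume (T n) := by
    have := vol_T_pos n
    exact (ENNReal.toReal_pos_iff.mp this).1
  have h4 : 0 < volume (AffineMap.homothety (bary n) (1 - ε) '' (T n)) := by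
    rw [h2]
    refine ENNReal.mul_pos ?_ h3.ne'
    have h5 : 0 < 1 - ε := by linarith
    have : 0 < |(1 - ε) ^ Module.finrank ℝ (Fin n → ℝ)| := abs_pos.mpr (by positivity)
    exact (ENNReal.ofReal_pos.mpr this).ne'
  have h5 : 0 < volume K := lt_of_lt_of_le h4 (measure_mono himg)
  have h6 : volume K ≠ ∞ :=
    ((measure_mono hK.subset).trans_lt (isCompact_T n).measure_lt_top).ne
  exact ENNReal.toReal_pos h5.ne' h6

lemma vol_diff_pos {n : ℕ} {K : Set (Fin n → ℝ)} (hc : IsClosed K) (hs : K ⊆ T n) (hne : K ≠ T n) :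
    0 < vol (T n \ K) := by
  obtain ⟨t, ht, htK⟩ : ∃ t ∈ T n, t ∉ K := by
    by_contra h
    push Not at h
    exact hne (Set.Subset.antisymm hs h)
  -- a point near `t` in the interior of the simplex and outside `K`
  set f : ℝ → (Fin n → ℝ) := fun s => (1 - s) • t + s • bary n with hf
  have hfc : Continuous f := by
    rw [hf]; fun_prop
  have hopen : IsOpen (f ⁻¹' Kᶜ) := hc.isOpen_compl.preimage hfc
  have h0 : (0 : ℝ) ∈ f ⁻¹' Kᶜ := by
    simp [hf, htK]
  obtain ⟨δ, hδ, hball⟩ := Metric.isOpen_iff.mp hopen 0 h0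
  obtain ⟨s, hs0, hs1, hsδ⟩ : ∃ s : ℝ, 0 < s ∧ s < 1 ∧ s < δ :=
    ⟨min (δ / 2) (1 / 2), by positivity, by
      have := min_le_right (δ / 2) (1 / 2 : ℝ); linarith, by
      have := min_le_left (δ / 2) (1 / 2 : ℝ); linarith⟩
  have hsK : f s ∉ K := by
    have : s ∈ Metric.ball (0 : ℝ) δ := by
      simp [abs_of_pos hs0, hsδ]
    exact hball this
  set V : Set (Fin n → ℝ) := {x | ∀ j, 0 < x j} ∩ {x | ∑ j, x j < 1} with hV
  have hVo : IsOpen V := by
    refine IsOpen.inter ?_ (isOpen_lt (by fun_prop) continuous_const)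
    have : {x : Fin n → ℝ | ∀ j, 0 < x j} = ⋂ j, {x | 0 < x j} := by
      ext x; simp
    rw [this]
    exact isOpen_iInter_of_finite fun j => isOpen_lt continuous_const (continuous_apply j)
  have hsV : f s ∈ V := by
    have hn1 : (0 : ℝ) < (n : ℝ) + 1 := by positivity
    constructor
    · intro j
      simp only [hf, Pi.add_apply, Pi.smul_apply, smul_eq_mul, bary]
      have h2 : 0 ≤ (1 - s) * t j := mul_nonneg (by linarith) (ht.1 j)
      have h3 : 0 < s * (1 / ((n : ℝ) + 1)) := by positivity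
      linarith
    · show ∑ j, f s j < 1
      simp only [hf, Pi.add_apply, Pi.smul_apply, smul_eq_mul, bary]
      rw [Finset.sum_add_distrib, ← Finset.mul_sum]
      simp only [Finset.sum_const, Finset.card_univ, Fintype.card_fin, nsmul_eq_mul]
      have h2 : (1 - s) * ∑ j, t j ≤ (1 - s) * 1 :=
        mul_le_mul_of_nonneg_left ht.2 (by linarith)
      have h3 : (n : ℝ) * (s * (1 / ((n : ℝ) + 1))) < s := by
        have e : (n : ℝ) * (s * (1 / ((n : ℝ) + 1))) = s * ((n : ℝ) / ((n : ℝ) + 1)) := by ring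
        rw [e]
        have h4 : (n : ℝ) / ((n : ℝ) + 1) < 1 := by
          rw [div_lt_one hn1]; linarith
        nlinarith
      linarith
  have hU : IsOpen (Kᶜ ∩ V) := hc.isOpen_compl.inter hVo
  have hUne : (Kᶜ ∩ V).Nonempty := ⟨f s, hsK, hsV⟩
  have hUsub : Kᶜ ∩ V ⊆ T n \ K := by
    rintro x ⟨hx1, hx2⟩
    exact ⟨⟨fun j => (hx2.1 j).le, hx2.2.le⟩, hx1⟩
  have hpos : 0 < volume (T n \ K) :=
    lt_of_lt_of_le (hU.measure_pos volume hUne) (measure_mono hUsub)
  have htop : volume (T n \ K) ≠ ∞ :=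
    ((measure_mono Set.sdiff_subset).trans_lt (isCompact_T n).measure_lt_top).ne
  exact ENNReal.toReal_pos hpos.ne' htop

/-- The final step in general dimension. -/
theorem final_gen (n : ℕ) (hn : 0 < n) (ε : ℝ) (h1 : ε < 1) (K : Set (Fin n → ℝ))
    (hK : NearSimplex ε K)
    (hmain : 2 * vol (T n \ K) ≤ ((n : ℝ) + 1) * ∫ x in T n \ K, ∑ i, (bc x i) ^ (2 : ℕ)) :
    isoConst K ≤ isoConst (T n) ∧ (isoConst K = isoConst (T n) → K = T n) := by
  have hn' : (0 : ℝ) < n := by exact_mod_cast hn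
  have hKT := hK.subset
  have hKm : MeasurableSet K := hK.closed.measurableSet
  have hk := vol_K_pos h1 hK
  have hC := cov_posSemidef hKT
  -- volumes
  have hvol : vol K = vol (T n) - vol (T n \ K) := by
    rw [← vol_eq_integral_one, ← vol_eq_integral_one, ← vol_eq_integral_one,
      setIntegral_sdiff hKm (integrableOn_of_subset_T (le_refl _) continuous_const) hKT]
    ring
  have hr0 : 0 ≤ vol (T n \ K) := ENNReal.toReal_nonneg
  -- the trace
  have hτ : vol K * (wMat n * cov K).trace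
      ≤ (n : ℝ) * vol (T n) - ((n : ℝ) + 2) * vol (T n \ K) := by
    refine (vol_mul_trace_le hKT hk).trans ?_
    have h3 : ∫ x in K, fG n x = (∫ x in T n, fG n x) - ∫ x in T n \ K, fG n x := by
      rw [setIntegral_sdiff hKm (integrableOn_of_subset_T (le_refl _) (continuous_fG n)) hKT]
      ring
    rw [h3, integral_fG_T, integral_fG_subset Set.sdiff_subset]
    have h4 : (0 : ℝ) < (n : ℝ) + 2 := by positivity
    have h5 : 2 * vol (T n \ K) - vol (T n \ K) ≤ ((n : ℝ) + 1) *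
        (∫ x in T n \ K, ∑ i, (bc x i) ^ (2 : ℕ)) - vol (T n \ K) := by linarith
    have h6 := mul_le_mul_of_nonneg_left h5 h4.le
    nlinarith
  -- the trace is nonnegative
  have hτ0 : 0 ≤ (wMat n * cov K).trace := by
    obtain ⟨B, hB⟩ := exists_root_wMat n hn
    have hM : (B * cov K * Bᵀ).PosSemidef := by
      have := hC.mul_mul_conjTranspose_same B
      simpa [conjTranspose_eq_transpose_of_trivial] using this
    have h3 : (B * cov K * Bᵀ).trace = ((Bᵀ * B) * cov K).trace := by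
      rw [Matrix.trace_mul_comm, ← Matrix.mul_assoc]
    rw [← hB, ← h3]
    exact hM.trace_nonneg
  -- AM-GM
  have hAM : (cov K).det * (wMat n).det ≤ ((wMat n * cov K).trace / n) ^ n := by
    obtain ⟨B, hB⟩ := exists_root_wMat n hn
    rw [← hB]
    exact det_mul_det_le hn hC
  obtain ⟨hle, hlt⟩ := final_real hn (vol_T_pos n) hr0 hk hvol hτ0 hτ hC.det_nonneg
    (det_wMat_pos n) hAM
  rw [← det_cov_T] at hle hlt
  have hexp : (0 : ℝ) < 1 / (2 * (n : ℝ)) := by positivity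
  have hdq : 0 ≤ (cov K).det / vol K ^ 2 := div_nonneg hC.det_nonneg (by positivity)
  constructor
  · exact Real.rpow_le_rpow hdq hle hexp.le
  · intro heq
    by_contra hne
    have hr := vol_diff_pos hK.closed hKT hne
    have := Real.rpow_lt_rpow hdq (hlt hr) hexp
    unfold isoConst at heq
    linarith

/-- **Final step.** -/
theorem final_of_main (m : ℕ) (ε : ℝ) (_h0 : 0 < ε) (h1 : ε < 1) (K : Set (Fin (m + 1) → ℝ))
    (hK : NearSimplex ε K)
    (hmain : 2 * vol (T (m + 1) \ K)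
      ≤ ((m : ℝ) + 2) * ∫ x in T (m + 1) \ K, ∑ i, (bc x i) ^ (2 : ℕ)) :
    isoConst K ≤ isoConst (T (m + 1)) ∧ (isoConst K = isoConst (T (m + 1)) → K = T (m + 1)) := by
  refine final_gen (m + 1) (Nat.succ_pos m) ε h1 K hK ?_
  have e : (((m + 1 : ℕ) : ℝ) + 1) = (m : ℝ) + 2 := by push_cast; ring
  rw [e]
  exact hmain

end Vale.Agent.Lib.P254
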