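import Vale.Agent.Lib.P254.Defs

/-!
# P254: matrix facts for the final step
AM-GM for determinants against the matrix `W = β (1 + J)`.
-/

open Matrix

namespace Vale.Agent.Lib.P254

/-- The all-ones matrix. -/
def allOnes (n : ℕ) : Matrix (Fin n) (Fin n) ℝ := fun _ _ => 1

lemma allOnes_mul_self (n : ℕ) : allOnes n * allOnes n = (n : ℝ) • allOnes n := by
  ext i j
  simp [allOnes, Matrix.mul_apply]

lemma allOnes_transpose (n : ℕ) : (allOnes n)ᵀ = allOnes n := by
  ext i j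
  simp [allOnes]

lemma det_le_trace_pow {n : ℕ} (hn : 0 < n) {M : Matrix (Fin n) (Fin n) ℝ} (hM : M.PosSemidef) :
    M.det ≤ (M.trace / n) ^ n := by
  have hH := hM.isHermitian
  have hdet := hH.det_eq_prod_eigenvalues
  have htr := hH.trace_eq_sum_eigenvalues
  have hnn : ∀ i, 0 ≤ hH.eigenvalues i := fun i => hM.eigenvalues_nonneg i
  simp only [RCLike.ofReal_real_eq_id, id] at hdet htr
  rw [hdet, htr]
  have hn' : (0 : ℝ) < n := by exact_mod_cast hn
  have hw : ∑ i : Fin n, (1 / (n : ℝ)) = 1 := by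
    simp
    field_simp
  have h2 := Real.geom_mean_le_arith_mean_weighted Finset.univ (fun _ : Fin n => 1 / (n : ℝ))
    hH.eigenvalues (fun _ _ => by positivity) hw (fun i _ => hnn i)
  have h3 : ∑ i : Fin n, (1 / (n : ℝ)) * hH.eigenvalues i = (∑ i, hH.eigenvalues i) / n := by
    rw [← Finset.mul_sum]; ring
  rw [h3] at h2
  have h4 : 0 ≤ ∏ i : Fin n, hH.eigenvalues i ^ (1 / (n : ℝ)) :=
    Finset.prod_nonneg fun i _ => Real.rpow_nonneg (hnn i) _
  have h5 := pow_le_pow_left₀ h4 h2 n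
  refine le_trans (le_of_eq ?_) h5
  rw [← Finset.prod_pow]
  refine Finset.prod_congr rfl fun i _ => ?_
  rw [← Real.rpow_natCast, ← Real.rpow_mul (hnn i)]
  field_simp
  simp

/-- AM-GM: `det C det (Bᵀ B) ≤ (tr (Bᵀ B C) / n) ^ n`. -/
lemma det_mul_det_le {n : ℕ} (hn : 0 < n) {C B : Matrix (Fin n) (Fin n) ℝ} (hC : C.PosSemidef) :
    C.det * (Bᵀ * B).det ≤ (((Bᵀ * B) * C).trace / n) ^ n := by
  have hM : (B * C * Bᵀ).PosSemidef := by
    have := hC.mul_mul_conjTranspose_same B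
    simpa [conjTranspose_eq_transpose_of_trivial] using this
  have h1 := det_le_trace_pow hn hM
  have h2 : (B * C * Bᵀ).det = C.det * (Bᵀ * B).det := by
    simp [Matrix.det_mul, Matrix.det_transpose]
    ring
  have h3 : (B * C * Bᵀ).trace = ((Bᵀ * B) * C).trace := by
    rw [Matrix.trace_mul_comm, ← Matrix.mul_assoc]
  rw [h2, h3] at h1
  exact h1

/-- The matrix `W = β (1 + J)`. -/
noncomputable def wMat (n : ℕ) : Matrix (Fin n) (Fin n) ℝ :=
  (((n : ℝ) + 1) * ((n : ℝ) + 2)) • (1 + allOnes n)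

/-- `W` has the form `Bᵀ B`. -/
lemma exists_root_wMat (n : ℕ) (hn : 0 < n) :
    ∃ B : Matrix (Fin n) (Fin n) ℝ, Bᵀ * B = wMat n := by
  have hn' : (0 : ℝ) < n := by exact_mod_cast hn
  set β : ℝ := ((n : ℝ) + 1) * ((n : ℝ) + 2) with hβ
  have hβ0 : 0 ≤ β := by positivity
  set r : ℝ := Real.sqrt ((n : ℝ) + 1) with hr
  have hr2 : r ^ 2 = (n : ℝ) + 1 := Real.sq_sqrt (by positivity)
  set c : ℝ := (r - 1) / n with hc
  have hc2 : 2 * c + c ^ 2 * n = 1 := by
    rw [hc]
    field_simp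
    nlinarith
  refine ⟨Real.sqrt β • (1 + c • allOnes n), ?_⟩
  rw [Matrix.transpose_smul, Matrix.transpose_add, Matrix.transpose_one, Matrix.transpose_smul,
    allOnes_transpose, Matrix.smul_mul, Matrix.mul_smul, smul_smul, Real.mul_self_sqrt hβ0]
  rw [wMat]
  congr 1
  have h : (1 + c • allOnes n) * (1 + c • allOnes n)
      = 1 + (2 * c + c ^ 2 * n) • allOnes n := by
    rw [Matrix.add_mul, Matrix.mul_add, Matrix.mul_add, Matrix.one_mul, Matrix.one_mul,
      Matrix.mul_one, Matrix.smul_mul, Matrix.mul_smul, allOnes_mul_self, smul_smul, smul_smul]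
    ext i j
    simp only [Matrix.add_apply, Matrix.smul_apply, smul_eq_mul]
    ring
  rw [h, hc2, one_smul]

end Vale.Agent.Lib.P254
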