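import Vale.Agent.Lib.P254.Lift
import Vale.Agent.Lib.P254.FinalMat

/-!
# P254: moments of the simplex and covariance computations
-/

open MeasureTheory Set Matrix
open scoped ENNReal Nat

namespace Vale.Agent.Lib.P254

lemma T_subset_Icc (n : ℕ) : T n ⊆ Icc 0 1 := by
  intro x hx
  refine ⟨fun j => hx.1 j, fun j => ?_⟩
  calc x j ≤ ∑ k, x k := Finset.single_le_sum (fun k _ => hx.1 k) (Finset.mem_univ j)
    _ ≤ 1 := hx.2

lemma isClosed_T (n : ℕ) : IsClosed (T n) := by
  have : T n = (⋂ j, {x | 0 ≤ x j}) ∩ {x | ∑ j, x j ≤ 1} := by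
    ext x
    simp [T]
  rw [this]
  refine IsClosed.inter (isClosed_iInter fun j => isClosed_le continuous_const (continuous_apply j))
    (isClosed_le (by fun_prop) continuous_const)

lemma isCompact_T (n : ℕ) : IsCompact (T n) :=
  isCompact_Icc.of_isClosed_subset (isClosed_T n) (T_subset_Icc n)

lemma integrableOn_of_subset_T {n : ℕ} {A : Set (Fin n → ℝ)} (hA : A ⊆ T n)
    {f : (Fin n → ℝ) → ℝ} (hf : Continuous f) : IntegrableOn f A :=
  (hf.continuousOn.integrableOn_compact (isCompact_T n)).mono_set hA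

lemma continuous_bc {n : ℕ} (i : Fin (n + 1)) : Continuous fun x : Fin n → ℝ => bc x i := by
  refine Fin.cases ?_ (fun j => ?_) i
  · simp only [bc, Fin.cases_zero]
    fun_prop
  · simp only [bc, Fin.cases_succ]
    fun_prop

@[simp] lemma bc_succ {n : ℕ} (x : Fin n → ℝ) (j : Fin n) : bc x j.succ = x j := by
  simp [bc]

@[simp] lemma bc_zero {n : ℕ} (x : Fin n → ℝ) : bc x 0 = 1 - ∑ j, x j := by
  simp [bc]

lemma vol_eq_integral_one {n : ℕ} (A : Set (Fin n → ℝ)) : ∫ _x in A, (1 : ℝ) = vol A := by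
  rw [setIntegral_const, smul_eq_mul, mul_one]
  rfl

lemma vol_T (n : ℕ) : vol (T n) = 1 / (n ! : ℝ) := by
  have h := dirichlet n (fun _ => 0)
  simp only [pow_zero, Finset.prod_const_one, Nat.factorial_zero, Nat.cast_one,
    Finset.sum_const_zero, add_zero] at h
  rw [← h, vol_eq_integral_one]

lemma vol_T_pos (n : ℕ) : 0 < vol (T n) := by
  rw [vol_T]; positivity

lemma moment1 (n : ℕ) (i : Fin (n + 1)) : ∫ x in T n, bc x i = 1 / ((n + 1)! : ℝ) := by
  have h := dirichlet n (fun k => if k = i then 1 else 0)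
  have e1 : ∀ x : Fin n → ℝ, ∏ k, (bc x k) ^ (if k = i then 1 else 0) = bc x i := by
    intro x
    rw [Finset.prod_eq_single i]
    · simp
    · intro k _ hk; simp [hk]
    · simp
  simp_rw [e1] at h
  rw [h]
  have e2 : ∏ k, (((if k = i then 1 else 0 : ℕ)) ! : ℝ) = 1 := by
    apply Finset.prod_eq_one
    intro k _
    split_ifs <;> simp
  have e3 : ∑ k, (if k = i then 1 else 0 : ℕ) = 1 := by simp
  rw [e2, e3]

lemma moment2 (n : ℕ) (i : Fin (n + 1)) : ∫ x in T n, (bc x i) ^ 2 = 2 / ((n + 2)! : ℝ) := by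
  have h := dirichlet n (fun k => if k = i then 2 else 0)
  have e1 : ∀ x : Fin n → ℝ, ∏ k, (bc x k) ^ (if k = i then 2 else 0) = (bc x i) ^ 2 := by
    intro x
    rw [Finset.prod_eq_single i]
    · simp
    · intro k _ hk; simp [hk]
    · simp
  simp_rw [e1] at h
  rw [h]
  have e2 : ∏ k, (((if k = i then 2 else 0 : ℕ)) ! : ℝ) = 2 := by
    rw [Finset.prod_eq_single i]
    · simp
    · intro k _ hk; simp [hk]
    · simp
  have e3 : ∑ k, (if k = i then 2 else 0 : ℕ) = 2 := by simp
  rw [e2, e3]

lemma moment11 (n : ℕ) {i j : Fin (n + 1)} (hij : i ≠ j) :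
    ∫ x in T n, bc x i * bc x j = 1 / ((n + 2)! : ℝ) := by
  have h := dirichlet n (fun k => if k = i ∨ k = j then 1 else 0)
  have e1 : ∀ x : Fin n → ℝ, ∏ k, (bc x k) ^ (if k = i ∨ k = j then 1 else 0)
      = bc x i * bc x j := by
    intro x
    rw [Finset.prod_eq_mul i j hij]
    · simp
    · intro k _ hk
      have : ¬ (k = i ∨ k = j) := by tauto
      simp [this]
    · simp
    · simp
  simp_rw [e1] at h
  rw [h]
  have e2 : ∏ k, (((if k = i ∨ k = j then 1 else 0 : ℕ)) ! : ℝ) = 1 := by
    apply Finset.prod_eq_one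
    intro k _
    split_ifs <;> simp
  have e3 : ∑ k, (if k = i ∨ k = j then 1 else 0 : ℕ) = 2 := by
    rw [Finset.sum_eq_add i j hij]
    · simp
    · intro k _ hk
      have : ¬ (k = i ∨ k = j) := by tauto
      simp [this]
    · simp
    · simp
  rw [e2, e3]

lemma int_coord (n : ℕ) (j : Fin n) : ∫ x in T n, x j = 1 / ((n + 1)! : ℝ) := by
  have := moment1 n j.succ
  simpa using this

lemma int_coord_sq (n : ℕ) (j : Fin n) : ∫ x in T n, x j * x j = 2 / ((n + 2)! : ℝ) := by
  have := moment2 n j.succ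
  simp only [bc_succ, pow_two] at this
  exact this

lemma int_coord_mul (n : ℕ) {i j : Fin n} (hij : i ≠ j) :
    ∫ x in T n, x i * x j = 1 / ((n + 2)! : ℝ) := by
  have := moment11 n (i := i.succ) (j := j.succ) (fun h => hij (Fin.succ_inj.mp h))
  simpa using this

lemma factorial_ratio1 (n : ℕ) : ((n + 1)! : ℝ) = ((n : ℝ) + 1) * (n ! : ℝ) := by
  rw [Nat.factorial_succ]; push_cast; ring

lemma factorial_ratio2 (n : ℕ) :
    ((n + 2)! : ℝ) = ((n : ℝ) + 2) * (((n : ℝ) + 1) * (n ! : ℝ)) := by
  have h : ((n + 2)! : ℝ) = ((n : ℝ) + 2) * ((n + 1)! : ℝ) := by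
    rw [Nat.factorial_succ (n + 1)]; push_cast; ring
  rw [h, factorial_ratio1]

lemma centroid_T (n : ℕ) (j : Fin n) : centroid (T n) j = 1 / ((n : ℝ) + 1) := by
  have h : (0 : ℝ) < n ! := by positivity
  have h2 : (0 : ℝ) < (n : ℝ) + 1 := by positivity
  rw [centroid, int_coord, vol_T, factorial_ratio1]
  field_simp

/-- Expansion of second moments on a subset of the simplex. -/
lemma expand {n : ℕ} {A : Set (Fin n → ℝ)} (hA : A ⊆ T n) (i j : Fin n) (c d : ℝ) :
    ∫ x in A, (x i - c) * (x j - d)
      = (∫ x in A, x i * x j) - d * (∫ x in A, x i) - c * (∫ x in A, x j) + c * d * vol A := by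
  have hi : IntegrableOn (fun x : Fin n → ℝ => x i) A :=
    integrableOn_of_subset_T hA (continuous_apply i)
  have hj : IntegrableOn (fun x : Fin n → ℝ => x j) A :=
    integrableOn_of_subset_T hA (continuous_apply j)
  have hij : IntegrableOn (fun x : Fin n → ℝ => x i * x j) A :=
    integrableOn_of_subset_T hA ((continuous_apply i).mul (continuous_apply j))
  have h1 : ∀ x : Fin n → ℝ, (x i - c) * (x j - d) =
      x i * x j - d * x i - c * x j + c * d * 1 := by
    intro x; ring
  simp_rw [h1]
  have hone : IntegrableOn (fun _ : Fin n → ℝ => (1 : ℝ)) A :=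
    integrableOn_of_subset_T hA continuous_const
  have I1 : IntegrableOn (fun x : Fin n → ℝ => x i * x j - d * x i) A := hij.sub (hi.const_mul d)
  have I2 : IntegrableOn (fun x : Fin n → ℝ => x i * x j - d * x i - c * x j) A :=
    I1.sub (hj.const_mul c)
  have I3 : IntegrableOn (fun _ : Fin n → ℝ => c * d * 1) A := hone.const_mul _
  rw [integral_add I2 I3, integral_sub I1 (hj.const_mul c), integral_sub hij (hi.const_mul d),
    integral_const_mul, integral_const_mul, integral_const_mul, vol_eq_integral_one]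

lemma cov_T_apply (n : ℕ) (i j : Fin n) :
    cov (T n) i j = ((if i = j then 1 else 0) - 1 / ((n : ℝ) + 1)) / (((n : ℝ) + 1) * ((n : ℝ) + 2)) := by
  have hf : (0 : ℝ) < n ! := by positivity
  have h1 : (0 : ℝ) < (n : ℝ) + 1 := by positivity
  have h2 : (0 : ℝ) < (n : ℝ) + 2 := by positivity
  rw [cov, centroid_T, centroid_T, expand (le_refl _), int_coord, int_coord, vol_T]
  by_cases hij : i = j
  · subst hij
    rw [int_coord_sq, factorial_ratio2, factorial_ratio1]
    simp only [if_true]
    field_simp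
    ring
  · rw [int_coord_mul n hij, factorial_ratio2, factorial_ratio1]
    simp only [hij, if_false]
    field_simp
    ring

lemma cov_T_mul_wMat (n : ℕ) : cov (T n) * wMat n = 1 := by
  have h1 : (0 : ℝ) < (n : ℝ) + 1 := by positivity
  have h2 : (0 : ℝ) < (n : ℝ) + 2 := by positivity
  have hS : cov (T n) = (1 / (((n : ℝ) + 1) * ((n : ℝ) + 2))) •
      ((1 : Matrix (Fin n) (Fin n) ℝ) - (1 / ((n : ℝ) + 1)) • allOnes n) := by
    ext i j
    rw [cov_T_apply]
    simp only [Matrix.smul_apply, Matrix.sub_apply, Matrix.one_apply, allOnes, smul_eq_mul]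
    ring
  rw [hS, wMat, Matrix.smul_mul, Matrix.mul_smul, smul_smul]
  have e : (1 / (((n : ℝ) + 1) * ((n : ℝ) + 2))) * (((n : ℝ) + 1) * ((n : ℝ) + 2)) = 1 := by
    field_simp
  rw [e, one_smul]
  rw [Matrix.sub_mul, Matrix.mul_add, Matrix.smul_mul, Matrix.mul_add, Matrix.one_mul,
    Matrix.one_mul, Matrix.mul_one, allOnes_mul_self]
  ext i j
  simp only [Matrix.add_apply, Matrix.sub_apply, Matrix.smul_apply, smul_eq_mul, allOnes]
  field_simp
  ring

lemma wMat_posSemidef (n : ℕ) : (wMat n).PosSemidef := by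
  have hJ : (allOnes n).PosSemidef := by
    have := Matrix.posSemidef_vecMulVec_self_star (fun _ : Fin n => (1 : ℝ))
    have e : vecMulVec (fun _ : Fin n => (1 : ℝ)) (star fun _ : Fin n => (1 : ℝ)) = allOnes n := by
      ext i j
      simp [vecMulVec, allOnes]
    rwa [e] at this
  have h : (1 + allOnes n).PosSemidef := Matrix.PosSemidef.one.add hJ
  exact h.smul (by positivity)

lemma det_wMat_pos (n : ℕ) : 0 < (wMat n).det := by
  have h0 := (wMat_posSemidef n).det_nonneg
  have h1 : (cov (T n)).det * (wMat n).det = 1 := by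
    rw [← Matrix.det_mul, cov_T_mul_wMat, Matrix.det_one]
  rcases h0.lt_or_eq with h | h
  · exact h
  · rw [← h] at h1
    simp at h1

lemma det_cov_T (n : ℕ) : (cov (T n)).det = 1 / (wMat n).det := by
  have h0 := det_wMat_pos n
  have h1 : (cov (T n)).det * (wMat n).det = 1 := by
    rw [← Matrix.det_mul, cov_T_mul_wMat, Matrix.det_one]
  field_simp
  linarith

/-- The covariance of a subset of the simplex is positive semidefinite. -/
lemma cov_posSemidef {n : ℕ} {K : Set (Fin n → ℝ)} (hK : K ⊆ T n) : (cov K).PosSemidef := by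
  refine Matrix.PosSemidef.of_dotProduct_mulVec_nonneg ?_ ?_
  · ext i j
    simp only [conjTranspose_apply, star_trivial, cov]
    congr 1
    refine integral_congr_ae (Filter.Eventually.of_forall fun x => ?_)
    simp only
    ring
  · intro v
    have hk : 0 ≤ vol K := ENNReal.toReal_nonneg
    set f : Fin n → (Fin n → ℝ) → ℝ := fun i x => x i - centroid K i with hf
    have hfc : ∀ i, Continuous (f i) := fun i => (continuous_apply i).sub continuous_const
    have hint : ∀ i j, IntegrableOn (fun x => f i x * f j x) K := fun i j =>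
      integrableOn_of_subset_T hK ((hfc i).mul (hfc j))
    have e : star v ⬝ᵥ (cov K *ᵥ v)
        = (∫ x in K, (∑ i, v i * f i x) ^ 2) / vol K := by
      have e1 : ∀ x : Fin n → ℝ, (∑ i, v i * f i x) ^ 2
          = ∑ i, ∑ j, (v i * v j) * (f i x * f j x) := by
        intro x
        rw [pow_two, Finset.sum_mul_sum]
        refine Finset.sum_congr rfl fun i _ => Finset.sum_congr rfl fun j _ => ?_
        ring
      simp_rw [e1]
      rw [integral_finsetSum _ fun i _ => integrable_finsetSum _ fun j _ =>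
        (hint i j).const_mul _]
      simp_rw [integral_finsetSum _ fun j _ => (hint _ j).const_mul _, integral_const_mul]
      simp only [dotProduct, mulVec, star_trivial, Pi.star_apply, cov]
      rw [Finset.sum_div]
      refine Finset.sum_congr rfl fun i _ => ?_
      rw [Finset.mul_sum, Finset.sum_div]
      refine Finset.sum_congr rfl fun j _ => ?_
      simp only [hf]
      ring
    rw [e]
    exact div_nonneg (integral_nonneg fun x => by positivity) hk

end Vale.Agent.Lib.P254
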