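import Vale.Agent.Lib.P254.Sector

/-!
# P254: the main inequality
-/

open MeasureTheory Set
open scoped ENNReal Nat

namespace Vale.Agent.Lib.P254

variable {n : ℕ}

lemma prod_ew_of_mem {y : Fin n → ℝ} (hy : y ∈ orth n) :
    ∏ j, ew (y j) = Real.exp (-∑ j, y j) := by
  rw [← Finset.sum_neg_distrib, Real.exp_sum]
  exact Finset.prod_congr rfl fun j _ => ew_of_nonneg (hy j)

lemma prod_ew_of_not {y : Fin n → ℝ} (hy : y ∉ orth n) : ∏ j, ew (y j) = 0 := by
  simp only [orth, Set.mem_ofPred_eq, not_forall, not_le] at hy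
  obtain ⟨j, hj⟩ := hy
  exact Finset.prod_eq_zero (Finset.mem_univ j) (ew_of_neg hj)

lemma prod_ew_nonneg (y : Fin n → ℝ) : 0 ≤ ∏ j, ew (y j) :=
  Finset.prod_nonneg fun j _ => ew_nonneg _

lemma measurable_prod_ew : Measurable fun y : Fin n → ℝ => ∏ j, ew (y j) :=
  Finset.measurable_prod _ fun j _ => measurable_ew.comp (measurable_pi_apply j)

lemma measurable_sum_coord : Measurable fun y : Fin n → ℝ => ∑ j, y j :=
  Finset.measurable_sum _ fun j _ => measurable_pi_apply j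

lemma measurable_sum_sq : Measurable fun y : Fin n → ℝ => ∑ j, y j ^ (2 : ℕ) :=
  Finset.measurable_sum _ fun j _ => (measurable_pi_apply j).pow_const 2

lemma measurable_bc_vec {m : ℕ} : Measurable fun u : Fin m → ℝ => bc u :=
  measurable_pi_iff.2 measurable_bc

/-- Radial identity for homogeneous functions. -/
theorem radial {m : ℕ} {a : (Fin (m + 1) → ℝ) → ℝ} (hm : Measurable a) (h0 : ∀ y, 0 ≤ a y)
    (hhom : ∀ y ∈ orth (m + 1), ∀ τ : ℝ, 0 < τ → a (τ • y) = τ * a y) (hz : a 0 = 0) (k : ℕ) :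
    ∫ y, (a y * (∑ j, y j) ^ k) * ∏ j, ew (y j)
      = ((m + k + 1)! : ℝ) * (∫⁻ u in T m, ENNReal.ofReal (a (bc u))).toReal := by
  have hnn : 0 ≤ᵐ[volume] fun y : Fin (m + 1) → ℝ => (a y * (∑ j, y j) ^ k) * ∏ j, ew (y j) := by
    filter_upwards with y
    by_cases hy : y ∈ orth (m + 1)
    · have := sum_nonneg_of_orth hy
      have h1 := h0 y
      have h2 := prod_ew_nonneg y
      positivity
    · simp [prod_ew_of_not hy]
  have hmeas : AEStronglyMeasurable (fun y : Fin (m + 1) → ℝ =>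
      (a y * (∑ j, y j) ^ k) * ∏ j, ew (y j)) volume :=
    ((hm.mul (measurable_sum_coord.pow_const k)).mul measurable_prod_ew).aestronglyMeasurable
  rw [integral_eq_lintegral_of_nonneg_ae hnn hmeas]
  have hg : Measurable fun u : Fin m → ℝ => ENNReal.ofReal (a (bc u)) :=
    ENNReal.measurable_ofReal.comp (hm.comp measurable_bc_vec)
  have hl := lift_lintegral m (k + 1) (fun u => ENNReal.ofReal (a (bc u))) hg
  have e : ∫⁻ y, ENNReal.ofReal ((a y * (∑ j, y j) ^ k) * ∏ j, ew (y j)) =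
      ∫⁻ y in orth (m + 1), ENNReal.ofReal (a (bc ((∑ j, y j)⁻¹ • (fun j : Fin m => y j.succ)))) *
        ENNReal.ofReal ((∑ j, y j) ^ (k + 1) * Real.exp (-∑ j, y j)) := by
    rw [← lintegral_indicator (measurableSet_orth _)]
    refine lintegral_congr fun y => ?_
    by_cases hy : y ∈ orth (m + 1)
    · rw [indicator_of_mem hy, prod_ew_of_mem hy]
      have hs := sum_nonneg_of_orth hy
      rcases eq_or_lt_of_le hs with hs0 | hs0
      · have hy0 : y = 0 := zero_of_sum_eq_zero hy hs0.symm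
        rw [← hs0, hy0, hz]
        simp
      · rw [← ENNReal.ofReal_mul (h0 _)]
        congr 1
        set s := ∑ j, y j with hsdef
        have e1 : bc (s⁻¹ • (fun j : Fin m => y j.succ)) = s⁻¹ • y := by
          funext i
          have := bc_inv_smul_tail y hs0.ne' i
          rw [← hsdef] at this
          rw [this]
          simp only [Pi.smul_apply, smul_eq_mul]
          rw [div_eq_inv_mul]
        rw [e1, hhom y hy _ (by positivity)]
        field_simp
        ring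
    · rw [indicator_of_notMem hy, prod_ew_of_not hy]
      simp
  rw [e, hl, ENNReal.toReal_mul, ENNReal.toReal_natCast]
  rfl

lemma pow_le_two_exp {S : ℝ} (hS : 0 ≤ S) (p : ℕ) :
    S ^ p ≤ 2 ^ p * (p ! : ℝ) * Real.exp (S / 2) := by
  have h1 := Real.pow_div_factorial_le_exp (x := S / 2) (by positivity) p
  rw [div_le_iff₀ (by positivity), div_pow, div_le_iff₀ (by positivity)] at h1
  calc S ^ p ≤ Real.exp (S / 2) * (p ! : ℝ) * 2 ^ p := h1
    _ = _ := by ring

/-- Integrability for functions of polynomial growth in the `ℓ¹` norm. -/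
lemma integrable_poly {G : (Fin n → ℝ) → ℝ} (hG : Measurable G) {C : ℝ} {p : ℕ} (hC : 0 ≤ C)
    (hb : ∀ y ∈ orth n, |G y| ≤ C * (∑ j, y j) ^ p) :
    Integrable (fun y => G y * ∏ j, ew (y j)) := by
  refine integrable_of_bound (C := C * (2 ^ p * (p ! : ℝ))) hG (by positivity) ?_
    (fun _ => measurable_ew) zero_le_one (fun _ t => ⟨ew_nonneg t, by simp⟩)
  intro y hy
  have h1 := hb y hy
  have h2 := pow_le_two_exp (sum_nonneg_of_orth hy) p
  calc |G y| ≤ C * (∑ j, y j) ^ p := h1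
    _ ≤ C * (2 ^ p * (p ! : ℝ) * Real.exp ((∑ j, y j) / 2)) := by gcongr
    _ = _ := by ring

lemma sum_sq_le_sq_sum {y : Fin n → ℝ} (hy : y ∈ orth n) :
    ∑ j, y j ^ (2 : ℕ) ≤ (∑ j, y j) ^ (2 : ℕ) := by
  have h1 : ∑ j, y j ^ (2 : ℕ) ≤ ∑ j, y j * ∑ k, y k := by
    refine Finset.sum_le_sum fun j _ => ?_
    rw [pow_two]
    exact mul_le_mul_of_nonneg_left (single_le_sum_orth hy j) (hy j)
  calc ∑ j, y j ^ (2 : ℕ) ≤ ∑ j, y j * ∑ k, y k := h1
    _ = (∑ j, y j) ^ (2 : ℕ) := by rw [← Finset.sum_mul, pow_two]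

section sector

variable {m : ℕ} {ε : ℝ} {K : Set (Fin (m + 1) → ℝ)}

/-- The real inequality over one sector. -/
theorem sector_real (hK : NearSimplex ε K) (h0 : 0 < ε) (h1 : ε < 1) {κ : ℝ}
    (hκ : ∀ (U : (Fin (m + 1) → ℝ) → ℝ) (c : ℝ), Adm U c →
      κ * ∫ y, U y * ∏ j, ew (y j) ≤ ∑ k, ∫ y, (U y * L2 (y k)) * ∏ j, ew (y j))
    (hsmall : ((m : ℝ) + 2) * eps' (m + 1) ε * (((m : ℝ) + 2) * ((m : ℝ) + 3) * ((m : ℝ) + 4)) ≤ κ)
    (i : Fin (m + 2)) :
    (2 * (m : ℝ) + 6) * ∫ y, aF K i y * ∏ j, ew (y j) ≤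
      ∫ y, ((∑ j, y j ^ (2 : ℕ)) * (aF K i y - ((m : ℝ) + 2) * aF K i y ^ (2 : ℕ))) *
        ∏ j, ew (y j) := by
  set a := aF K i with ha
  set e := eps' (m + 1) ε with he
  have he0 : 0 ≤ e := eps'_nonneg h0 h1
  have hadm : Adm a e := hK.adm h0 h1 (Nat.succ_pos m) i
  have ha0 : ∀ y, 0 ≤ a y := hK.aF_nonneg h0 h1 i
  have hale : ∀ y ∈ orth (m + 1), a y ≤ e * ∑ j, y j := fun y hy => hK.aF_le h0 h1 i hy
  have hmeas : Measurable a := hK.measurable_aF h0 h1 i
  have hhom : ∀ y ∈ orth (m + 1), ∀ τ : ℝ, 0 < τ → a (τ • y) = τ * a y :=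
    fun y hy τ hτ => hK.aF_hom h0 h1 i hy hτ
  have hz : a 0 = 0 := by
    have h2 := hale 0 zero_mem_orth
    simp at h2
    exact le_antisymm h2 (ha0 0)
  -- radial identities
  set Γ : ℝ := (∫⁻ u in T m, ENNReal.ofReal (a (bc u))).toReal with hΓ
  have hΓ0 : 0 ≤ Γ := ENNReal.toReal_nonneg
  have r0 := radial hmeas ha0 hhom hz 0
  have r1 := radial hmeas ha0 hhom hz 1
  have r3 := radial hmeas ha0 hhom hz 3
  simp only [pow_zero, mul_one, pow_one, add_zero] at r0 r1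
  set A0 : ℝ := ∫ y, a y * ∏ j, ew (y j) with hA0
  have hA00 : 0 ≤ A0 := by
    rw [r0]; positivity
  -- integrability
  have i0 : Integrable (fun y : Fin (m + 1) → ℝ => a y * ∏ j, ew (y j)) :=
    integrable_poly (p := 1) (C := e) hmeas he0 (fun y hy => by
      rw [abs_of_nonneg (ha0 y), pow_one]; exact hale y hy)
  have i1 : Integrable (fun y : Fin (m + 1) → ℝ => (a y * ∑ j, y j) * ∏ j, ew (y j)) :=
    integrable_poly (p := 2) (C := e) (hmeas.mul measurable_sum_coord) he0 (fun y hy => by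
      have hs := sum_nonneg_of_orth hy
      rw [abs_of_nonneg (mul_nonneg (ha0 y) hs)]
      have := mul_le_mul_of_nonneg_right (hale y hy) hs
      calc a y * ∑ j, y j ≤ e * (∑ j, y j) * ∑ j, y j := this
        _ = _ := by ring)
  have i3 : Integrable (fun y : Fin (m + 1) → ℝ => (a y * (∑ j, y j) ^ 3) * ∏ j, ew (y j)) :=
    integrable_poly (p := 4) (C := e) (hmeas.mul (measurable_sum_coord.pow_const 3)) he0
      (fun y hy => by
        have hs := sum_nonneg_of_orth hy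
        rw [abs_of_nonneg (mul_nonneg (ha0 y) (by positivity))]
        have := mul_le_mul_of_nonneg_right (hale y hy) (by positivity : 0 ≤ (∑ j, y j) ^ 3)
        calc a y * (∑ j, y j) ^ 3 ≤ e * (∑ j, y j) * (∑ j, y j) ^ 3 := this
          _ = _ := by ring)
  have iq : Integrable (fun y : Fin (m + 1) → ℝ => (a y * ∑ j, y j ^ (2 : ℕ)) * ∏ j, ew (y j)) :=
    integrable_poly (p := 3) (C := e) (hmeas.mul measurable_sum_sq) he0 (fun y hy => by
      have hs := sum_nonneg_of_orth hy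
      have hq : 0 ≤ ∑ j, y j ^ (2 : ℕ) := Finset.sum_nonneg fun j _ => by positivity
      rw [abs_of_nonneg (mul_nonneg (ha0 y) hq)]
      have h2 := hale y hy
      have h3 := sum_sq_le_sq_sum hy
      calc a y * ∑ j, y j ^ (2 : ℕ) ≤ (e * ∑ j, y j) * (∑ j, y j) ^ (2 : ℕ) :=
            mul_le_mul h2 h3 hq (by positivity)
        _ = _ := by ring)
  have iqq : Integrable (fun y : Fin (m + 1) → ℝ =>
      ((∑ j, y j ^ (2 : ℕ)) * a y ^ (2 : ℕ)) * ∏ j, ew (y j)) :=
    integrable_poly (p := 4) (C := e ^ (2 : ℕ)) (measurable_sum_sq.mul (hmeas.pow_const 2))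
      (by positivity) (fun y hy => by
      have hs := sum_nonneg_of_orth hy
      have hq : 0 ≤ ∑ j, y j ^ (2 : ℕ) := Finset.sum_nonneg fun j _ => by positivity
      have ha2 : 0 ≤ a y ^ (2 : ℕ) := by positivity
      rw [abs_of_nonneg (mul_nonneg hq ha2)]
      have h2 := hale y hy
      have h3 := sum_sq_le_sq_sum hy
      have h4 : a y ^ (2 : ℕ) ≤ (e * ∑ j, y j) ^ (2 : ℕ) := pow_le_pow_left₀ (ha0 y) h2 2
      calc (∑ j, y j ^ (2 : ℕ)) * a y ^ (2 : ℕ)
          ≤ (∑ j, y j) ^ (2 : ℕ) * (e * ∑ j, y j) ^ (2 : ℕ) := mul_le_mul h3 h4 ha2 (by positivity)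
        _ = _ := by ring)
  -- the relations among the moments
  have hA1 : ∫ y, (a y * ∑ j, y j) * ∏ j, ew (y j) = ((m : ℝ) + 2) * A0 := by
    rw [r1, r0]
    have : ((m + 1 + 1)! : ℝ) = ((m : ℝ) + 2) * ((m + 1)! : ℝ) := by
      rw [Nat.factorial_succ]; push_cast; ring
    rw [this]; ring
  have hA3 : ∫ y, (a y * (∑ j, y j) ^ 3) * ∏ j, ew (y j)
      = ((m : ℝ) + 2) * ((m : ℝ) + 3) * ((m : ℝ) + 4) * A0 := by
    rw [r3, r0]
    have : ((m + 3 + 1)! : ℝ) = ((m : ℝ) + 2) * ((m : ℝ) + 3) * ((m : ℝ) + 4) * ((m + 1)! : ℝ) := by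
      have e1 : m + 3 + 1 = (m + 1) + 1 + 1 + 1 := by ring
      rw [e1, Nat.factorial_succ, Nat.factorial_succ, Nat.factorial_succ]; push_cast; ring
    rw [this]; ring
  -- the sum of the Laguerre terms
  have hsum : ∑ k, ∫ y, (a y * L2 (y k)) * ∏ j, ew (y j) =
      (∫ y, (a y * ∑ j, y j ^ (2 : ℕ)) * ∏ j, ew (y j))
        - 4 * (∫ y, (a y * ∑ j, y j) * ∏ j, ew (y j)) + (2 * ((m : ℝ) + 1)) * A0 := by
    have hint : ∀ k, Integrable (fun y : Fin (m + 1) → ℝ => (a y * L2 (y k)) * ∏ j, ew (y j)) :=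
      fun k => hadm.integrable_L2 k (fun _ => measurable_ew) zero_le_one
        (fun _ t => ⟨ew_nonneg t, by simp⟩)
    have i4 : Integrable (fun y : Fin (m + 1) → ℝ => (a y * ∑ j, y j ^ (2 : ℕ)) * ∏ j, ew (y j)
        - 4 * ((a y * ∑ j, y j) * ∏ j, ew (y j))) := iq.sub (i1.const_mul 4)
    calc ∑ k, ∫ y, (a y * L2 (y k)) * ∏ j, ew (y j)
        = ∫ y, ∑ k, (a y * L2 (y k)) * ∏ j, ew (y j) :=
          (integral_finsetSum _ fun k _ => hint k).symm
      _ = ∫ y, (((a y * ∑ j, y j ^ (2 : ℕ)) * ∏ j, ew (y j)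
            - 4 * ((a y * ∑ j, y j) * ∏ j, ew (y j)))
            + (2 * ((m : ℝ) + 1)) * (a y * ∏ j, ew (y j))) := by
          congr 1
          funext y
          simp only [L2]
          rw [← Finset.sum_mul, ← Finset.mul_sum, Finset.sum_add_distrib, Finset.sum_sub_distrib,
            ← Finset.mul_sum]
          simp only [Finset.sum_const, Finset.card_univ, Fintype.card_fin, nsmul_eq_mul]
          push_cast
          ring
      _ = _ := by
          rw [integral_add i4 (i0.const_mul _), integral_sub iq (i1.const_mul 4),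
            integral_const_mul, integral_const_mul]
  -- second order term
  have hqq : ∫ y, ((∑ j, y j ^ (2 : ℕ)) * a y ^ (2 : ℕ)) * ∏ j, ew (y j) ≤
      e * ∫ y, (a y * (∑ j, y j) ^ 3) * ∏ j, ew (y j) := by
    rw [← integral_const_mul]
    refine integral_mono iqq (i3.const_mul e) fun y => ?_
    simp only
    by_cases hy : y ∈ orth (m + 1)
    · apply le_of_le_of_eq (mul_le_mul_of_nonneg_right _ (prod_ew_nonneg y)) (mul_assoc _ _ _)
      have hs := sum_nonneg_of_orth hy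
      have h2 := hale y hy
      have h3 := sum_sq_le_sq_sum hy
      have hq : 0 ≤ ∑ j, y j ^ (2 : ℕ) := Finset.sum_nonneg fun j _ => by positivity
      calc (∑ j, y j ^ (2 : ℕ)) * a y ^ (2 : ℕ)
          = (∑ j, y j ^ (2 : ℕ)) * a y * a y := by ring
        _ ≤ (∑ j, y j ^ (2 : ℕ)) * a y * (e * ∑ j, y j) :=
            mul_le_mul_of_nonneg_left h2 (mul_nonneg hq (ha0 y))
        _ ≤ (∑ j, y j) ^ (2 : ℕ) * a y * (e * ∑ j, y j) := by
            apply mul_le_mul_of_nonneg_right _ (by positivity)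
            exact mul_le_mul_of_nonneg_right h3 (ha0 y)
        _ = _ := by ring
    · simp [prod_ew_of_not hy]
  have hkey := hκ a e hadm
  rw [hsum, hA1] at hkey
  rw [hA3] at hqq
  -- conclusion
  have hsplit : ∫ y, ((∑ j, y j ^ (2 : ℕ)) * (a y - ((m : ℝ) + 2) * a y ^ (2 : ℕ))) * ∏ j, ew (y j)
      = (∫ y, (a y * ∑ j, y j ^ (2 : ℕ)) * ∏ j, ew (y j))
        - ((m : ℝ) + 2) * ∫ y, ((∑ j, y j ^ (2 : ℕ)) * a y ^ (2 : ℕ)) * ∏ j, ew (y j) := by
    rw [← integral_const_mul, ← integral_sub iq (iqq.const_mul _)]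
    congr 1
    funext y
    ring
  rw [hsplit]
  have hm2 : (0 : ℝ) < (m : ℝ) + 2 := by positivity
  have h5 : ((m : ℝ) + 2) * (e * (((m : ℝ) + 2) * ((m : ℝ) + 3) * ((m : ℝ) + 4) * A0)) ≤ κ * A0 := by
    have := mul_le_mul_of_nonneg_right hsmall hA00
    calc ((m : ℝ) + 2) * (e * (((m : ℝ) + 2) * ((m : ℝ) + 3) * ((m : ℝ) + 4) * A0))
        = ((m : ℝ) + 2) * e * (((m : ℝ) + 2) * ((m : ℝ) + 3) * ((m : ℝ) + 4)) * A0 := by ring
      _ ≤ κ * A0 := this
  have h6 := mul_le_mul_of_nonneg_left hqq hm2.le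
  nlinarith

end sector

section fibers

variable {ε : ℝ} {K : Set (Fin n → ℝ)}

/-- The exponential weight outside of the cone. -/
noncomputable def F0 (K : Set (Fin n → ℝ)) : (Fin (n + 1) → ℝ) → ℝ≥0∞ :=
  (CC K)ᶜ.indicator fun x => ENNReal.ofReal (Real.exp (-∑ k, x k))

/-- The second moment weight outside of the cone. -/
noncomputable def F2 (K : Set (Fin n → ℝ)) : (Fin (n + 1) → ℝ) → ℝ≥0∞ :=
  (CC K)ᶜ.indicator fun x => ENNReal.ofReal ((∑ k, x k ^ (2 : ℕ)) * Real.exp (-∑ k, x k))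

lemma NearSimplex.measurable_F0 (hK : NearSimplex ε K) : Measurable (F0 K) := by
  refine Measurable.indicator ?_ hK.measurableSet_CC.compl
  exact ENNReal.measurable_ofReal.comp (Real.measurable_exp.comp measurable_sum_coord.neg)

lemma NearSimplex.measurable_F2 (hK : NearSimplex ε K) : Measurable (F2 K) := by
  refine Measurable.indicator ?_ hK.measurableSet_CC.compl
  exact ENNReal.measurable_ofReal.comp
    (measurable_sum_sq.mul (Real.measurable_exp.comp measurable_sum_coord.neg))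

lemma NearSimplex.fiber_upper (hK : NearSimplex ε K) (h0 : 0 < ε) (h1 : ε < 1)
    (i : Fin (n + 1)) {y : Fin n → ℝ} (hy : y ∈ orth n) :
    ∫⁻ z in Ici (0 : ℝ), F0 K (xp i z y) ≤
      ENNReal.ofReal (aF K i y) * ENNReal.ofReal (Real.exp (-∑ j, y j)) := by
  set a := aF K i y with ha
  set c := ENNReal.ofReal (Real.exp (-∑ j, y j)) with hc
  calc ∫⁻ z in Ici (0 : ℝ), F0 K (xp i z y)
      = ∫⁻ z, (Ici (0 : ℝ)).indicator (fun z => F0 K (xp i z y)) z :=
        (lintegral_indicator measurableSet_Ici _).symm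
    _ ≤ ∫⁻ z, (Ico 0 a).indicator (fun _ => c) z := by
        refine lintegral_mono fun z => ?_
        by_cases hz : 0 ≤ z
        · rw [indicator_of_mem (mem_Ici.2 hz)]
          have hiff := hK.xp_mem_iff h0 h1 i hy hz
          by_cases hza : z < a
          · rw [indicator_of_mem (mem_Ico.2 ⟨hz, hza⟩)]
            have hnot : xp i z y ∉ CC K := fun h => absurd (hiff.1 h) (not_le.2 hza)
            simp only [F0]
            rw [indicator_of_mem (show xp i z y ∈ (CC K)ᶜ from hnot)]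
            apply ENNReal.ofReal_le_ofReal
            apply Real.exp_le_exp.2
            rw [sum_xp]
            have : 0 ≤ ((n : ℝ) + 1) * z := by positivity
            linarith
          · have hin : xp i z y ∈ CC K := hiff.2 (not_lt.1 hza)
            simp only [F0]
            rw [indicator_of_notMem (show xp i z y ∉ (CC K)ᶜ from fun h => h hin)]
            exact zero_le
        · rw [indicator_of_notMem (fun h => hz (mem_Ici.1 h))]
          exact zero_le
    _ = c * volume (Ico 0 a) := lintegral_indicator_const measurableSet_Ico c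
    _ = _ := by rw [Real.volume_Ico, sub_zero, mul_comm]

lemma sum_sq_xp_ge (i : Fin (n + 1)) {z : ℝ} {y : Fin n → ℝ} (hz : 0 ≤ z) (hy : y ∈ orth n) :
    ∑ j, y j ^ (2 : ℕ) ≤ ∑ k, xp i z y k ^ (2 : ℕ) := by
  rw [Fin.sum_univ_succAbove _ i]
  simp only [xp, ins_same, ins_succAbove]
  have : ∑ j, y j ^ (2 : ℕ) ≤ ∑ j, (z + y j) ^ (2 : ℕ) :=
    Finset.sum_le_sum fun j _ => by
      have := hy j
      nlinarith
  have hz2 : 0 ≤ z ^ (2 : ℕ) := by positivity
  linarith

lemma NearSimplex.fiber_lower (hK : NearSimplex ε K) (h0 : 0 < ε) (h1 : ε < 1)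
    (i : Fin (n + 1)) {y : Fin n → ℝ} (hy : y ∈ orth n) :
    ENNReal.ofReal (((∑ j, y j ^ (2 : ℕ)) * (aF K i y - ((n : ℝ) + 1) * aF K i y ^ (2 : ℕ)))
        * Real.exp (-∑ j, y j)) ≤ ∫⁻ z in Ici (0 : ℝ), F2 K (xp i z y) := by
  set a := aF K i y with ha
  have ha0 : 0 ≤ a := hK.aF_nonneg h0 h1 i y
  set q := ∑ j, y j ^ (2 : ℕ) with hq
  have hq0 : 0 ≤ q := Finset.sum_nonneg fun j _ => by positivity
  set S := ∑ j, y j with hS
  set v : ℝ := q * Real.exp (-(((n : ℝ) + 1) * a) - S) with hv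
  have hv0 : 0 ≤ v := by positivity
  calc ENNReal.ofReal ((q * (a - ((n : ℝ) + 1) * a ^ (2 : ℕ))) * Real.exp (-S))
      ≤ ENNReal.ofReal v * ENNReal.ofReal a := by
        rw [← ENNReal.ofReal_mul hv0]
        apply ENNReal.ofReal_le_ofReal
        have e1 : Real.exp (-(((n : ℝ) + 1) * a) - S)
            = Real.exp (-(((n : ℝ) + 1) * a)) * Real.exp (-S) := by
          rw [← Real.exp_add]; congr 1
        have h2 : 1 - ((n : ℝ) + 1) * a ≤ Real.exp (-(((n : ℝ) + 1) * a)) := by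
          have := Real.add_one_le_exp (-(((n : ℝ) + 1) * a))
          linarith
        rw [hv, e1]
        have h3 : q * (a - ((n : ℝ) + 1) * a ^ (2 : ℕ)) ≤
            q * Real.exp (-(((n : ℝ) + 1) * a)) * a := by
          have : a * (1 - ((n : ℝ) + 1) * a) ≤ a * Real.exp (-(((n : ℝ) + 1) * a)) :=
            mul_le_mul_of_nonneg_left h2 ha0
          have h4 : a - ((n : ℝ) + 1) * a ^ (2 : ℕ) ≤ a * Real.exp (-(((n : ℝ) + 1) * a)) := by
            nlinarith
          calc q * (a - ((n : ℝ) + 1) * a ^ (2 : ℕ))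
              ≤ q * (a * Real.exp (-(((n : ℝ) + 1) * a))) := mul_le_mul_of_nonneg_left h4 hq0
            _ = _ := by ring
        calc q * (a - ((n : ℝ) + 1) * a ^ (2 : ℕ)) * Real.exp (-S)
            ≤ (q * Real.exp (-(((n : ℝ) + 1) * a)) * a) * Real.exp (-S) :=
              mul_le_mul_of_nonneg_right h3 (Real.exp_pos _).le
          _ = _ := by ring
    _ = ∫⁻ z, (Ico 0 a).indicator (fun _ => ENNReal.ofReal v) z := by
        rw [lintegral_indicator_const measurableSet_Ico, Real.volume_Ico, sub_zero]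
    _ ≤ ∫⁻ z, (Ici (0 : ℝ)).indicator (fun z => F2 K (xp i z y)) z := by
        refine lintegral_mono fun z => ?_
        by_cases hz : 0 ≤ z ∧ z < a
        · rw [indicator_of_mem (mem_Ico.2 hz), indicator_of_mem (mem_Ici.2 hz.1)]
          have hiff := hK.xp_mem_iff h0 h1 i hy hz.1
          have hnot : xp i z y ∉ CC K := fun h => absurd (hiff.1 h) (not_le.2 hz.2)
          simp only [F2]
          rw [indicator_of_mem (show xp i z y ∈ (CC K)ᶜ from hnot)]
          apply ENNReal.ofReal_le_ofReal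
          have h2 : q ≤ ∑ k, xp i z y k ^ (2 : ℕ) := sum_sq_xp_ge i hz.1 hy
          have h3 : Real.exp (-(((n : ℝ) + 1) * a) - S) ≤ Real.exp (-∑ k, xp i z y k) := by
            apply Real.exp_le_exp.2
            rw [sum_xp]
            have : ((n : ℝ) + 1) * z ≤ ((n : ℝ) + 1) * a :=
              mul_le_mul_of_nonneg_left hz.2.le (by positivity)
            linarith
          rw [hv]
          exact mul_le_mul h2 h3 (Real.exp_pos _).le (hq0.trans h2)
        · rw [indicator_of_notMem (fun h => hz (mem_Ico.1 h))]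
          exact zero_le
    _ = _ := lintegral_indicator measurableSet_Ici _

lemma ofReal_integral_le {α : Type*} [MeasurableSpace α] {μ : Measure α} {f : α → ℝ}
    (hf : Integrable f μ) : ENNReal.ofReal (∫ x, f x ∂μ) ≤ ∫⁻ x, ENNReal.ofReal (f x) ∂μ := by
  rw [integral_eq_lintegral_pos_part_sub_lintegral_neg_part hf]
  exact (ENNReal.ofReal_le_ofReal (sub_le_self _ ENNReal.toReal_nonneg)).trans
    ENNReal.ofReal_toReal_le

end fibers

section assemble

variable {m : ℕ} {ε : ℝ} {K : Set (Fin (m + 1) → ℝ)}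

lemma lintegral_orth_eq {G : (Fin n → ℝ) → ℝ} :
    ∫⁻ y, ENNReal.ofReal (G y * ∏ j, ew (y j)) =
      ∫⁻ y in orth n, ENNReal.ofReal (G y * Real.exp (-∑ j, y j)) := by
  rw [← lintegral_indicator (measurableSet_orth _)]
  refine lintegral_congr fun y => ?_
  by_cases hy : y ∈ orth n
  · rw [indicator_of_mem hy, prod_ew_of_mem hy]
  · rw [indicator_of_notMem hy, prod_ew_of_not hy]
    simp

/-- The inequality over one sector, in lintegral form. -/
theorem sector_lintegral (hK : NearSimplex ε K) (h0 : 0 < ε) (h1 : ε < 1) {κ : ℝ}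
    (hκ : ∀ (U : (Fin (m + 1) → ℝ) → ℝ) (c : ℝ), Adm U c →
      κ * ∫ y, U y * ∏ j, ew (y j) ≤ ∑ k, ∫ y, (U y * L2 (y k)) * ∏ j, ew (y j))
    (hsmall : ((m : ℝ) + 2) * eps' (m + 1) ε * (((m : ℝ) + 2) * ((m : ℝ) + 3) * ((m : ℝ) + 4)) ≤ κ)
    (i : Fin (m + 2)) :
    ENNReal.ofReal (2 * (m : ℝ) + 6) * ∫⁻ y in orth (m + 1), ∫⁻ z in Ici (0 : ℝ), F0 K (xp i z y)
      ≤ ∫⁻ y in orth (m + 1), ∫⁻ z in Ici (0 : ℝ), F2 K (xp i z y) := by
  set a := aF K i with ha
  set e := eps' (m + 1) ε with he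
  have he0 : 0 ≤ e := eps'_nonneg h0 h1
  have ha0 : ∀ y, 0 ≤ a y := hK.aF_nonneg h0 h1 i
  have hale : ∀ y ∈ orth (m + 1), a y ≤ e * ∑ j, y j := fun y hy => hK.aF_le h0 h1 i hy
  have hmeas : Measurable a := hK.measurable_aF h0 h1 i
  have i0 : Integrable (fun y : Fin (m + 1) → ℝ => a y * ∏ j, ew (y j)) :=
    integrable_poly (p := 1) (C := e) hmeas he0 (fun y hy => by
      rw [abs_of_nonneg (ha0 y), pow_one]; exact hale y hy)
  have iG : Integrable (fun y : Fin (m + 1) → ℝ =>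
      ((∑ j, y j ^ (2 : ℕ)) * (a y - ((m : ℝ) + 2) * a y ^ (2 : ℕ))) * ∏ j, ew (y j)) := by
    have iq : Integrable (fun y : Fin (m + 1) → ℝ =>
        (a y * ∑ j, y j ^ (2 : ℕ)) * ∏ j, ew (y j)) :=
      integrable_poly (p := 3) (C := e) (hmeas.mul measurable_sum_sq) he0 (fun y hy => by
        have hs := sum_nonneg_of_orth hy
        have hq : 0 ≤ ∑ j, y j ^ (2 : ℕ) := Finset.sum_nonneg fun j _ => by positivity
        rw [abs_of_nonneg (mul_nonneg (ha0 y) hq)]
        have h2 := hale y hy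
        have h3 := sum_sq_le_sq_sum hy
        calc a y * ∑ j, y j ^ (2 : ℕ) ≤ (e * ∑ j, y j) * (∑ j, y j) ^ (2 : ℕ) :=
              mul_le_mul h2 h3 hq (by positivity)
          _ = _ := by ring)
    have iqq : Integrable (fun y : Fin (m + 1) → ℝ =>
        ((∑ j, y j ^ (2 : ℕ)) * a y ^ (2 : ℕ)) * ∏ j, ew (y j)) :=
      integrable_poly (p := 4) (C := e ^ (2 : ℕ)) (measurable_sum_sq.mul (hmeas.pow_const 2))
        (by positivity) (fun y hy => by
        have hs := sum_nonneg_of_orth hy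
        have hq : 0 ≤ ∑ j, y j ^ (2 : ℕ) := Finset.sum_nonneg fun j _ => by positivity
        have ha2 : 0 ≤ a y ^ (2 : ℕ) := by positivity
        rw [abs_of_nonneg (mul_nonneg hq ha2)]
        have h2 := hale y hy
        have h3 := sum_sq_le_sq_sum hy
        have h4 : a y ^ (2 : ℕ) ≤ (e * ∑ j, y j) ^ (2 : ℕ) := pow_le_pow_left₀ (ha0 y) h2 2
        calc (∑ j, y j ^ (2 : ℕ)) * a y ^ (2 : ℕ)
            ≤ (∑ j, y j) ^ (2 : ℕ) * (e * ∑ j, y j) ^ (2 : ℕ) :=
              mul_le_mul h3 h4 ha2 (by positivity)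
          _ = _ := by ring)
    refine (iq.sub (iqq.const_mul ((m : ℝ) + 2))).congr (Filter.Eventually.of_forall fun y => ?_)
    simp only [Pi.sub_apply]
    ring
  have hreal := sector_real hK h0 h1 hκ hsmall i
  have hA0 : 0 ≤ ∫ y, a y * ∏ j, ew (y j) :=
    integral_nonneg fun y => mul_nonneg (ha0 y) (prod_ew_nonneg y)
  have hm6 : (0 : ℝ) ≤ 2 * (m : ℝ) + 6 := by positivity
  have hU : ∫⁻ y in orth (m + 1), ∫⁻ z in Ici (0 : ℝ), F0 K (xp i z y) ≤
      ENNReal.ofReal (∫ y, a y * ∏ j, ew (y j)) := by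
    rw [ofReal_integral_eq_lintegral_ofReal i0
      (Filter.Eventually.of_forall fun y => mul_nonneg (ha0 y) (prod_ew_nonneg y)),
      lintegral_orth_eq]
    refine setLIntegral_mono' (measurableSet_orth _) fun y hy => ?_
    rw [ENNReal.ofReal_mul (ha0 y)]
    exact hK.fiber_upper h0 h1 i hy
  have hL : ENNReal.ofReal (∫ y, ((∑ j, y j ^ (2 : ℕ)) * (a y - ((m : ℝ) + 2) * a y ^ (2 : ℕ))) *
      ∏ j, ew (y j)) ≤ ∫⁻ y in orth (m + 1), ∫⁻ z in Ici (0 : ℝ), F2 K (xp i z y) := by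
    refine (ofReal_integral_le iG).trans ?_
    rw [lintegral_orth_eq]
    refine setLIntegral_mono' (measurableSet_orth _) fun y hy => ?_
    have := hK.fiber_lower h0 h1 i hy
    have e2 : (((m + 1 : ℕ) : ℝ) + 1) = (m : ℝ) + 2 := by push_cast; ring
    rw [e2] at this
    exact this
  calc ENNReal.ofReal (2 * (m : ℝ) + 6) *
        ∫⁻ y in orth (m + 1), ∫⁻ z in Ici (0 : ℝ), F0 K (xp i z y)
      ≤ ENNReal.ofReal (2 * (m : ℝ) + 6) * ENNReal.ofReal (∫ y, a y * ∏ j, ew (y j)) := by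
        gcongr
    _ = ENNReal.ofReal ((2 * (m : ℝ) + 6) * ∫ y, a y * ∏ j, ew (y j)) :=
        (ENNReal.ofReal_mul hm6).symm
    _ ≤ ENNReal.ofReal (∫ y, ((∑ j, y j ^ (2 : ℕ)) * (a y - ((m : ℝ) + 2) * a y ^ (2 : ℕ))) *
        ∏ j, ew (y j)) := ENNReal.ofReal_le_ofReal hreal
    _ ≤ _ := hL

/-- The inequality on the whole orthant. -/
theorem orth_ineq (hK : NearSimplex ε K) (h0 : 0 < ε) (h1 : ε < 1) {κ : ℝ}
    (hκ : ∀ (U : (Fin (m + 1) → ℝ) → ℝ) (c : ℝ), Adm U c →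
      κ * ∫ y, U y * ∏ j, ew (y j) ≤ ∑ k, ∫ y, (U y * L2 (y k)) * ∏ j, ew (y j))
    (hsmall : ((m : ℝ) + 2) * eps' (m + 1) ε * (((m : ℝ) + 2) * ((m : ℝ) + 3) * ((m : ℝ) + 4)) ≤ κ) :
    ENNReal.ofReal (2 * (m : ℝ) + 6) * ∫⁻ x in orth (m + 2), F0 K x ≤
      ∫⁻ x in orth (m + 2), F2 K x := by
  rw [sector_sum hK.measurable_F0, sector_sum hK.measurable_F2, Finset.mul_sum]
  exact Finset.sum_le_sum fun i _ => sector_lintegral hK h0 h1 hκ hsmall i

end assemble

section liftlink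

variable {ε : ℝ} {K : Set (Fin n → ℝ)}

lemma ae_ne_zero_pi : ∀ᵐ x : Fin (n + 1) → ℝ, x ≠ 0 := by
  have : ({0}ᶜ : Set (Fin (n + 1) → ℝ)) ∈ ae (volume : Measure (Fin (n + 1) → ℝ)) :=
    compl_mem_ae_iff.mpr (measure_singleton (0 : Fin (n + 1) → ℝ))
  filter_upwards [this] with x hx using hx

lemma mem_T_lam {x : Fin (n + 1) → ℝ} (hx : x ∈ orth (n + 1)) (hs : 0 < ∑ k, x k) :
    (∑ k, x k)⁻¹ • (fun j : Fin n => x j.succ) ∈ T n := by
  refine (inv_smul_mem_T n hs _).2 ⟨fun j => hx _, ?_⟩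
  rw [Fin.sum_univ_succ]
  linarith [hx 0]

lemma sum_pos_of_ne {x : Fin (n + 1) → ℝ} (hx : x ∈ orth (n + 1)) (h0 : x ≠ 0) :
    0 < ∑ k, x k :=
  lt_of_le_of_ne (sum_nonneg_of_orth hx) fun h => h0 (zero_of_sum_eq_zero hx h.symm)

lemma NearSimplex.lift_F0 (hK : NearSimplex ε K) :
    ∫⁻ x in orth (n + 1), F0 K x = (n ! : ℝ≥0∞) * volume (T n \ K) := by
  have hS : MeasurableSet (T n \ K) := (measurableSet_T n).diff hK.closed.measurableSet
  have hg : Measurable ((T n \ K).indicator fun _ => (1 : ℝ≥0∞)) :=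
    measurable_const.indicator hS
  have h := lift_lintegral n 0 ((T n \ K).indicator fun _ => (1 : ℝ≥0∞)) hg
  have e1 : ∫⁻ u in T n, (T n \ K).indicator (fun _ => (1 : ℝ≥0∞)) u = volume (T n \ K) := by
    rw [setLIntegral_indicator hS]
    have : (T n \ K) ∩ T n = T n \ K := inter_eq_left.2 sdiff_subset
    rw [this]
    simp
  rw [e1] at h
  rw [add_zero] at h
  rw [← h]
  refine setLIntegral_congr_fun_ae (measurableSet_orth _) ?_
  filter_upwards [ae_ne_zero_pi] with x hx0 hx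
  have hs := sum_pos_of_ne hx hx0
  have hT := mem_T_lam hx hs
  simp only [F0, pow_zero, one_mul]
  by_cases hC : x ∈ CC K
  · rw [indicator_of_notMem (show x ∉ (CC K)ᶜ from fun h => h hC)]
    have hu : (∑ k, x k)⁻¹ • (fun j : Fin n => x j.succ) ∉ T n \ K :=
      fun h => h.2 ((mem_CC_of_pos hx hs).1 hC)
    rw [indicator_of_notMem hu, zero_mul]
  · rw [indicator_of_mem (show x ∈ (CC K)ᶜ from hC)]
    have hu : (∑ k, x k)⁻¹ • (fun j : Fin n => x j.succ) ∈ T n \ K :=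
      ⟨hT, fun h => hC ((mem_CC_of_pos hx hs).2 h)⟩
    rw [indicator_of_mem hu, one_mul]

lemma NearSimplex.lift_F2 (hK : NearSimplex ε K) :
    ∫⁻ x in orth (n + 1), F2 K x =
      ((n + 2)! : ℝ≥0∞) * ∫⁻ u in T n \ K, ENNReal.ofReal (∑ i, (bc u i) ^ (2 : ℕ)) := by
  have hS : MeasurableSet (T n \ K) := (measurableSet_T n).diff hK.closed.measurableSet
  have hf : Measurable fun u : Fin n → ℝ => ENNReal.ofReal (∑ i, (bc u i) ^ (2 : ℕ)) :=
    ENNReal.measurable_ofReal.comp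
      (Finset.measurable_sum _ fun i _ => (measurable_bc i).pow_const 2)
  have hg := hf.indicator hS
  have h := lift_lintegral n 2 _ hg
  have e1 : ∫⁻ u in T n, (T n \ K).indicator
      (fun u => ENNReal.ofReal (∑ i, (bc u i) ^ (2 : ℕ))) u
      = ∫⁻ u in T n \ K, ENNReal.ofReal (∑ i, (bc u i) ^ (2 : ℕ)) := by
    rw [setLIntegral_indicator hS]
    have : (T n \ K) ∩ T n = T n \ K := inter_eq_left.2 sdiff_subset
    rw [this]
  rw [e1] at h
  rw [← h]
  refine setLIntegral_congr_fun_ae (measurableSet_orth _) ?_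
  filter_upwards [ae_ne_zero_pi] with x hx0 hx
  have hs := sum_pos_of_ne hx hx0
  have hT := mem_T_lam hx hs
  simp only [F2]
  by_cases hC : x ∈ CC K
  · rw [indicator_of_notMem (show x ∉ (CC K)ᶜ from fun h => h hC)]
    have hu : (∑ k, x k)⁻¹ • (fun j : Fin n => x j.succ) ∉ T n \ K :=
      fun h => h.2 ((mem_CC_of_pos hx hs).1 hC)
    rw [indicator_of_notMem hu, zero_mul]
  · rw [indicator_of_mem (show x ∈ (CC K)ᶜ from hC)]
    have hu : (∑ k, x k)⁻¹ • (fun j : Fin n => x j.succ) ∈ T n \ K :=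
      ⟨hT, fun h => hC ((mem_CC_of_pos hx hs).2 h)⟩
    rw [indicator_of_mem hu, ← ENNReal.ofReal_mul (Finset.sum_nonneg fun i _ => by positivity)]
    congr 1
    have e2 : ∀ i, bc ((∑ k, x k)⁻¹ • (fun j : Fin n => x j.succ)) i = x i / ∑ k, x k :=
      fun i => bc_inv_smul_tail x hs.ne' i
    simp only [e2]
    have e3 : (∑ i, (x i / ∑ k, x k) ^ (2 : ℕ)) * (∑ k, x k) ^ (2 : ℕ) = ∑ i, x i ^ (2 : ℕ) := by
      rw [Finset.sum_mul]
      refine Finset.sum_congr rfl fun i _ => ?_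
      field_simp
    rw [← mul_assoc, e3]

end liftlink

lemma volume_T_lt_top (n : ℕ) : volume (T n) < ⊤ := by
  have hsub : T n ⊆ Icc (0 : Fin n → ℝ) (fun _ => 1) := by
    intro x hx
    refine ⟨fun j => hx.1 j, fun j => ?_⟩
    exact (single_le_sum_orth hx.1 j).trans hx.2
  exact (measure_mono hsub).trans_lt isCompact_Icc.measure_lt_top

lemma bc_sq_le {x : Fin n → ℝ} (hx : x ∈ T n) (i : Fin (n + 1)) : (bc x i) ^ (2 : ℕ) ≤ 1 := by
  have h : 0 ≤ bc x i ∧ bc x i ≤ 1 := by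
    refine Fin.cases ?_ (fun j => ?_) i
    · simp only [bc, Fin.cases_zero]
      have := sum_nonneg_of_orth hx.1
      have h2 := hx.2
      constructor <;> linarith
    · simp only [bc, Fin.cases_succ]
      exact ⟨hx.1 j, (single_le_sum_orth hx.1 j).trans hx.2⟩
  nlinarith [h.1, h.2]

/-- **Main inequality.** -/
theorem main_ineq (m : ℕ) : ∃ ε : ℝ, 0 < ε ∧ ε < 1 ∧ ∀ K : Set (Fin (m + 1) → ℝ), NearSimplex ε K →
    2 * vol (T (m + 1) \ K) ≤ ((m : ℝ) + 2) * ∫ x in T (m + 1) \ K, ∑ i, (bc x i) ^ (2 : ℕ) := by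
  obtain ⟨κ, hκ0, hκ⟩ := key_lemma m
  set A : ℝ := ((m : ℝ) + 2) * ((m : ℝ) + 3) * ((m : ℝ) + 4) with hA
  have hA0 : 0 < A := by positivity
  set δ : ℝ := κ / A with hδ
  have hδ0 : 0 < δ := by positivity
  refine ⟨δ / (1 + δ), by positivity, by rw [div_lt_one (by positivity)]; linarith, fun K hK => ?_⟩
  set ε := δ / (1 + δ) with hε
  have h0 : 0 < ε := by positivity
  have h1 : ε < 1 := by rw [hε, div_lt_one (by positivity)]; linarith
  have hsmall : ((m : ℝ) + 2) * eps' (m + 1) ε * A ≤ κ := by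
    have e1 : eps' (m + 1) ε = δ / ((m : ℝ) + 2) := by
      simp only [eps', hε]
      push_cast
      have h3 : (1 : ℝ) + δ ≠ 0 := by positivity
      have h4 : (m : ℝ) + 2 ≠ 0 := by positivity
      have h5 : (m : ℝ) + 1 + 1 ≠ 0 := by positivity
      have h6 : 1 - δ / (1 + δ) = 1 / (1 + δ) := by field_simp; ring
      rw [h6]
      field_simp
      ring
    rw [e1, hδ]
    have h4 : (m : ℝ) + 2 ≠ 0 := by positivity
    field_simp
    exact le_refl _
  have hmain := orth_ineq hK h0 h1 hκ hsmall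
  rw [hK.lift_F0, hK.lift_F2] at hmain
  have hS : MeasurableSet (T (m + 1) \ K) := (measurableSet_T _).diff hK.closed.measurableSet
  set V := volume (T (m + 1) \ K) with hV
  have hVfin : V < ⊤ := (measure_mono sdiff_subset).trans_lt (volume_T_lt_top _)
  set X := ∫⁻ u in T (m + 1) \ K, ENNReal.ofReal (∑ i, (bc u i) ^ (2 : ℕ)) with hX
  have hXfin : X < ⊤ := by
    have hle : X ≤ ∫⁻ u in T (m + 1) \ K, ENNReal.ofReal ((m : ℝ) + 2) := by
      refine setLIntegral_mono' hS fun u hu => ENNReal.ofReal_le_ofReal ?_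
      calc ∑ i, (bc u i) ^ (2 : ℕ) ≤ ∑ _i : Fin (m + 2), (1 : ℝ) :=
            Finset.sum_le_sum fun i _ => bc_sq_le hu.1 i
        _ = _ := by simp
    refine hle.trans_lt ?_
    rw [setLIntegral_const]
    exact ENNReal.mul_lt_top ENNReal.ofReal_lt_top hVfin
  have hint : ∫ x in T (m + 1) \ K, ∑ i, (bc x i) ^ (2 : ℕ) = X.toReal := by
    rw [integral_eq_lintegral_of_nonneg_ae]
    · filter_upwards with x
      exact Finset.sum_nonneg fun i _ => by positivity
    · apply Measurable.aestronglyMeasurable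
      exact Finset.measurable_sum _ fun i _ => (measurable_bc i).pow_const 2
  have hfact0 : ((m + 1)! : ℝ≥0∞) ≠ ⊤ := ENNReal.natCast_ne_top _
  have hfact2 : (((m + 1 + 2)! : ℕ) : ℝ≥0∞) ≠ ⊤ := ENNReal.natCast_ne_top _
  have hreal := (ENNReal.toReal_le_toReal
    (ENNReal.mul_ne_top ENNReal.ofReal_ne_top (ENNReal.mul_ne_top hfact0 hVfin.ne))
    (ENNReal.mul_ne_top hfact2 hXfin.ne)).2 hmain
  rw [ENNReal.toReal_mul, ENNReal.toReal_mul, ENNReal.toReal_mul, ENNReal.toReal_natCast,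
    ENNReal.toReal_natCast, ENNReal.toReal_ofReal (by positivity)] at hreal
  have hfe : (((m + 1 + 2)! : ℕ) : ℝ) = ((m : ℝ) + 3) * ((m : ℝ) + 2) * ((m + 1)! : ℝ) := by
    have e1 : m + 1 + 2 = (m + 1) + 1 + 1 := by ring
    rw [e1, Nat.factorial_succ, Nat.factorial_succ]
    push_cast
    ring
  rw [hfe] at hreal
  have hf0 : (0 : ℝ) < ((m + 1)! : ℝ) := by positivity
  have hm3 : (0 : ℝ) < (m : ℝ) + 3 := by positivity
  rw [hint]
  simp only [vol]
  have h7 : (2 * (m : ℝ) + 6) = 2 * ((m : ℝ) + 3) := by ring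
  rw [h7] at hreal
  have h8 : ((m : ℝ) + 3) * ((m + 1)! : ℝ) * (2 * V.toReal) ≤
      ((m : ℝ) + 3) * ((m + 1)! : ℝ) * (((m : ℝ) + 2) * X.toReal) := by
    calc ((m : ℝ) + 3) * ((m + 1)! : ℝ) * (2 * V.toReal)
        = 2 * ((m : ℝ) + 3) * (((m + 1)! : ℝ) * V.toReal) := by ring
      _ ≤ _ := hreal
      _ = _ := by ring
  exact le_of_mul_le_mul_left h8 (by positivity)

end Vale.Agent.Lib.P254
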