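import Vale.Agent.Lib.P254.Defs

/-!
# P254: normal position of a convex body close to a simplex

We show that a closed convex body squeezed between a shrunken copy of the simplex `T n` and `T n`
has an affine image which is in the normal position `NearSimplex ε`.
-/

open MeasureTheory Set Matrix

namespace Vale.Agent.Lib.P254

namespace Normal

/-! ### The Leibniz type inequality -/

/-- For a nonnegative column stochastic matrix, `|det H| + ∏_j (1 - H i j) ≤ 1`. -/
lemma det_add_prod_le {N : ℕ} (H : Matrix (Fin N) (Fin N) ℝ) (hnn : ∀ i j, 0 ≤ H i j)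
    (hsum : ∀ j, ∑ i, H i j = 1) (i : Fin N) :
    |H.det| + ∏ j, (1 - H i j) ≤ 1 := by
  classical
  set g : (Fin N → Fin N) → ℝ := fun φ => ∏ j, H (φ j) j with hg
  have hg0 : ∀ φ, 0 ≤ g φ := fun φ => Finset.prod_nonneg fun j _ => hnn _ _
  -- total mass one
  have htot : ∑ φ, g φ = 1 := by
    have h1 : ∏ j : Fin N, ∑ k, H k j = ∑ φ ∈ Fintype.piFinset (fun _ : Fin N => Finset.univ), ∏ j, H (φ j) j :=
      Finset.prod_univ_sum _ _
    rw [Fintype.piFinset_univ] at h1
    simp only [hsum, Finset.prod_const_one] at h1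
    exact h1.symm
  -- the functions missing `i`
  set S : Finset (Fin N → Fin N) := Fintype.piFinset fun _ => Finset.univ.erase i with hS
  have hmiss : ∑ φ ∈ S, g φ = ∏ j, (1 - H i j) := by
    have h1 : ∏ j : Fin N, ∑ k ∈ Finset.univ.erase i, H k j =
        ∑ φ ∈ Fintype.piFinset (fun _ : Fin N => Finset.univ.erase i), ∏ j, H (φ j) j :=
      Finset.prod_univ_sum _ _
    rw [← h1]
    refine Finset.prod_congr rfl fun j _ => ?_
    have h2 := Finset.add_sum_erase Finset.univ (fun k => H k j) (Finset.mem_univ i)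
    rw [hsum j] at h2
    linarith
  -- the determinant
  have hdet : |H.det| ≤ ∑ φ ∈ Sᶜ, g φ := by
    rw [Matrix.det_apply']
    refine (Finset.abs_sum_le_sum_abs _ _).trans ?_
    have h1 : ∀ σ : Equiv.Perm (Fin N), |((Equiv.Perm.sign σ : ℤ) : ℝ) * ∏ j, H (σ j) j| = g σ := by
      intro σ
      rw [abs_mul, abs_of_nonneg (hg0 (⇑σ))]
      have : |((Equiv.Perm.sign σ : ℤ) : ℝ)| = 1 := by
        rcases Int.units_eq_one_or (Equiv.Perm.sign σ) with h | h <;> simp [h]
      rw [this, one_mul]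
    simp_rw [h1]
    have h2 : ∑ σ : Equiv.Perm (Fin N), g σ =
        ∑ φ ∈ Finset.univ.image (fun σ : Equiv.Perm (Fin N) => (σ : Fin N → Fin N)), g φ := by
      rw [Finset.sum_image]
      intro a _ b _ hab
      exact DFunLike.coe_injective hab
    rw [h2]
    refine Finset.sum_le_sum_of_subset_of_nonneg ?_ fun φ _ _ => hg0 φ
    intro φ hφ
    obtain ⟨σ, -, rfl⟩ := Finset.mem_image.mp hφ
    rw [Finset.mem_compl, hS, Fintype.mem_piFinset]
    intro hcon
    have := hcon (σ⁻¹ i)
    simp at this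
  have hsplit : ∑ φ ∈ S, g φ + ∑ φ ∈ Sᶜ, g φ = 1 := by
    rw [Finset.sum_add_sum_compl, htot]
  rw [hmiss] at hsplit
  linarith

variable {n : ℕ}

/-! ### Barycentric coordinates -/

lemma sum_bc (x : Fin n → ℝ) : ∑ i, bc x i = 1 := by
  simp [bc, Fin.sum_univ_succ]

lemma bc_zero (x : Fin n → ℝ) : bc x 0 = 1 - ∑ j, x j := by simp [bc]

lemma bc_succ (x : Fin n → ℝ) (j : Fin n) : bc x j.succ = x j := by simp [bc]

lemma mem_T_iff (x : Fin n → ℝ) : x ∈ T n ↔ ∀ i, 0 ≤ bc x i := by
  constructor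
  · intro hx i
    refine Fin.cases ?_ (fun j => ?_) i
    · rw [bc_zero]; linarith [hx.2]
    · rw [bc_succ]; exact hx.1 j
  · intro h
    refine ⟨fun j => ?_, ?_⟩
    · simpa [bc_succ] using h j.succ
    · have := h 0
      rw [bc_zero] at this
      linarith

lemma coord_le_one {x : Fin n → ℝ} (hx : x ∈ T n) (j : Fin n) : x j ≤ 1 := by
  have h := Finset.single_le_sum (f := x) (fun i _ => hx.1 i) (Finset.mem_univ j)
  exact h.trans hx.2

lemma isClosed_T (n : ℕ) : IsClosed (T n) := by
  have : T n = (⋂ j, {y : Fin n → ℝ | 0 ≤ y j}) ∩ {y : Fin n → ℝ | ∑ j, y j ≤ 1} := by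
    ext y; simp [T]
  rw [this]
  refine IsClosed.inter (isClosed_iInter fun j => isClosed_le continuous_const (continuous_apply j)) ?_
  exact isClosed_le (continuous_finsetSum _ fun j _ => continuous_apply j) continuous_const

lemma isCompact_T (n : ℕ) : IsCompact (T n) := by
  refine IsCompact.of_isClosed_subset (isCompact_Icc (a := (0 : Fin n → ℝ)) (b := 1)) (isClosed_T n) ?_
  intro x hx
  exact ⟨fun j => hx.1 j, fun j => coord_le_one hx j⟩

lemma bc_affine (b t : Fin n → ℝ) (s : ℝ) (i : Fin (n + 1)) :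
    bc (b + s • (t - b)) i = bc b i + s * (bc t i - bc b i) := by
  refine Fin.cases ?_ (fun j => ?_) i
  · simp only [bc_zero, Pi.add_apply, Pi.smul_apply, Pi.sub_apply, smul_eq_mul,
      Finset.sum_add_distrib, ← Finset.mul_sum, Finset.sum_sub_distrib]
    ring
  · simp only [bc_succ, Pi.add_apply, Pi.smul_apply, Pi.sub_apply, smul_eq_mul]

lemma bc_bary (n : ℕ) (i : Fin (n + 1)) : bc (bary n) i = 1 / ((n : ℝ) + 1) := by
  refine Fin.cases ?_ (fun j => ?_) i
  · rw [bc_zero]
    simp only [bary, Finset.sum_const, Finset.card_univ, Fintype.card_fin, nsmul_eq_mul]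
    have : ((n : ℝ) + 1) ≠ 0 := by positivity
    field_simp
    ring
  · rw [bc_succ]; rfl

lemma bary_mem_T (n : ℕ) : bary n ∈ T n := by
  rw [mem_T_iff]
  intro i
  rw [bc_bary]
  positivity

/-- A continuous linear functional in barycentric coordinates. -/
lemma exists_dual (f : (Fin n → ℝ) →L[ℝ] ℝ) :
    ∃ a : Fin (n + 1) → ℝ, ∀ x, f x = ∑ i, a i * bc x i := by
  refine ⟨Fin.cases 0 fun j => f fun k => if j = k then 1 else 0, fun x => ?_⟩
  rw [Fin.sum_univ_succ]
  simp only [Fin.cases_zero, zero_mul, zero_add, Fin.cases_succ, bc_succ]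
  have := LinearMap.pi_apply_eq_sum_univ (f : (Fin n → ℝ) →ₗ[ℝ] ℝ) x
  simp only [ContinuousLinearMap.coe_coe, smul_eq_mul] at this
  rw [this]
  exact Finset.sum_congr rfl fun j _ => mul_comm _ _

/-! ### Touching the facet centroids -/

/-- The maximality property of the normal position. -/
def MaxDet (K : Set (Fin n → ℝ)) : Prop :=
  ∀ (M : Matrix (Fin n) (Fin n) ℝ) (c : Fin n → ℝ), (∀ x ∈ K, M.mulVec x + c ∈ T n) → |M.det| ≤ 1

lemma exists_prod_gt_one {ι : Type*} [Fintype ι] (z : ι → ℝ) (hZ : 0 < ∑ i, z i) :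
    ∃ s, 0 < s ∧ s < 1 ∧ 1 < ∏ i, (1 + s * z i) := by
  classical
  have hd : HasDerivAt (fun s : ℝ => ∏ i, (1 + s * z i)) (∑ i, z i) 0 := by
    have h := HasDerivAt.fun_finsetProd (u := Finset.univ) (f := fun i (s : ℝ) => 1 + s * z i)
      (f' := z) (x := 0) (fun i _ => by
        have := ((hasDerivAt_id (0 : ℝ)).mul_const (z i)).const_add 1
        simpa using this)
    simpa using h
  have hs := hasDerivAt_iff_tendsto_slope.mp hd
  have hev : ∀ᶠ s in nhdsWithin (0 : ℝ) {(0 : ℝ)}ᶜ, 0 < slope (fun s : ℝ => ∏ i, (1 + s * z i)) 0 s :=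
    hs.eventually (lt_mem_nhds hZ)
  have hev1 : ∀ᶠ s in nhdsWithin (0 : ℝ) (Ioi 0), 0 < slope (fun s : ℝ => ∏ i, (1 + s * z i)) 0 s :=
    hev.filter_mono (nhdsWithin_mono _ fun x hx => ne_of_gt hx)
  have hev2 : ∀ᶠ s in nhdsWithin (0 : ℝ) (Ioi 0), s ∈ Ioo (0 : ℝ) 1 :=
    Ioo_mem_nhdsGT (by norm_num : (0 : ℝ) < 1)
  obtain ⟨s, h1, h2⟩ := (hev1.and hev2).exists
  refine ⟨s, h2.1, h2.2, ?_⟩
  rw [slope_def_field] at h1
  have hspos : 0 < s - 0 := by linarith [h2.1]
  have h3 := (div_pos_iff_of_pos_right hspos).mp h1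
  simpa using h3

lemma centroid_mem (hn : 0 < n) {K : Set (Fin n → ℝ)} (hKc : IsCompact K) (hKconv : Convex ℝ K)
    (hKT : K ⊆ T n) (hb : bary n ∈ K) (hmax : MaxDet K) :
    (fun _ : Fin n => 1 / (n : ℝ)) ∈ K := by
  have hn' : (0 : ℝ) < n := by exact_mod_cast hn
  have hPc : Continuous fun x : Fin n → ℝ => ∏ j, x j :=
    continuous_finsetProd _ fun j _ => continuous_apply j
  obtain ⟨xs, hxs, hmaxs⟩ := hKc.exists_isMaxOn ⟨bary n, hb⟩ hPc.continuousOn
  have hPb : 0 < ∏ j, bary n j := Finset.prod_pos fun j _ => by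
    simp only [bary]; positivity
  have hPpos : 0 < ∏ j, xs j := hPb.trans_le (isMaxOn_iff.mp hmaxs _ hb)
  have hxspos : ∀ j, 0 < xs j := by
    intro j
    refine lt_of_le_of_ne ((hKT hxs).1 j) fun h => ?_
    rw [Finset.prod_eq_zero (Finset.mem_univ j) h.symm] at hPpos
    exact lt_irrefl _ hPpos
  -- first order condition
  have hfo : ∀ x ∈ K, ∑ j, x j / xs j ≤ n := by
    intro x hx
    by_contra hcon
    have hZ : 0 < ∑ j, (x j / xs j - 1) := by
      rw [Finset.sum_sub_distrib]
      simp only [Finset.sum_const, Finset.card_univ, Fintype.card_fin, nsmul_eq_mul, mul_one]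
      linarith [not_le.mp hcon]
    obtain ⟨s, hs0, hs1, hgt⟩ := exists_prod_gt_one _ hZ
    have hmem : xs + s • (x - xs) ∈ K :=
      hKconv.add_smul_sub_mem hxs hx ⟨hs0.le, hs1.le⟩
    have hle := isMaxOn_iff.mp hmaxs _ hmem
    have heq : ∏ j, (xs + s • (x - xs)) j = (∏ j, xs j) * ∏ j, (1 + s * (x j / xs j - 1)) := by
      rw [← Finset.prod_mul_distrib]
      refine Finset.prod_congr rfl fun j _ => ?_
      have := (hxspos j).ne'
      simp only [Pi.add_apply, Pi.smul_apply, Pi.sub_apply, smul_eq_mul]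
      field_simp
    rw [heq] at hle
    nlinarith [mul_lt_mul_of_pos_left hgt hPpos]
  -- the diagonal map
  set B : Matrix (Fin n) (Fin n) ℝ := Matrix.diagonal fun j => ((n : ℝ) * xs j)⁻¹ with hB
  have hBT : ∀ x ∈ K, B.mulVec x + 0 ∈ T n := by
    intro x hx
    rw [add_zero]
    have hcoord : ∀ j, B.mulVec x j = x j / xs j / n := by
      intro j
      rw [hB, Matrix.mulVec_diagonal]
      have := (hxspos j).ne'
      field_simp
    refine ⟨fun j => ?_, ?_⟩
    · rw [hcoord]
      exact div_nonneg (div_nonneg ((hKT hx).1 j) (hxspos j).le) hn'.le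
    · simp_rw [hcoord]
      rw [← Finset.sum_div, div_le_one hn']
      exact hfo x hx
  have hdetB := hmax B 0 hBT
  have hdetval : B.det = (∏ j, ((n : ℝ) * xs j))⁻¹ := by
    rw [hB, Matrix.det_diagonal, Finset.prod_inv_distrib]
  set u : Fin n → ℝ := fun j => (n : ℝ) * xs j with hu
  have hupos : ∀ j, 0 < u j := fun j => mul_pos hn' (hxspos j)
  have hprodpos : 0 < ∏ j, u j := Finset.prod_pos fun j _ => hupos j
  have hprod : 1 ≤ ∏ j, u j := by
    rw [hdetval, abs_of_pos (inv_pos.mpr hprodpos)] at hdetB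
    exact (inv_le_one₀ hprodpos).mp hdetB
  have hsum : ∑ j, u j ≤ n := by
    have h1 : ∑ j, u j = (n : ℝ) * ∑ j, xs j := by rw [Finset.mul_sum]
    rw [h1]
    have h2 := (hKT hxs).2
    nlinarith
  have hlog : 0 ≤ ∑ j, Real.log (u j) := by
    rw [← Real.log_prod fun j _ => (hupos j).ne']
    exact Real.log_nonneg hprod
  have hterm : ∀ j, 0 ≤ u j - 1 - Real.log (u j) := fun j => by
    have := Real.log_le_sub_one_of_pos (hupos j)
    linarith
  have hzero : ∑ j, (u j - 1 - Real.log (u j)) ≤ 0 := by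
    rw [Finset.sum_sub_distrib, Finset.sum_sub_distrib]
    simp only [Finset.sum_const, Finset.card_univ, Fintype.card_fin, nsmul_eq_mul, mul_one]
    linarith
  have heach : ∀ j, u j = 1 := by
    intro j
    by_contra hne
    have hlt := Real.log_lt_sub_one_of_pos (hupos j) hne
    have hpos : 0 < u j - 1 - Real.log (u j) := by linarith
    have := Finset.single_le_sum (f := fun j => u j - 1 - Real.log (u j)) (fun i _ => hterm i)
      (Finset.mem_univ j)
    linarith
  have hfinal : xs = fun _ : Fin n => 1 / (n : ℝ) := by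
    funext j
    have := heach j
    simp only [hu] at this
    field_simp
    linarith
  rwa [← hfinal]

/-! ### The symmetry exchanging two vertices -/

/-- The linear part of the symmetry. -/
noncomputable def tauMat (j0 : Fin n) : Matrix (Fin n) (Fin n) ℝ :=
  (1 : Matrix (Fin n) (Fin n) ℝ).updateRow j0 (fun _ => -1)

/-- The symmetry exchanging the vertices `0` and `e_{j0}` of the simplex. -/
noncomputable def tau (j0 : Fin n) (x : Fin n → ℝ) : Fin n → ℝ :=
  (tauMat j0).mulVec x + Pi.single j0 1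

lemma tau_apply_self (j0 : Fin n) (x : Fin n → ℝ) : tau j0 x j0 = 1 - ∑ j, x j := by
  classical
  simp only [tau, tauMat, Pi.add_apply, Pi.single_eq_same, Matrix.mulVec, dotProduct,
    Matrix.updateRow_self, neg_mul, one_mul, Finset.sum_neg_distrib]
  ring

lemma tau_apply_ne (j0 : Fin n) (x : Fin n → ℝ) {j : Fin n} (hj : j ≠ j0) : tau j0 x j = x j := by
  classical
  simp only [tau, tauMat, Pi.add_apply, Matrix.mulVec, dotProduct, Matrix.updateRow_ne hj,
    Pi.single_eq_of_ne hj, add_zero]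
  simp [Matrix.one_apply]

lemma sum_tau (j0 : Fin n) (x : Fin n → ℝ) : ∑ j, tau j0 x j = 1 - x j0 := by
  classical
  rw [← Finset.add_sum_erase _ _ (Finset.mem_univ j0), tau_apply_self]
  have h1 : ∑ j ∈ Finset.univ.erase j0, tau j0 x j = ∑ j ∈ Finset.univ.erase j0, x j :=
    Finset.sum_congr rfl fun j hj => tau_apply_ne j0 x (Finset.ne_of_mem_erase hj)
  have h2 := Finset.add_sum_erase Finset.univ x (Finset.mem_univ j0)
  rw [h1]
  linarith

lemma tau_tau (j0 : Fin n) (x : Fin n → ℝ) : tau j0 (tau j0 x) = x := by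
  funext j
  by_cases hj : j = j0
  · subst hj
    rw [tau_apply_self, sum_tau]
    ring
  · rw [tau_apply_ne j0 _ hj, tau_apply_ne j0 _ hj]

lemma tau_mem_T (j0 : Fin n) {x : Fin n → ℝ} (hx : x ∈ T n) : tau j0 x ∈ T n := by
  refine ⟨fun j => ?_, ?_⟩
  · by_cases hj : j = j0
    · subst hj
      rw [tau_apply_self]
      linarith [hx.2]
    · rw [tau_apply_ne j0 _ hj]
      exact hx.1 j
  · rw [sum_tau]
    linarith [hx.1 j0]

lemma tau_bary (j0 : Fin n) : tau j0 (bary n) = bary n := by
  funext j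
  by_cases hj : j = j0
  · subst hj
    rw [tau_apply_self]
    have := bc_bary n 0
    rw [bc_zero] at this
    rw [this]; rfl
  · rw [tau_apply_ne j0 _ hj]

lemma det_tauMat (j0 : Fin n) : (tauMat j0).det = -1 := by
  classical
  have h := Matrix.cramer_transpose_apply (1 : Matrix (Fin n) (Fin n) ℝ) (fun _ => (-1 : ℝ)) j0
  rw [tauMat, ← h, Matrix.transpose_one, Matrix.cramer_one]
  simp

lemma tau_centroid (hn : 0 < n) (j0 : Fin n) :
    tau j0 (fun _ : Fin n => 1 / (n : ℝ)) = facetCentroid n j0.succ := by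
  have hn' : (n : ℝ) ≠ 0 := by positivity
  funext j
  by_cases hj : j = j0
  · subst hj
    rw [tau_apply_self]
    simp only [facetCentroid, if_true, Finset.sum_const, Finset.card_univ, Fintype.card_fin,
      nsmul_eq_mul]
    field_simp
    ring
  · rw [tau_apply_ne j0 _ hj]
    have : j.succ ≠ j0.succ := fun h => hj (Fin.succ_injective _ h)
    simp [facetCentroid, this]

lemma facet_mem (hn : 0 < n) {K : Set (Fin n → ℝ)} (hKc : IsCompact K) (hKconv : Convex ℝ K)
    (hKT : K ⊆ T n) (hb : bary n ∈ K) (hmax : MaxDet K) (i : Fin (n + 1)) :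
    facetCentroid n i ∈ K := by
  refine Fin.cases ?_ (fun j0 => ?_) i
  · have h := centroid_mem hn hKc hKconv hKT hb hmax
    convert h using 1
    funext j
    simp [facetCentroid, Fin.succ_ne_zero]
  · have hcont : Continuous (tau j0) := by
      unfold tau
      exact (Continuous.matrix_mulVec continuous_const continuous_id).add continuous_const
    have hc2 : IsCompact (tau j0 '' K) := hKc.image hcont
    have hconv2 : Convex ℝ (tau j0 '' K) := by
      rintro _ ⟨x, hx, rfl⟩ _ ⟨y, hy, rfl⟩ a b ha hb' hab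
      refine ⟨a • x + b • y, hKconv hx hy ha hb' hab, ?_⟩
      have hone : (Pi.single j0 1 : Fin n → ℝ) = a • Pi.single j0 1 + b • Pi.single j0 1 := by
        rw [← add_smul, hab, one_smul]
      simp only [tau, Matrix.mulVec_add, Matrix.mulVec_smul, smul_add]
      nth_rewrite 1 [hone]
      abel
    have hT2 : tau j0 '' K ⊆ T n := by
      rintro _ ⟨x, hx, rfl⟩
      exact tau_mem_T j0 (hKT hx)
    have hb2 : bary n ∈ tau j0 '' K := ⟨bary n, hb, tau_bary j0⟩
    have hmax2 : MaxDet (tau j0 '' K) := by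
      intro M c hMc
      have h1 := hmax (M * tauMat j0) (M.mulVec (Pi.single j0 1) + c) (by
        intro x hx
        have := hMc _ ⟨x, hx, rfl⟩
        simp only [tau, Matrix.mulVec_add, Matrix.mulVec_mulVec] at this
        rwa [add_assoc] at this)
      rwa [Matrix.det_mul, det_tauMat, abs_mul, abs_neg, abs_one, mul_one] at h1
    obtain ⟨y, hy, hyeq⟩ := centroid_mem hn hc2 hconv2 hT2 hb2 hmax2
    have : y = facetCentroid n j0.succ := by
      rw [← tau_centroid hn j0, ← hyeq, tau_tau]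
    rwa [← this]

/-! ### Closeness of the vertices -/

lemma det_bc_points (w : Fin (n + 1) → Fin n → ℝ) :
    (Matrix.of fun i j => bc (w j) i).det = (Matrix.of fun k j : Fin n => w j.succ k - w 0 k).det := by
  classical
  set H : Matrix (Fin (n + 1)) (Fin (n + 1)) ℝ := Matrix.of fun i j => bc (w j) i with hH
  set H1 : Matrix (Fin (n + 1)) (Fin (n + 1)) ℝ := H.updateRow 0 (∑ k, H k) with hH1
  have h1 : H1.det = H.det := by
    have := Matrix.det_updateRow_sum H 0 (fun _ => (1 : ℝ))
    simp only [one_smul] at this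
    simpa using this
  have hH10 : ∀ j, H1 0 j = 1 := by
    intro j
    rw [hH1, Matrix.updateRow_self]
    have e : (∑ k, (H k : Fin (n + 1) → ℝ)) j = ∑ k, H k j := Finset.sum_apply j _ _
    refine e.trans ?_
    simp only [hH, Matrix.of_apply]
    exact sum_bc (w j)
  have hH1s : ∀ k j, H1 (Fin.succ k) j = w j k := by
    intro k j
    rw [hH1, Matrix.updateRow_ne (Fin.succ_ne_zero k)]
    simp [hH, bc_succ]
  -- column operations
  set B : Matrix (Fin (n + 1)) (Fin (n + 1)) ℝ :=
    Matrix.of fun i j => if j = 0 then H1 i 0 else H1 i j - H1 i 0 with hB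
  have h2 : H1.det = B.det := by
    rw [← Matrix.det_transpose H1, ← Matrix.det_transpose B]
    refine Matrix.det_eq_of_forall_row_eq_smul_add_const
      (fun j => if j = 0 then (0 : ℝ) else 1) 0 (by simp) fun j i => ?_
    by_cases hj : j = 0
    · subst hj
      simp [hB]
    · simp [hB, hj]
  rw [← h1, h2, Matrix.det_succ_row_zero, Fin.sum_univ_succ]
  have h0 : B 0 0 = 1 := by simp [hB, hH10]
  have hs : ∀ j : Fin n, B 0 j.succ = 0 := by
    intro j
    simp [hB, hH10, Fin.succ_ne_zero]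
  simp only [hs, mul_zero, zero_mul, Finset.sum_const_zero, add_zero, h0, pow_zero, one_mul,
    Fin.val_zero, Fin.succAbove_zero]
  congr 1

/-- The vertices of the simplex. -/
noncomputable def vtx (n : ℕ) : Fin (n + 1) → Fin n → ℝ :=
  fun j => Fin.cases 0 (fun j' => Pi.single j' 1) j

lemma vtx_mem (j : Fin (n + 1)) : vtx n j ∈ T n := by
  classical
  refine Fin.cases ?_ (fun j' => ?_) j
  · refine ⟨fun k => ?_, ?_⟩ <;> simp [vtx]
  · refine ⟨fun k => ?_, ?_⟩
    · simp only [vtx, Fin.cases_succ, Pi.single_apply]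
      split_ifs <;> norm_num
    · simp [vtx]

/-- `A(T_δ)` is close to all the vertices. -/
lemma exists_close {K : Set (Fin n → ℝ)} (M : Matrix (Fin n) (Fin n) ℝ) (c : Fin n → ℝ)
    (hM : ∀ x ∈ K, M.mulVec x + c ∈ T n) (hdet : 1 ≤ |M.det|) {δ θ : ℝ} (hδ0 : 0 < δ) (hδ1 : δ < 1)
    (hθ : 0 < θ) (hδθ : (n : ℝ) * δ ≤ θ ^ (n + 1))
    (hin : ∀ t ∈ T n, bary n + (1 - δ) • (t - bary n) ∈ K) (i : Fin (n + 1)) :
    ∃ q ∈ K, 1 - θ ≤ bc (M.mulVec q + c) i := by
  classical
  set q : Fin (n + 1) → Fin n → ℝ := fun j => bary n + (1 - δ) • (vtx n j - bary n) with hq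
  have hqK : ∀ j, q j ∈ K := fun j => hin _ (vtx_mem j)
  set w : Fin (n + 1) → Fin n → ℝ := fun j => M.mulVec (q j) + c with hw
  have hwT : ∀ j, w j ∈ T n := fun j => hM _ (hqK j)
  set H : Matrix (Fin (n + 1)) (Fin (n + 1)) ℝ := Matrix.of fun i j => bc (w j) i with hH
  have hnn : ∀ i j, 0 ≤ H i j := fun i j => (mem_T_iff _).mp (hwT j) i
  have hsum : ∀ j, ∑ i, H i j = 1 := fun j => sum_bc (w j)
  have hD : (Matrix.of fun k j : Fin n => w j.succ k - w 0 k) = (1 - δ) • M := by
    ext k j
    have h1 : q j.succ - q 0 = (1 - δ) • (Pi.single j 1 : Fin n → ℝ) := by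
      simp only [hq, vtx, Fin.cases_succ, Fin.cases_zero]
      ext l
      simp only [Pi.sub_apply, Pi.add_apply, Pi.smul_apply, smul_eq_mul, Pi.zero_apply]
      ring
    have h2 : w j.succ - w 0 = (1 - δ) • M.mulVec (Pi.single j 1) := by
      simp only [hw]
      rw [add_sub_add_right_eq_sub, ← Matrix.mulVec_sub, h1, Matrix.mulVec_smul]
    have h3 := congrFun h2 k
    simp only [Pi.sub_apply, Pi.smul_apply, smul_eq_mul, Matrix.mulVec_single_one] at h3
    simpa [Matrix.col_apply] using h3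
  have hdetH : H.det = (1 - δ) ^ n * M.det := by
    rw [hH, det_bc_points, hD, Matrix.det_smul, Fintype.card_fin]
  have hle := det_add_prod_le H hnn hsum i
  have hpow : 1 - (n : ℝ) * δ ≤ (1 - δ) ^ n := by
    have := one_add_mul_le_pow (a := -δ) (by linarith) n
    simpa [sub_eq_add_neg] using this
  have hprodle : ∏ j, (1 - H i j) ≤ θ ^ (n + 1) := by
    have habs : (1 - δ) ^ n ≤ |H.det| := by
      rw [hdetH, abs_mul, abs_of_pos (by have : 0 < 1 - δ := by linarith
                                         positivity)]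
      have h0 : 0 ≤ (1 - δ) ^ n := by
        have : 0 < 1 - δ := by linarith
        positivity
      nlinarith
    linarith
  by_contra hcon
  simp only [not_exists, not_and, not_le] at hcon
  have hlt : ∀ j, θ < 1 - H i j := fun j => by
    have := hcon (q j) (hqK j)
    have h2 : H i j = bc (M.mulVec (q j) + c) i := rfl
    linarith
  have hprod : ∏ _j : Fin (n + 1), θ < ∏ j, (1 - H i j) :=
    Finset.prod_lt_prod_of_nonempty (fun _ _ => hθ) (fun j _ => hlt j) Finset.univ_nonempty
  simp only [Finset.prod_const, Finset.card_univ, Fintype.card_fin] at hprod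
  linarith

/-! ### The inner homothetic copy -/

lemma inner_mem {K : Set (Fin n → ℝ)} (hcl : IsClosed K) (hconv : Convex ℝ K) (hsub : K ⊆ T n)
    {ε θ : ℝ} (hε : ε < 1) (hθ : θ ≤ ε / ((n : ℝ) + 1))
    (hclose : ∀ i, ∃ w ∈ K, 1 - θ ≤ bc w i) (t : Fin n → ℝ) (ht : t ∈ T n) :
    bary n + (1 - ε) • (t - bary n) ∈ K := by
  by_contra hp
  obtain ⟨f, u, hf1, hf2⟩ := geometric_hahn_banach_closed_point hconv hcl hp
  obtain ⟨a, ha⟩ := exists_dual f
  obtain ⟨i0, -, hi0⟩ := Finset.exists_max_image Finset.univ a Finset.univ_nonempty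
  obtain ⟨i1, -, hi1⟩ := Finset.exists_min_image Finset.univ a Finset.univ_nonempty
  set p := bary n + (1 - ε) • (t - bary n) with hpdef
  have htnn := (mem_T_iff _).mp ht
  have hpi : ∀ i, ε / ((n : ℝ) + 1) + (1 - ε) * bc t i = bc p i := by
    intro i
    rw [hpdef, bc_affine, bc_bary]
    have : ((n : ℝ) + 1) ≠ 0 := by positivity
    field_simp
    ring
  have hpnn : ∀ i, 0 ≤ bc p i := by
    intro i
    rw [← hpi]
    have h1 : 0 ≤ 1 - ε := by linarith
    have h2 := htnn i
    by_cases hε0 : 0 ≤ ε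
    · positivity
    · -- negative `ε`: `p` may leave the simplex, but then `θ < 0` and `hclose` is impossible
      exfalso
      obtain ⟨w, hw, hwb⟩ := hclose 0
      have hn1 : (0 : ℝ) < (n : ℝ) + 1 := by positivity
      have hθneg : θ < 0 := hθ.trans_lt (div_neg_of_neg_of_pos (not_le.mp hε0) hn1)
      -- all coordinates of `w` sum to one and each coordinate would be larger than one
      have hwT := hsub hw
      have hle1 : bc w 0 ≤ 1 := by
        rw [bc_zero]; linarith [Finset.sum_nonneg fun j (_ : j ∈ Finset.univ) => hwT.1 j]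
      linarith
  -- upper bound at `p`
  have hup : f p ≤ a i0 - bc p i1 * (a i0 - a i1) := by
    rw [ha]
    have h1 : ∀ i, a i * bc p i ≤ a i0 * bc p i - (if i = i1 then bc p i1 * (a i0 - a i1) else 0) := by
      intro i
      by_cases hi : i = i1
      · subst hi
        simp only [if_true]
        nlinarith
      · simp only [if_neg hi, sub_zero]
        exact mul_le_mul_of_nonneg_right (hi0 i (Finset.mem_univ i)) (hpnn i)
    calc ∑ i, a i * bc p i ≤ ∑ i, (a i0 * bc p i - (if i = i1 then bc p i1 * (a i0 - a i1) else 0)) :=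
          Finset.sum_le_sum fun i _ => h1 i
      _ = a i0 - bc p i1 * (a i0 - a i1) := by
          rw [Finset.sum_sub_distrib, ← Finset.mul_sum, sum_bc]
          simp
  -- lower bound at the point close to the vertex
  obtain ⟨w, hw, hwb⟩ := hclose i0
  have hwnn := (mem_T_iff _).mp (hsub hw)
  have hlow : a i0 - θ * (a i0 - a i1) ≤ f w := by
    rw [ha]
    have h1 : ∀ i, a i1 * bc w i + (if i = i0 then bc w i0 * (a i0 - a i1) else 0) ≤ a i * bc w i := by
      intro i
      by_cases hi : i = i0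
      · subst hi
        simp only [if_true]
        nlinarith
      · simp only [if_neg hi, add_zero]
        exact mul_le_mul_of_nonneg_right (hi1 i (Finset.mem_univ i)) (hwnn i)
    have h2 : a i1 + bc w i0 * (a i0 - a i1) ≤ ∑ i, a i * bc w i := by
      calc a i1 + bc w i0 * (a i0 - a i1)
          = ∑ i, (a i1 * bc w i + (if i = i0 then bc w i0 * (a i0 - a i1) else 0)) := by
            rw [Finset.sum_add_distrib, ← Finset.mul_sum, sum_bc]
            simp
        _ ≤ ∑ i, a i * bc w i := Finset.sum_le_sum fun i _ => h1 i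
    have hd : 0 ≤ a i0 - a i1 := by linarith [hi0 i1 (Finset.mem_univ i1)]
    nlinarith
  have hpi1 : ε / ((n : ℝ) + 1) ≤ bc p i1 := by
    rw [← hpi]
    have h1 : 0 ≤ 1 - ε := by linarith
    have := mul_nonneg h1 (htnn i1)
    linarith
  have hd : 0 ≤ a i0 - a i1 := by linarith [hi0 i1 (Finset.mem_univ i1)]
  have hlt : f w < f p := (hf1 w hw).trans hf2
  nlinarith

/-! ### Existence of the maximizer -/

lemma exists_maximizer {K : Set (Fin n → ℝ)} (hKT : K ⊆ T n) {δ : ℝ} (hδ1 : δ < 1)
    (hin : ∀ t ∈ T n, bary n + (1 - δ) • (t - bary n) ∈ K) :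
    ∃ (M : Matrix (Fin n) (Fin n) ℝ) (c : Fin n → ℝ), (∀ x ∈ K, M.mulVec x + c ∈ T n) ∧
      (∀ (M' : Matrix (Fin n) (Fin n) ℝ) (c' : Fin n → ℝ), (∀ x ∈ K, M'.mulVec x + c' ∈ T n) →
        |M'.det| ≤ |M.det|) ∧ 1 ≤ |M.det| := by
  classical
  set P := (Fin n → Fin n → ℝ) × (Fin n → ℝ)
  set F : Set P := {p | ∀ x ∈ K, (Matrix.of p.1).mulVec x + p.2 ∈ T n} with hF
  have hδ' : 0 < 1 - δ := by linarith
  set N : ℝ := (n : ℝ) + 1 with hN
  have hN0 : 0 < N := by positivity
  set ρ : ℝ := (1 - δ) / N with hρ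
  have hρ0 : 0 < ρ := by positivity
  -- the test points
  have hb : bary n ∈ K := by
    have := hin _ (bary_mem_T n)
    simpa using this
  have hbk : ∀ k : Fin n, bary n + ρ • (Pi.single k 1 : Fin n → ℝ) ∈ K := by
    intro k
    set t : Fin n → ℝ := bary n + (1 / N) • (Pi.single k 1 : Fin n → ℝ) with ht
    have htT : t ∈ T n := by
      refine ⟨fun j => ?_, ?_⟩
      · simp only [ht, bary, Pi.add_apply, Pi.smul_apply, smul_eq_mul]
        have : 0 ≤ (Pi.single k 1 : Fin n → ℝ) j := by
          rw [Pi.single_apply]; split_ifs <;> norm_num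
        positivity
      · simp only [ht, Pi.add_apply, Pi.smul_apply, smul_eq_mul, Finset.sum_add_distrib,
          ← Finset.mul_sum, Finset.sum_pi_single', Finset.mem_univ, if_true, bary, Finset.sum_const,
          Finset.card_univ, Fintype.card_fin, nsmul_eq_mul, mul_one]
        have : (n : ℝ) * (1 / ((n : ℝ) + 1)) + 1 / N = 1 := by
          rw [hN]; field_simp
        exact this.le
    have h := hin t htT
    have heq : bary n + (1 - δ) • (t - bary n) = bary n + ρ • (Pi.single k 1 : Fin n → ℝ) := by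
      rw [ht, add_sub_cancel_left, smul_smul]
      congr 2
      rw [hρ]; ring
    rwa [heq] at h
  -- closed
  have hFc : IsClosed F := by
    have : F = ⋂ x ∈ K, {p : P | (Matrix.of p.1).mulVec x + p.2 ∈ T n} := by
      ext p; simp [hF]
    rw [this]
    refine isClosed_biInter fun x _ => (isClosed_T n).preimage ?_
    refine continuous_pi fun j => ?_
    simp only [Pi.add_apply, Matrix.mulVec, dotProduct, Matrix.of_apply]
    refine Continuous.add (continuous_finsetSum _ fun k _ => ?_) ?_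
    · have : Continuous fun p : (Fin n → Fin n → ℝ) × (Fin n → ℝ) => p.1 j k := by fun_prop
      exact this.mul continuous_const
    · have : Continuous fun p : (Fin n → Fin n → ℝ) × (Fin n → ℝ) => p.2 j := by fun_prop
      exact this
  -- bounded
  have hFb : Bornology.IsBounded F := by
    rw [isBounded_iff_forall_norm_le]
    refine ⟨1 + 1 / ρ, fun p hp => ?_⟩
    have hnn : 0 ≤ 1 + 1 / ρ := by positivity
    have hentry : ∀ j k, |p.1 j k| ≤ 1 / ρ := by
      intro j k
      have h0 := hp _ hb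
      have h1 := hp _ (hbk k)
      have hsub : ((Matrix.of p.1).mulVec (bary n + ρ • (Pi.single k 1 : Fin n → ℝ)) + p.2) j -
          ((Matrix.of p.1).mulVec (bary n) + p.2) j = ρ * p.1 j k := by
        rw [Matrix.mulVec_add, Matrix.mulVec_smul, Matrix.mulVec_single_one]
        simp [Matrix.col_apply, Matrix.of_apply]
      have h2 := h0.1 j
      have h3 := coord_le_one h0 j
      have h4 := h1.1 j
      have h5 := coord_le_one h1 j
      have h6 : |ρ * p.1 j k| ≤ 1 := abs_le.mpr ⟨by linarith, by linarith⟩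
      rw [abs_mul, abs_of_pos hρ0] at h6
      rw [le_div_iff₀ hρ0]
      linarith
    have hc : ∀ j, |p.2 j| ≤ 1 + 1 / ρ := by
      intro j
      have h0 := hp _ hb
      have h2 := h0.1 j
      have h3 := coord_le_one h0 j
      have hval : ((Matrix.of p.1).mulVec (bary n) + p.2) j = ∑ k, p.1 j k * (1 / N) + p.2 j := by
        simp [Matrix.mulVec, dotProduct, bary, hN]
      rw [hval] at h2 h3
      have hsumabs : |∑ k, p.1 j k * (1 / N)| ≤ 1 / ρ := by
        refine (Finset.abs_sum_le_sum_abs _ _).trans ?_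
        calc ∑ k, |p.1 j k * (1 / N)| ≤ ∑ _k : Fin n, (1 / ρ) * (1 / N) := by
              refine Finset.sum_le_sum fun k _ => ?_
              rw [abs_mul, abs_of_pos (by positivity : 0 < 1 / N)]
              exact mul_le_mul_of_nonneg_right (hentry j k) (by positivity)
          _ = (1 / ρ) * ((n : ℝ) / N) := by
              simp only [Finset.sum_const, Finset.card_univ, Fintype.card_fin, nsmul_eq_mul]
              ring
          _ ≤ 1 / ρ := by
              have h6 : (n : ℝ) / N ≤ 1 := by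
                rw [div_le_one hN0, hN]; linarith
              have h7 : 0 ≤ 1 / ρ := by positivity
              nlinarith
      have := abs_le.mp hsumabs
      rw [abs_le]
      constructor <;> linarith [this.1, this.2]
    rw [Prod.norm_def]
    refine max_le ?_ ?_
    · refine (pi_norm_le_iff_of_nonneg hnn).mpr fun j => (pi_norm_le_iff_of_nonneg hnn).mpr fun k => ?_
      rw [Real.norm_eq_abs]
      have := hentry j k
      linarith
    · refine (pi_norm_le_iff_of_nonneg hnn).mpr fun j => ?_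
      rw [Real.norm_eq_abs]
      exact hc j
  have hFcomp : IsCompact F := Metric.isCompact_of_isClosed_isBounded hFc hFb
  have h1F : ((1 : Matrix (Fin n) (Fin n) ℝ), (0 : Fin n → ℝ)) ∈ F := by
    intro x hx
    change (1 : Matrix (Fin n) (Fin n) ℝ).mulVec x + 0 ∈ T n
    simpa using hKT hx
  have hdetc : Continuous fun p : P => |(Matrix.of p.1).det| := by
    refine continuous_abs.comp (Continuous.matrix_det ?_)
    exact continuous_matrix fun j k => by
      have : Continuous fun p : (Fin n → Fin n → ℝ) × (Fin n → ℝ) => p.1 j k := by fun_prop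
      exact this
  obtain ⟨p, hp, hpm⟩ := hFcomp.exists_isMaxOn ⟨_, h1F⟩ hdetc.continuousOn
  refine ⟨Matrix.of p.1, p.2, hp, ?_, ?_⟩
  · intro M' c' hM'
    exact isMaxOn_iff.mp hpm (M', c') hM'
  · have h := isMaxOn_iff.mp hpm _ h1F
    have e : (Matrix.of (1 : Matrix (Fin n) (Fin n) ℝ)).det = 1 := Matrix.det_one
    have h' : (1 : ℝ) ≤ |(Matrix.of p.1).det| := by
      have h2 : |(Matrix.of (1 : Matrix (Fin n) (Fin n) ℝ)).det| ≤ |(Matrix.of p.1).det| := h
      rwa [e, abs_one] at h2
    exact h'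

end Normal

/-- **Normal position.** A closed convex set squeezed between a shrunken copy of the simplex and the
simplex has an affine image in normal position. -/
theorem normal_form (n : ℕ) (hn : 0 < n) (ε : ℝ) (h0 : 0 < ε) (h1 : ε < 1) :
    ∃ δ : ℝ, 0 < δ ∧ δ < 1 ∧ ∀ K : Set (Fin n → ℝ), IsClosed K → Convex ℝ K → K ⊆ T n →
      (∀ t ∈ T n, bary n + (1 - δ) • (t - bary n) ∈ K) →
      ∃ (M : Matrix (Fin n) (Fin n) ℝ) (c : Fin n → ℝ), M.det ≠ 0 ∧
        NearSimplex ε ((fun x => M.mulVec x + c) '' K) := by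
  have hn' : (0 : ℝ) < n := by exact_mod_cast hn
  set θ : ℝ := ε / ((n : ℝ) + 1) with hθ
  have hθ0 : 0 < θ := by positivity
  have hθ1 : θ < 1 := by
    rw [hθ, div_lt_one (by positivity)]
    linarith
  set δ : ℝ := θ ^ (n + 1) / n with hδ
  have hδ0 : 0 < δ := by positivity
  have hn1 : (1 : ℝ) ≤ n := by exact_mod_cast hn
  have hδ1 : δ < 1 := by
    rw [hδ, div_lt_one hn']
    have : θ ^ (n + 1) < 1 := pow_lt_one₀ hθ0.le hθ1 (Nat.succ_ne_zero n)
    linarith
  refine ⟨δ, hδ0, hδ1, fun K hcl hconv hKT hin => ?_⟩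
  obtain ⟨M, c, hMT, hmax, hdet⟩ := Normal.exists_maximizer hKT hδ1 hin
  have hdet0 : M.det ≠ 0 := by
    intro h
    rw [h] at hdet
    norm_num at hdet
  refine ⟨M, c, hdet0, ?_⟩
  have hKc : IsCompact K := (Normal.isCompact_T n).of_isClosed_subset hcl hKT
  set A : (Fin n → ℝ) → Fin n → ℝ := fun x => M.mulVec x + c with hA
  have hAc : Continuous A :=
    (Continuous.matrix_mulVec continuous_const continuous_id).add continuous_const
  have hK'c : IsCompact (A '' K) := hKc.image hAc
  have hK'conv : Convex ℝ (A '' K) := by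
    rintro _ ⟨x, hx, rfl⟩ _ ⟨y, hy, rfl⟩ a b ha hb hab
    refine ⟨a • x + b • y, hconv hx hy ha hb hab, ?_⟩
    have hone : c = a • c + b • c := by rw [← add_smul, hab, one_smul]
    simp only [hA, Matrix.mulVec_add, Matrix.mulVec_smul, smul_add]
    nth_rewrite 1 [hone]
    abel
  have hK'T : A '' K ⊆ T n := by
    rintro _ ⟨x, hx, rfl⟩
    exact hMT x hx
  have hδθ : (n : ℝ) * δ ≤ θ ^ (n + 1) := by
    rw [hδ]
    field_simp
    exact le_refl _
  have hclose : ∀ i, ∃ w ∈ A '' K, 1 - θ ≤ bc w i := by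
    intro i
    obtain ⟨q, hq, hqb⟩ := Normal.exists_close M c hMT hdet hδ0 hδ1 hθ0 hδθ hin i
    exact ⟨A q, ⟨q, hq, rfl⟩, hqb⟩
  have hinner : ∀ t ∈ T n, bary n + (1 - ε) • (t - bary n) ∈ A '' K :=
    Normal.inner_mem hK'c.isClosed hK'conv hK'T h1 le_rfl hclose
  have hb : bary n ∈ A '' K := by
    have := hinner _ (Normal.bary_mem_T n)
    simpa using this
  have hMax : Normal.MaxDet (A '' K) := by
    intro M' c' hM'
    have h2 := hmax (M' * M) (M'.mulVec c + c') (by
      intro x hx
      have := hM' (A x) ⟨x, hx, rfl⟩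
      simp only [hA, Matrix.mulVec_add, Matrix.mulVec_mulVec] at this
      rwa [add_assoc] at this)
    rw [Matrix.det_mul, abs_mul] at h2
    have hpos : 0 < |M.det| := by linarith
    by_contra hcon
    have : |M.det| < |M'.det| * |M.det| := by
      have h3 := not_le.mp hcon
      nlinarith
    linarith
  exact ⟨hK'c.isClosed, hK'conv, hK'T, Normal.facet_mem hn hK'c hK'conv hK'T hb hMax, hinner⟩

end Vale.Agent.Lib.P254
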