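import Vale.Agent.Lib.P254.Defs

/-!
# P254: one-dimensional lemmas on convex functions against the exponential weight
-/

open MeasureTheory Set
open scoped Nat

namespace Vale.Agent.Lib.P254

/-- Exponential weight on the half line. -/
noncomputable def ew (t : ℝ) : ℝ := if 0 ≤ t then Real.exp (-t) else 0

/-- Uniform density on `[1 - r, 1 + r]`. -/
noncomputable def pw (r t : ℝ) : ℝ := if 1 - r ≤ t ∧ t ≤ 1 + r then 1 / (2 * r) else 0

/-- The Laguerre polynomial of degree two. -/
noncomputable def L2 (t : ℝ) : ℝ := t ^ (2 : ℕ) - 4 * t + 2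

lemma ew_nonneg (t : ℝ) : 0 ≤ ew t := by
  unfold ew; split_ifs
  · positivity
  · exact le_rfl

lemma ew_of_neg {t : ℝ} (h : t < 0) : ew t = 0 := by
  unfold ew; rw [if_neg (not_le.2 h)]

lemma ew_of_nonneg {t : ℝ} (h : 0 ≤ t) : ew t = Real.exp (-t) := by
  unfold ew; rw [if_pos h]

lemma measurable_ew : Measurable ew :=
  Measurable.ite measurableSet_Ici (by fun_prop) measurable_const

lemma measurable_pw (r : ℝ) : Measurable (pw r) := by
  unfold pw
  exact Measurable.ite (measurableSet_Icc (a := 1 - r) (b := 1 + r)) measurable_const measurable_const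

lemma measurable_L2 : Measurable L2 := by
  unfold L2; fun_prop

lemma moment_ae (k : ℕ) : (fun t : ℝ => t ^ k * ew t) =ᵐ[volume]
    (Ioi (0 : ℝ)).indicator (fun t => Real.exp (-t) * t ^ (((k : ℝ) + 1) - 1)) := by
  have h0 : ∀ᵐ t : ℝ ∂volume, t ≠ 0 := by
    have : ({0}ᶜ : Set ℝ) ∈ ae (volume : Measure ℝ) :=
      compl_mem_ae_iff.mpr (measure_singleton (0 : ℝ))
    filter_upwards [this] with t ht using ht
  filter_upwards [h0] with t ht
  rcases lt_or_gt_of_ne ht with h | h
  · rw [ew_of_neg h, indicator_of_notMem (by simp [h.le])]; simp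
  · rw [ew_of_nonneg h.le, indicator_of_mem (by simpa using h)]
    have : ((k : ℝ) + 1) - 1 = (k : ℝ) := by ring
    rw [this, Real.rpow_natCast]; ring

lemma integrable_moment (k : ℕ) : Integrable (fun t : ℝ => t ^ k * ew t) := by
  have h : Integrable ((Ioi (0 : ℝ)).indicator
      (fun t => Real.exp (-t) * t ^ (((k : ℝ) + 1) - 1))) := by
    rw [integrable_indicator_iff measurableSet_Ioi]
    exact Real.GammaIntegral_convergent (by positivity)
  exact h.congr (moment_ae k).symm

lemma integral_moment (k : ℕ) : ∫ t : ℝ, t ^ k * ew t = (k ! : ℝ) := by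
  rw [integral_congr_ae (moment_ae k), integral_indicator measurableSet_Ioi,
    ← Real.Gamma_eq_integral (by positivity), Real.Gamma_nat_eq_factorial]

lemma integral_ew : ∫ t : ℝ, ew t = 1 := by
  have := integral_moment 0
  simpa using this

lemma integrable_ew : Integrable ew := by
  have := integrable_moment 0
  simpa using this

/-- Convex functions of linear growth on the half line. -/
structure Cvx1 (f : ℝ → ℝ) (c : ℝ) : Prop where
  meas : Measurable f
  conv : ConvexOn ℝ (Ici 0) f
  nonneg : ∀ t, 0 ≤ t → 0 ≤ f t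
  growth : ∀ t, 0 ≤ t → f t ≤ c * (1 + t)

variable {f : ℝ → ℝ} {c : ℝ}

lemma Cvx1.c_nonneg (hf : Cvx1 f c) : 0 ≤ c := by
  have h0 := hf.nonneg 0 le_rfl
  have h1 := hf.growth 0 le_rfl
  simp at h1; linarith

lemma Cvx1.integrable_pow (hf : Cvx1 f c) (k : ℕ) :
    Integrable (fun t => f t * t ^ k * ew t) := by
  have hc := hf.c_nonneg
  refine Integrable.mono' (g := fun t => c * (t ^ k * ew t) + c * (t ^ (k + 1) * ew t))
    (((integrable_moment k).const_mul c).add ((integrable_moment (k + 1)).const_mul c))
    ((hf.meas.mul (by fun_prop)).mul measurable_ew).aestronglyMeasurable ?_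
  filter_upwards with t
  rcases lt_or_ge t 0 with h | h
  · simp [ew_of_neg h]
  · have h1 := hf.nonneg t h
    have h2 := hf.growth t h
    have h3 := ew_nonneg t
    have h4 : 0 ≤ t ^ k := by positivity
    rw [Real.norm_of_nonneg (by positivity)]
    have : f t * t ^ k * ew t ≤ (c * (1 + t)) * t ^ k * ew t := by
      gcongr
    calc f t * t ^ k * ew t ≤ (c * (1 + t)) * t ^ k * ew t := this
      _ = c * (t ^ k * ew t) + c * (t ^ (k + 1) * ew t) := by ring

lemma Cvx1.integrable_zero (hf : Cvx1 f c) : Integrable (fun t => f t * ew t) := by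
  have := hf.integrable_pow 0
  simpa using this

lemma Cvx1.integrable_L2 (hf : Cvx1 f c) : Integrable (fun t => f t * L2 t * ew t) := by
  have h0 := hf.integrable_pow 0
  have h1 := hf.integrable_pow 1
  have h2 := hf.integrable_pow 2
  have := (h2.sub (h1.const_mul 4)).add (h0.const_mul 2)
  refine this.congr (Filter.Eventually.of_forall fun t => ?_)
  simp only [L2, Pi.add_apply, Pi.sub_apply]
  ring

/-- Chord inequalities. -/
lemma chord_in (hf : ConvexOn ℝ (Ici 0) f) {p q t : ℝ} (hp : 0 ≤ p) (hpq : p < q)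
    (h1 : p ≤ t) (h2 : t ≤ q) : f t ≤ f p + (f q - f p) / (q - p) * (t - p) := by
  have hq : 0 < q - p := sub_pos.2 hpq
  have ha : 0 ≤ (q - t) / (q - p) := div_nonneg (sub_nonneg.2 h2) hq.le
  have hb : 0 ≤ (t - p) / (q - p) := div_nonneg (sub_nonneg.2 h1) hq.le
  have hab : (q - t) / (q - p) + (t - p) / (q - p) = 1 := by field_simp; ring
  have := hf.2 (mem_Ici.2 hp) (mem_Ici.2 (hp.trans hpq.le)) ha hb hab
  have he : ((q - t) / (q - p)) • p + ((t - p) / (q - p)) • q = t := by
    simp only [smul_eq_mul]; field_simp; ring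
  rw [he] at this
  simp only [smul_eq_mul] at this
  have he2 : (q - t) / (q - p) * f p + (t - p) / (q - p) * f q
      = f p + (f q - f p) / (q - p) * (t - p) := by
    field_simp; ring
  linarith

lemma chord_out_right (hf : ConvexOn ℝ (Ici 0) f) {p q t : ℝ} (hp : 0 ≤ p) (hpq : p < q)
    (h2 : q ≤ t) : f p + (f q - f p) / (q - p) * (t - p) ≤ f t := by
  have hq : 0 < q - p := sub_pos.2 hpq
  have ht : 0 < t - p := by linarith
  have := chord_in hf hp (lt_of_lt_of_le hpq h2) hpq.le h2
  -- `f q ≤ f p + (f t - f p) / (t - p) * (q - p)`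
  have h3 : (f q - f p) * (t - p) ≤ (f t - f p) * (q - p) := by
    have h4 : f q - f p ≤ (f t - f p) / (t - p) * (q - p) := by linarith
    have h5 : (f q - f p) * (t - p) ≤ ((f t - f p) / (t - p) * (q - p)) * (t - p) := by
      gcongr
    have h6 : ((f t - f p) / (t - p) * (q - p)) * (t - p) = (f t - f p) * (q - p) := by
      field_simp
    linarith
  have h7 : (f q - f p) / (q - p) * (t - p) ≤ f t - f p := by
    rw [div_mul_eq_mul_div, div_le_iff₀ hq]
    exact h3
  linarith

lemma chord_out_left (hf : ConvexOn ℝ (Ici 0) f) {p q t : ℝ} (ht0 : 0 ≤ t) (hpq : p < q)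
    (h2 : t ≤ p) : f p + (f q - f p) / (q - p) * (t - p) ≤ f t := by
  rcases eq_or_lt_of_le h2 with rfl | h3
  · simp
  have hq : 0 < q - p := sub_pos.2 hpq
  have ht : 0 < q - t := by linarith
  have hp : 0 < p - t := by linarith
  have := chord_in hf ht0 (lt_of_lt_of_le h3 hpq.le) h3.le hpq.le
  -- `f p ≤ f t + (f q - f t) / (q - t) * (p - t)`
  have h4 : (f p - f t) * (q - t) ≤ (f q - f t) * (p - t) := by
    have h5 : f p - f t ≤ (f q - f t) / (q - t) * (p - t) := by linarith
    have h6 : (f p - f t) * (q - t) ≤ ((f q - f t) / (q - t) * (p - t)) * (q - t) := by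
      gcongr
    have h7 : ((f q - f t) / (q - t) * (p - t)) * (q - t) = (f q - f t) * (p - t) := by
      field_simp
    linarith
  have h8 : (f q - f p) / (q - p) * (p - t) ≥ f p - f t := by
    rw [div_mul_eq_mul_div, ge_iff_le, le_div_iff₀ hq]
    nlinarith
  have h9 : (f q - f p) / (q - p) * (t - p) = -((f q - f p) / (q - p) * (p - t)) := by ring
  rw [h9]; linarith

lemma integrable_cubic (A B C D : ℝ) : Integrable (fun t =>
    A * (t ^ 3 * ew t) + B * (t ^ 2 * ew t) + C * (t ^ 1 * ew t) + D * (t ^ 0 * ew t)) :=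
  (((integrable_moment 3).const_mul A).add ((integrable_moment 2).const_mul B)).add
    ((integrable_moment 1).const_mul C) |>.add ((integrable_moment 0).const_mul D)

lemma integral_cubic (A B C D : ℝ) : ∫ t,
    (A * (t ^ 3 * ew t) + B * (t ^ 2 * ew t) + C * (t ^ 1 * ew t) + D * (t ^ 0 * ew t))
      = 6 * A + 2 * B + C + D := by
  have h0 : Integrable (fun t : ℝ => D * (t ^ 0 * ew t)) := (integrable_moment 0).const_mul D
  have h1 : Integrable (fun t : ℝ => C * (t ^ 1 * ew t)) := (integrable_moment 1).const_mul C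
  have h2 : Integrable (fun t : ℝ => B * (t ^ 2 * ew t)) := (integrable_moment 2).const_mul B
  have h3 : Integrable (fun t : ℝ => A * (t ^ 3 * ew t)) := (integrable_moment 3).const_mul A
  have h4 : Integrable (fun t : ℝ => A * (t ^ 3 * ew t) + B * (t ^ 2 * ew t)) := h3.add h2
  have h5 : Integrable (fun t : ℝ => A * (t ^ 3 * ew t) + B * (t ^ 2 * ew t)
      + C * (t ^ 1 * ew t)) := h4.add h1
  rw [integral_add h5 h0, integral_add h4 h1, integral_add h3 h2]
  simp only [integral_const_mul, integral_moment]
  simp [Nat.factorial]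
  ring

/-- Moments of an affine function against `L2`. -/
lemma integral_affine_L2 (a b : ℝ) : ∫ t, (a + b * t) * L2 t * ew t = 0 := by
  have e : (fun t => (a + b * t) * L2 t * ew t) = fun t =>
      b * (t ^ 3 * ew t) + (a - 4 * b) * (t ^ 2 * ew t) + (2 * b - 4 * a) * (t ^ 1 * ew t)
        + (2 * a) * (t ^ 0 * ew t) := by
    funext t; simp only [L2]; ring
  rw [e, integral_cubic]
  ring

/-- Positivity of the `L2` moment of a convex function. -/
theorem Cvx1.theta_nonneg (hf : Cvx1 f c) : 0 ≤ ∫ t, f t * L2 t * ew t := by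
  have hs : (0 : ℝ) < Real.sqrt 2 := by positivity
  have hs2 : Real.sqrt 2 ^ (2 : ℕ) = 2 := Real.sq_sqrt (by norm_num)
  have hs3 : Real.sqrt 2 < 2 := by nlinarith
  set p : ℝ := 2 - Real.sqrt 2 with hp
  set q : ℝ := 2 + Real.sqrt 2 with hq
  have hp0 : 0 ≤ p := by rw [hp]; linarith
  have hpq : p < q := by rw [hp, hq]; linarith
  set σ : ℝ := (f q - f p) / (q - p) with hσ
  have hL : ∀ t, L2 t = (t - p) * (t - q) := by
    intro t; simp only [L2, hp, hq]; nlinarith
  have h1 : (fun t => (f p - σ * p + σ * t) * L2 t * ew t) ≤ᵐ[volume]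
      fun t => f t * L2 t * ew t := by
    filter_upwards with t
    rcases lt_or_ge t 0 with h | h
    · simp [ew_of_neg h]
    · apply mul_le_mul_of_nonneg_right _ (ew_nonneg t)
      rw [hL]
      rcases le_total t p with h1 | h1
      · have := chord_out_left hf.conv h hpq h1
        have h3 : f p - σ * p + σ * t ≤ f t := by rw [hσ]; linarith
        have h4 : 0 ≤ (t - p) * (t - q) := mul_nonneg_of_nonpos_of_nonpos (by linarith) (by linarith)
        exact mul_le_mul_of_nonneg_right h3 h4
      · rcases le_total t q with h2 | h2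
        · have := chord_in hf.conv hp0 hpq h1 h2
          have h3 : f t ≤ f p - σ * p + σ * t := by rw [hσ]; linarith
          have h4 : (t - p) * (t - q) ≤ 0 := mul_nonpos_of_nonneg_of_nonpos (by linarith) (by linarith)
          exact mul_le_mul_of_nonpos_right h3 h4
        · have := chord_out_right hf.conv hp0 hpq h2
          have h3 : f p - σ * p + σ * t ≤ f t := by rw [hσ]; linarith
          have h4 : 0 ≤ (t - p) * (t - q) := mul_nonneg (by linarith) (by linarith)
          exact mul_le_mul_of_nonneg_right h3 h4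
  have hi : Integrable (fun t => (f p - σ * p + σ * t) * L2 t * ew t) := by
    refine (integrable_cubic σ (f p - σ * p - 4 * σ) (2 * σ - 4 * (f p - σ * p))
      (2 * (f p - σ * p))).congr (Filter.Eventually.of_forall fun t => ?_)
    simp only [L2]
    ring
  have := integral_mono_ae hi hf.integrable_L2 h1
  rwa [integral_affine_L2] at this

/-- The main one-dimensional estimate. -/
theorem Cvx1.main (hf : Cvx1 f c) :
    ∫ t, f t * ew t ≤ f 1 + 4 * ∫ t, f t * L2 t * ew t := by
  set ρm : ℝ := (f 1 - f (1 / 2)) / (1 / 2) with hρm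
  set ρp : ℝ := (f (7 / 2) - f 1) / (5 / 2) with hρp
  have hρ : ρm ≤ ρp := by
    have := hf.conv.slope_mono_adjacent (x := 1 / 2) (y := 1) (z := 7 / 2) (by norm_num) (by norm_num)
      (by norm_num) (by norm_num)
    have e1 : (1 : ℝ) - 1 / 2 = 1 / 2 := by norm_num
    have e2 : (7 / 2 : ℝ) - 1 = 5 / 2 := by norm_num
    rw [e1, e2] at this
    rw [hρm, hρp]
    exact this
  -- the comparison function
  set ψ : ℝ → ℝ := fun t => f 1 + ρm * (t - 1) + (ρp - ρm) * max (t - 1) 0 with hψ
  set M : ℝ → ℝ := fun t => 4 * L2 t - 1 with hM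
  have hMf : ∀ t, M t = (2 * t - 1) * (2 * t - 7) := by
    intro t; simp only [hM, L2]; ring
  -- integrability
  have hint : Integrable (fun t => f t * M t * ew t) := by
    have := (hf.integrable_L2.const_mul 4).sub hf.integrable_zero
    refine this.congr (Filter.Eventually.of_forall fun t => ?_)
    simp only [hM, Pi.sub_apply]
    ring
  have hmax : Integrable (fun t => max (t - 1) 0 * M t * ew t) := by
    refine Integrable.mono' (g := fun t => 4 * (t ^ 3 * ew t) + 20 * (t ^ 2 * ew t)
      + 23 * (t ^ 1 * ew t) + 7 * (t ^ 0 * ew t))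
      (integrable_cubic 4 20 23 7)
      (by
        apply Measurable.aestronglyMeasurable
        have : Measurable M := by
          simp only [hM]
          exact (measurable_L2.const_mul 4).sub_const 1
        exact ((by fun_prop : Measurable fun t : ℝ => max (t - 1) 0).mul this).mul measurable_ew) ?_
    filter_upwards with t
    rcases lt_or_ge t 0 with h | h
    · simp [ew_of_neg h]
    · have he := ew_nonneg t
      rw [norm_mul, norm_mul, Real.norm_of_nonneg he, Real.norm_of_nonneg (le_max_right _ _)]
      have h1 : max (t - 1) 0 ≤ t := max_le (by linarith) h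
      have h2 : 0 ≤ max (t - 1) 0 := le_max_right _ _
      have h3 : ‖M t‖ ≤ 4 * t ^ 2 + 16 * t + 7 := by
        rw [Real.norm_eq_abs, abs_le]
        simp only [hM, L2]
        constructor <;> nlinarith
      have h4 : max (t - 1) 0 * ‖M t‖ ≤ t * (4 * t ^ 2 + 16 * t + 7) := by
        gcongr
      calc max (t - 1) 0 * ‖M t‖ * ew t ≤ t * (4 * t ^ 2 + 16 * t + 7) * ew t := by gcongr
        _ ≤ t * (4 * t ^ 2 + 16 * t + 7) * ew t + 4 * t ^ 2 * ew t + 23 * t * ew t * 0 + 7 * ew t
              + 7 * t * ew t := by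
            have : 0 ≤ t ^ 2 * ew t := by positivity
            have : 0 ≤ t * ew t := by positivity
            nlinarith
        _ ≤ 4 * (t ^ 3 * ew t) + 20 * (t ^ 2 * ew t) + 23 * (t ^ 1 * ew t) + 7 * (t ^ 0 * ew t) := by
            have : 0 ≤ t * ew t := by positivity
            simp only [pow_one, pow_zero, one_mul]
            nlinarith
  -- value of the truncated moment
  have hA : 0 ≤ ∫ t, max (t - 1) 0 * M t * ew t := by
    have h1 : ∫ t, max (t - 1) 0 * M t * ew t = ∫ s, max ((s + 1) - 1) 0 * M (s + 1) * ew (s + 1) :=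
      (integral_add_right_eq_self (fun t => max (t - 1) 0 * M t * ew t) (1 : ℝ)).symm
    have h2 : ∀ s : ℝ, max ((s + 1) - 1) 0 * M (s + 1) * ew (s + 1)
        = Real.exp (-1) * (4 * (s ^ 3 * ew s) - 8 * (s ^ 2 * ew s) - 5 * (s ^ 1 * ew s)) := by
      intro s
      rcases lt_or_ge s 0 with h | h
      · have : max (s + 1 - 1) 0 = 0 := by
          apply max_eq_right; linarith
        rw [this, ew_of_neg h]; simp
      · have : max (s + 1 - 1) 0 = s := by
          rw [max_eq_left] <;> linarith
        rw [this, ew_of_nonneg h, ew_of_nonneg (by linarith : 0 ≤ s + 1)]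
        have e : Real.exp (-(s + 1)) = Real.exp (-1) * Real.exp (-s) := by
          rw [← Real.exp_add]; congr 1; ring
        rw [e, hMf]; ring
    rw [h1]
    simp only [h2]
    rw [integral_const_mul]
    have h3 : ∫ s : ℝ, (4 * (s ^ 3 * ew s) - 8 * (s ^ 2 * ew s) - 5 * (s ^ 1 * ew s))
        = ∫ s : ℝ, (4 * (s ^ 3 * ew s) + (-8) * (s ^ 2 * ew s) + (-5) * (s ^ 1 * ew s)
          + 0 * (s ^ 0 * ew s)) := by
      congr 1; funext s; ring
    rw [h3, integral_cubic]
    apply mul_nonneg (Real.exp_pos _).le
    norm_num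
  -- the pointwise comparison
  have hcomp : (fun t => ψ t * M t * ew t) ≤ᵐ[volume] fun t => f t * M t * ew t := by
    filter_upwards with t
    rcases lt_or_ge t 0 with h | h
    · simp [ew_of_neg h]
    · apply mul_le_mul_of_nonneg_right _ (ew_nonneg t)
      rw [hMf]
      rcases le_total t (1 / 2) with h1 | h1
      · have h2 := chord_out_left (p := 1 / 2) (q := 1) hf.conv h (by norm_num) h1
        have h3 : ψ t = f 1 + ρm * (t - 1) := by
          simp only [hψ]; rw [max_eq_right (by linarith)]; ring
        have h4 : f 1 + ρm * (t - 1) ≤ f t := by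
          have : f (1 / 2) + (f 1 - f (1 / 2)) / (1 - 1 / 2) * (t - 1 / 2)
              = f 1 + ρm * (t - 1) := by rw [hρm]; norm_num; ring
          linarith
        rw [h3]
        exact mul_le_mul_of_nonneg_right h4
          (mul_nonneg_of_nonpos_of_nonpos (by linarith) (by linarith))
      · rcases le_total t 1 with h5 | h5
        · have h2 := chord_in (p := 1 / 2) (q := 1) hf.conv (by norm_num) (by norm_num) h1 h5
          have h3 : ψ t = f 1 + ρm * (t - 1) := by
            simp only [hψ]; rw [max_eq_right (by linarith)]; ring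
          have h4 : f t ≤ f 1 + ρm * (t - 1) := by
            have : f (1 / 2) + (f 1 - f (1 / 2)) / (1 - 1 / 2) * (t - 1 / 2)
                = f 1 + ρm * (t - 1) := by rw [hρm]; norm_num; ring
            linarith
          rw [h3]
          exact mul_le_mul_of_nonpos_right h4
            (mul_nonpos_of_nonneg_of_nonpos (by linarith) (by linarith))
        · have h3 : ψ t = f 1 + ρp * (t - 1) := by
            simp only [hψ]; rw [max_eq_left (by linarith)]; ring
          rcases le_total t (7 / 2) with h6 | h6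
          · have h2 := chord_in (p := 1) (q := 7 / 2) hf.conv (by norm_num) (by norm_num) h5 h6
            have h4 : f t ≤ f 1 + ρp * (t - 1) := by
              have : f 1 + (f (7 / 2) - f 1) / (7 / 2 - 1) * (t - 1)
                  = f 1 + ρp * (t - 1) := by rw [hρp]; norm_num
              linarith
            rw [h3]
            exact mul_le_mul_of_nonpos_right h4
              (mul_nonpos_of_nonneg_of_nonpos (by linarith) (by linarith))
          · have h2 := chord_out_right (p := 1) (q := 7 / 2) hf.conv (by norm_num) (by norm_num) h6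
            have h4 : f 1 + ρp * (t - 1) ≤ f t := by
              have : f 1 + (f (7 / 2) - f 1) / (7 / 2 - 1) * (t - 1)
                  = f 1 + ρp * (t - 1) := by rw [hρp]; norm_num
              linarith
            rw [h3]
            exact mul_le_mul_of_nonneg_right h4 (mul_nonneg (by linarith) (by linarith))
  -- affine part
  have haff : Integrable (fun t => (f 1 + ρm * (t - 1)) * M t * ew t) := by
    refine (integrable_cubic (4 * ρm) (4 * (f 1 - ρm) - 16 * ρm) (7 * ρm - 16 * (f 1 - ρm))
      (7 * (f 1 - ρm))).congr (Filter.Eventually.of_forall fun t => ?_)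
    simp only [hMf]
    ring
  have hψi : Integrable (fun t => ψ t * M t * ew t) := by
    have := haff.add (hmax.const_mul (ρp - ρm))
    refine this.congr (Filter.Eventually.of_forall fun t => ?_)
    simp only [hψ, Pi.add_apply]
    ring
  have hψv : ∫ t, ψ t * M t * ew t = - f 1 + (ρp - ρm) * ∫ t, max (t - 1) 0 * M t * ew t := by
    have e1 : (fun t => ψ t * M t * ew t) = fun t => ((f 1 + ρm * (t - 1)) * M t * ew t)
        + (ρp - ρm) * (max (t - 1) 0 * M t * ew t) := by
      funext t; simp only [hψ]; ring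
    rw [e1, integral_add haff (hmax.const_mul _), integral_const_mul]
    congr 1
    have e2 : (fun t => (f 1 + ρm * (t - 1)) * M t * ew t) = fun t =>
        (4 * ρm) * (t ^ 3 * ew t) + (4 * (f 1 - ρm) - 16 * ρm) * (t ^ 2 * ew t)
        + (7 * ρm - 16 * (f 1 - ρm)) * (t ^ 1 * ew t) + (7 * (f 1 - ρm)) * (t ^ 0 * ew t) := by
      funext t; simp only [hMf]; ring
    rw [e2, integral_cubic]
    ring
  have hcmp := integral_mono_ae hψi hint hcomp
  have e3 : (fun t => f t * M t * ew t) = fun t => 4 * (f t * L2 t * ew t) - f t * ew t := by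
    funext t; simp only [hM]; ring
  rw [hψv, e3, integral_sub (hf.integrable_L2.const_mul 4) hf.integrable_zero,
    integral_const_mul] at hcmp
  have hpos : 0 ≤ (ρp - ρm) * ∫ t, max (t - 1) 0 * M t * ew t :=
    mul_nonneg (sub_nonneg.2 hρ) hA
  linarith

/-- The density `pw r` is dominated by a multiple of `ew`. -/
lemma pw_le (r : ℝ) (h0 : 0 < r) (h1 : r ≤ 1 / 2) (t : ℝ) :
    pw r t ≤ (1 / (2 * r)) * Real.exp 2 * ew t := by
  unfold pw
  split_ifs with h
  · have ht : 0 ≤ t := by linarith [h.1]
    rw [ew_of_nonneg ht, mul_assoc, ← Real.exp_add]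
    have : 0 ≤ 2 + -t := by linarith [h.2]
    have h3 : 1 ≤ Real.exp (2 + -t) := Real.one_le_exp this
    have h4 : 0 ≤ 1 / (2 * r) := by positivity
    nlinarith
  · have := ew_nonneg t
    positivity

lemma pw_nonneg (r : ℝ) (h0 : 0 < r) (t : ℝ) : 0 ≤ pw r t := by
  unfold pw; split_ifs
  · positivity
  · exact le_rfl

lemma pw_symm (r t : ℝ) : pw r (2 - t) = pw r t := by
  unfold pw
  have : (1 - r ≤ 2 - t ∧ 2 - t ≤ 1 + r) ↔ (1 - r ≤ t ∧ t ≤ 1 + r) := by
    constructor <;> (rintro ⟨h1, h2⟩; constructor <;> linarith)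
  simp only [this]

lemma integrable_pw (r : ℝ) (h0 : 0 < r) (h1 : r ≤ 1 / 2) : Integrable (pw r) := by
  refine Integrable.mono' (g := fun t => (1 / (2 * r)) * Real.exp 2 * ew t)
    (integrable_ew.const_mul _) (measurable_pw r).aestronglyMeasurable ?_
  filter_upwards with t
  rw [Real.norm_of_nonneg (pw_nonneg r h0 t)]
  exact pw_le r h0 h1 t

lemma integral_pw (r : ℝ) (h0 : 0 < r) : ∫ t, pw r t = 1 := by
  have : pw r = (Icc (1 - r) (1 + r)).indicator (fun _ => 1 / (2 * r)) := by
    funext t
    unfold pw
    by_cases h : 1 - r ≤ t ∧ t ≤ 1 + r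
    · rw [if_pos h, indicator_of_mem (mem_Icc.2 h)]
    · rw [if_neg h, indicator_of_notMem (fun h' => h (mem_Icc.1 h'))]
  rw [this, integral_indicator measurableSet_Icc]
  simp only [integral_const, MeasurableSet.univ, measureReal_restrict_apply, univ_inter,
    Real.volume_real_Icc, smul_eq_mul]
  rw [max_eq_left (by linarith)]
  field_simp
  ring

/-- Smearing: the value at `1` is at most the uniform average around `1`. -/
theorem Cvx1.smear (hf : Cvx1 f c) (r : ℝ) (h0 : 0 < r) (h1 : r ≤ 1 / 2) :
    f 1 ≤ ∫ t, f t * pw r t := by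
  have hint : Integrable (fun t => f t * pw r t) := by
    refine Integrable.mono' (g := fun t => (1 / (2 * r)) * Real.exp 2 * (f t * ew t))
      (hf.integrable_zero.const_mul _) (hf.meas.mul (measurable_pw r)).aestronglyMeasurable ?_
    filter_upwards with t
    rcases lt_or_ge t 0 with h | h
    · have : pw r t = 0 := by
        unfold pw; rw [if_neg]; rintro ⟨h3, -⟩; linarith
      simp [this, ew_of_neg h]
    · have h3 := hf.nonneg t h
      have h4 := pw_nonneg r h0 t
      rw [Real.norm_of_nonneg (by positivity)]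
      have := pw_le r h0 h1 t
      calc f t * pw r t ≤ f t * ((1 / (2 * r)) * Real.exp 2 * ew t) := by gcongr
        _ = _ := by ring
  have hrefl : ∫ t, f (2 - t) * pw r t = ∫ t, f t * pw r t := by
    have := integral_sub_left_eq_self (fun t => f t * pw r t) (volume : Measure ℝ) (2 : ℝ)
    simp only [pw_symm] at this
    exact this
  have hint2 : Integrable (fun t => f (2 - t) * pw r t) := by
    have := hint.comp_sub_left (2 : ℝ)
    simp only [pw_symm] at this
    exact this
  have hle : (fun t => f 1 * pw r t) ≤ᵐ[volume] fun t => (1 / 2) * (f t * pw r t)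
      + (1 / 2) * (f (2 - t) * pw r t) := by
    filter_upwards with t
    by_cases h : 1 - r ≤ t ∧ t ≤ 1 + r
    · have ht : 0 ≤ t := by linarith [h.1]
      have ht' : 0 ≤ 2 - t := by linarith [h.2]
      have := hf.conv.2 (mem_Ici.2 ht) (mem_Ici.2 ht') (by norm_num : (0 : ℝ) ≤ 1 / 2)
        (by norm_num : (0 : ℝ) ≤ 1 / 2) (by norm_num)
      have e : (1 / 2 : ℝ) • t + (1 / 2 : ℝ) • (2 - t) = 1 := by
        simp only [smul_eq_mul]; ring
      rw [e] at this
      simp only [smul_eq_mul] at this
      have h4 := pw_nonneg r h0 t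
      calc f 1 * pw r t ≤ (1 / 2 * f t + 1 / 2 * f (2 - t)) * pw r t := by gcongr
        _ = _ := by ring
    · have : pw r t = 0 := by unfold pw; rw [if_neg h]
      simp [this]
  have i1 : Integrable (fun t => (1 / 2 : ℝ) * (f t * pw r t)) := hint.const_mul _
  have i2 : Integrable (fun t => (1 / 2 : ℝ) * (f (2 - t) * pw r t)) := hint2.const_mul _
  have i3 : Integrable (fun t => (1 / 2 : ℝ) * (f t * pw r t) + (1 / 2) * (f (2 - t) * pw r t)) :=
    i1.add i2
  have := integral_mono_ae ((integrable_pw r h0 h1).const_mul (f 1)) i3 hle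
  rw [integral_const_mul, integral_pw r h0, integral_add i1 i2,
    integral_const_mul, integral_const_mul, hrefl] at this
  linarith

end Vale.Agent.Lib.P254
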