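import Vale.Agent.Lib.P254.Cone

/-!
# P254: decomposition of the orthant into sectors
-/

open MeasureTheory Set
open scoped ENNReal Nat

namespace Vale.Agent.Lib.P254

variable {n : ℕ}

/-- The sector where coordinate `i` is the smallest one, with the differences in `B`. -/
def sect (i : Fin (n + 1)) (B : Set (Fin n → ℝ)) : Set (Fin (n + 1) → ℝ) :=
  {x | 0 ≤ x i ∧ (fun j => x (i.succAbove j) - x i) ∈ B}

lemma measurableSet_sect (i : Fin (n + 1)) {B : Set (Fin n → ℝ)} (hB : MeasurableSet B) :
    MeasurableSet (sect i B) := by
  have h1 : MeasurableSet {x : Fin (n + 1) → ℝ | 0 ≤ x i} :=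
    measurableSet_le measurable_const (measurable_pi_apply i)
  have h2 : Measurable fun x : Fin (n + 1) → ℝ => fun j : Fin n => x (i.succAbove j) - x i :=
    measurable_pi_iff.2 fun j => (measurable_pi_apply _).sub (measurable_pi_apply _)
  exact h1.inter (h2 hB)

lemma lintegral_sect (i : Fin (n + 1)) {B : Set (Fin n → ℝ)} (hB : MeasurableSet B)
    {F : (Fin (n + 1) → ℝ) → ℝ≥0∞} (hF : Measurable F) :
    ∫⁻ x in sect i B, F x = ∫⁻ y in B, ∫⁻ z in Ici (0 : ℝ), F (xp i z y) := by
  classical
  have hmeasI : Measurable ((sect i B).indicator F) := hF.indicator (measurableSet_sect i hB)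
  set G : ℝ → (Fin n → ℝ) → ℝ≥0∞ := fun z w => if 0 ≤ z ∧ w ∈ B then F (xp i z w) else 0 with hG
  have hGm : Measurable (Function.uncurry G) := by
    have hset : MeasurableSet {p : ℝ × (Fin n → ℝ) | 0 ≤ p.1 ∧ p.2 ∈ B} :=
      (measurableSet_le measurable_const measurable_fst).inter (measurable_snd hB)
    exact Measurable.ite hset (hF.comp (measurable_xp i)) measurable_const
  have hkey : ∀ z w, (sect i B).indicator F (ins i z (w + fun _ => z)) = G z w := by
    intro z w
    have e1 : ins i z (w + fun _ => z) = xp i z w := by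
      funext k
      rcases Fin.eq_self_or_eq_succAbove i k with rfl | ⟨j, rfl⟩
      · simp [xp]
      · simp [xp, add_comm]
    have e2 : (ins i z (w + fun _ => z) ∈ sect i B) ↔ (0 ≤ z ∧ w ∈ B) := by
      simp only [sect, Set.mem_ofPred_eq, ins_same, ins_succAbove, Pi.add_apply,
        add_sub_cancel_right]
    by_cases h : 0 ≤ z ∧ w ∈ B
    · rw [indicator_of_mem (e2.2 h), e1]
      simp only [hG, if_pos h]
    · rw [indicator_of_notMem (fun h' => h (e2.1 h'))]
      simp only [hG, if_neg h]
  rw [← lintegral_indicator (measurableSet_sect i hB)]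
  rw [← (mp_ins (n := n) i).lintegral_comp hmeasI, Measure.volume_eq_prod,
    lintegral_prod (fun a : ℝ × (Fin n → ℝ) => (sect i B).indicator F (insEquiv n i a))
      ((hmeasI.comp (insEquiv n i).measurable).aemeasurable)]
  have h1 : ∀ z : ℝ, ∫⁻ w : Fin n → ℝ, (sect i B).indicator F (insEquiv n i (z, w)) =
      ∫⁻ w, G z w := by
    intro z
    have := lintegral_add_right_eq_self (μ := (volume : Measure (Fin n → ℝ)))
      (fun w => (sect i B).indicator F (ins i z w)) (fun _ => z)
    rw [show (∫⁻ w : Fin n → ℝ, (sect i B).indicator F (insEquiv n i (z, w))) =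
      ∫⁻ w : Fin n → ℝ, (sect i B).indicator F (ins i z w) from rfl, ← this]
    exact lintegral_congr fun w => hkey z w
  simp only [h1]
  rw [lintegral_lintegral_swap (hGm.aemeasurable), ← lintegral_indicator hB]
  refine lintegral_congr fun w => ?_
  by_cases hw : w ∈ B
  · rw [indicator_of_mem hw, ← lintegral_indicator measurableSet_Ici]
    refine lintegral_congr fun z => ?_
    by_cases hz : 0 ≤ z
    · rw [indicator_of_mem (mem_Ici.2 hz)]
      simp only [hG, if_pos (And.intro hz hw)]
    · rw [indicator_of_notMem (fun h => hz (mem_Ici.1 h))]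
      simp only [hG, if_neg (fun h : 0 ≤ z ∧ w ∈ B => hz h.1)]
  · rw [indicator_of_notMem hw]
    simp only [hG]
    rw [lintegral_eq_zero_iff (by
      exact Measurable.ite (measurableSet_Ici.inter (MeasurableSet.const (w ∈ B)))
        (hF.comp ((measurable_xp i).comp (measurable_id.prodMk measurable_const))) measurable_const)]
    filter_upwards with z
    simp [hw]

/-- Strictly positive orthant. -/
def orthS (n : ℕ) : Set (Fin n → ℝ) := {y | ∀ j, 0 < y j}

lemma measurableSet_orthS (n : ℕ) : MeasurableSet (orthS n) := by
  have : orthS n = ⋂ j, {y : Fin n → ℝ | 0 < y j} := by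
    ext y; simp [orthS]
  rw [this]
  exact MeasurableSet.iInter fun j => measurableSet_lt measurable_const (measurable_pi_apply j)

lemma orthS_ae_eq (n : ℕ) : (orthS n : Set (Fin n → ℝ)) =ᵐ[volume] orth n := by
  have e1 : orthS n = Set.pi univ fun _ => Ioi (0 : ℝ) := by
    ext y
    exact ⟨fun h j _ => h j, fun h j => h j (mem_univ j)⟩
  have e2 : orth n = Set.pi univ fun _ => Ici (0 : ℝ) := by
    ext y
    exact ⟨fun h j _ => h j, fun h j => h j (mem_univ j)⟩
  rw [e1, e2, volume_pi]
  exact Measure.pi_Ioi_ae_eq_pi_Ici

/-- Decomposition of the orthant into sectors. -/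
theorem sector_sum {F : (Fin (n + 1) → ℝ) → ℝ≥0∞} (hF : Measurable F) :
    ∫⁻ x in orth (n + 1), F x = ∑ i, ∫⁻ y in orth n, ∫⁻ z in Ici (0 : ℝ), F (xp i z y) := by
  classical
  apply le_antisymm
  · -- covering by the closed sectors
    have h1 : ∀ i, ∫⁻ y in orth n, ∫⁻ z in Ici (0 : ℝ), F (xp i z y) =
        ∫⁻ x, (sect i (orth n)).indicator F x := by
      intro i
      rw [lintegral_indicator (measurableSet_sect i (measurableSet_orth n)),
        lintegral_sect i (measurableSet_orth n) hF]
    simp only [h1]
    rw [← lintegral_finsetSum _ fun i _ =>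
      hF.indicator (measurableSet_sect i (measurableSet_orth n)),
      ← lintegral_indicator (measurableSet_orth _)]
    refine lintegral_mono fun x => ?_
    by_cases hx : x ∈ orth (n + 1)
    · rw [indicator_of_mem hx]
      obtain ⟨i, hi⟩ := Finite.exists_min x
      have hmem : x ∈ sect i (orth n) := ⟨hx i, fun j => sub_nonneg.2 (hi _)⟩
      calc F x = (sect i (orth n)).indicator F x := (indicator_of_mem hmem F).symm
        _ ≤ _ := Finset.single_le_sum (f := fun i => (sect i (orth n)).indicator F x)
          (fun _ _ => zero_le) (Finset.mem_univ i)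
    · rw [indicator_of_notMem hx]
      exact zero_le
  · -- disjointness of the open sectors
    have h1 : ∀ i, ∫⁻ y in orth n, ∫⁻ z in Ici (0 : ℝ), F (xp i z y) =
        ∫⁻ x, (sect i (orthS n)).indicator F x := by
      intro i
      rw [lintegral_indicator (measurableSet_sect i (measurableSet_orthS n)),
        lintegral_sect i (measurableSet_orthS n) hF]
      exact setLIntegral_congr (orthS_ae_eq n).symm
    simp only [h1]
    rw [← lintegral_finsetSum _ fun i _ =>
      hF.indicator (measurableSet_sect i (measurableSet_orthS n)),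
      ← lintegral_indicator (measurableSet_orth _)]
    refine lintegral_mono fun x => ?_
    by_cases hx : ∃ i, x ∈ sect i (orthS n)
    · obtain ⟨i, hi⟩ := hx
      have huniq : ∀ i', i' ≠ i → x ∉ sect i' (orthS n) := by
        intro i' hne hi'
        obtain ⟨j, hj⟩ := Fin.exists_succAbove_eq hne
        obtain ⟨j', hj'⟩ := Fin.exists_succAbove_eq hne.symm
        have h2 := hi.2 j
        have h3 := hi'.2 j'
        simp only at h2 h3
        rw [hj] at h2
        rw [hj'] at h3
        linarith
      have hsum : ∑ i', (sect i' (orthS n)).indicator F x = F x := by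
        rw [Finset.sum_eq_single i]
        · exact indicator_of_mem hi F
        · intro i' _ hne
          exact indicator_of_notMem (huniq i' hne) F
        · intro h; exact absurd (Finset.mem_univ i) h
      have hmem : x ∈ orth (n + 1) := by
        intro k
        rcases Fin.eq_self_or_eq_succAbove i k with rfl | ⟨j, rfl⟩
        · exact hi.1
        · have h2 := hi.2 j
          simp only at h2
          linarith [hi.1]
      rw [hsum, indicator_of_mem hmem]
    · push Not at hx
      have : ∑ i', (sect i' (orthS n)).indicator F x = 0 :=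
        Finset.sum_eq_zero fun i _ => indicator_of_notMem (hx i) F
      rw [this]
      exact zero_le

end Vale.Agent.Lib.P254
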