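import Vale.Agent.Lib.P254.OneD

/-!
# P254: the key inequality for convex functions against the exponential product weight
-/

open MeasureTheory Set
open scoped Nat

namespace Vale.Agent.Lib.P254

variable {n : ℕ}

/-- Inserting a coordinate. -/
noncomputable def ins (i : Fin (n + 1)) (t : ℝ) (z : Fin n → ℝ) : Fin (n + 1) → ℝ :=
  Fin.insertNth (α := fun _ => ℝ) i t z

@[simp] lemma ins_same (i : Fin (n + 1)) (t : ℝ) (z : Fin n → ℝ) : ins i t z i = t :=
  Fin.insertNth_apply_same _ _ _

@[simp] lemma ins_succAbove (i : Fin (n + 1)) (t : ℝ) (z : Fin n → ℝ) (j : Fin n) :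
    ins i t z (i.succAbove j) = z j :=
  Fin.insertNth_apply_succAbove _ _ _ _

lemma sum_ins (i : Fin (n + 1)) (t : ℝ) (z : Fin n → ℝ) :
    ∑ k, ins i t z k = t + ∑ j, z j := by
  rw [Fin.sum_univ_succAbove _ i]; simp

lemma prod_ins (w : Fin (n + 1) → ℝ → ℝ) (i : Fin (n + 1)) (t : ℝ) (z : Fin n → ℝ) :
    ∏ k, w k (ins i t z k) = w i t * ∏ j, w (i.succAbove j) (z j) := by
  rw [Fin.prod_univ_succAbove _ i]; simp

lemma ins_mem_orth (i : Fin (n + 1)) {t : ℝ} {z : Fin n → ℝ} (ht : 0 ≤ t) (hz : z ∈ orth n) :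
    ins i t z ∈ orth (n + 1) := by
  intro k
  rcases Fin.eq_self_or_eq_succAbove i k with rfl | ⟨j, rfl⟩
  · simpa using ht
  · simpa using hz j

lemma ins_combo (i : Fin (n + 1)) (t t' a b : ℝ) (z : Fin n → ℝ) (hab : a + b = 1) :
    ins i (a • t + b • t') z = a • ins i t z + b • ins i t' z := by
  funext k
  rcases Fin.eq_self_or_eq_succAbove i k with rfl | ⟨j, rfl⟩
  · simp
  · simp only [ins_succAbove, Pi.add_apply, Pi.smul_apply, smul_eq_mul]
    rw [← add_mul, hab, one_mul]

/-- The insertion map is a measure preserving equivalence. -/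
noncomputable def insEquiv (n : ℕ) (i : Fin (n + 1)) : ℝ × (Fin n → ℝ) ≃ᵐ (Fin (n + 1) → ℝ) :=
  (MeasurableEquiv.piFinSuccAbove (fun _ => ℝ) i).symm

lemma insEquiv_apply (i : Fin (n + 1)) (p : ℝ × (Fin n → ℝ)) : insEquiv n i p = ins i p.1 p.2 :=
  rfl

lemma mp_ins (i : Fin (n + 1)) : MeasurePreserving (insEquiv n i) volume volume :=
  (volume_preserving_piFinSuccAbove (fun _ : Fin (n + 1) => ℝ) i).symm _

lemma measurable_ins (i : Fin (n + 1)) :
    Measurable (fun p : ℝ × (Fin n → ℝ) => ins i p.1 p.2) := (insEquiv n i).measurable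

lemma measurable_ins_left (i : Fin (n + 1)) (z : Fin n → ℝ) :
    Measurable (fun t : ℝ => ins i t z) :=
  (measurable_ins i).comp (measurable_id.prodMk measurable_const)

lemma integrable_ins_comp (i : Fin (n + 1)) {g : (Fin (n + 1) → ℝ) → ℝ} (hg : Integrable g) :
    Integrable (fun p : ℝ × (Fin n → ℝ) => g (ins i p.1 p.2)) :=
  ((mp_ins i).integrable_comp_emb (insEquiv n i).measurableEmbedding).2 hg

lemma integral_ins (i : Fin (n + 1)) {g : (Fin (n + 1) → ℝ) → ℝ} (hg : Integrable g) :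
    ∫ y, g y = ∫ z, ∫ t, g (ins i t z) := by
  have h1 : ∫ p : ℝ × (Fin n → ℝ), g (ins i p.1 p.2) = ∫ y, g y :=
    (mp_ins i).integral_comp' g
  rw [← h1]
  exact integral_prod_symm _ (integrable_ins_comp i hg)

lemma integrable_outer (i : Fin (n + 1)) {g : (Fin (n + 1) → ℝ) → ℝ} (hg : Integrable g) :
    Integrable (fun z : Fin n → ℝ => ∫ t, g (ins i t z)) :=
  (integrable_ins_comp i hg).integral_prod_right

/-- Weighted Fubini at one coordinate. -/
lemma integral_ins_weighted (i : Fin (n + 1)) (G : (Fin (n + 1) → ℝ) → ℝ)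
    (w : Fin (n + 1) → ℝ → ℝ) (h : Integrable (fun y => G y * ∏ k, w k (y k))) :
    ∫ y, G y * ∏ k, w k (y k)
      = ∫ z, (∏ j, w (i.succAbove j) (z j)) * ∫ t, G (ins i t z) * w i t := by
  rw [integral_ins i h]
  congr 1; funext z
  rw [← integral_const_mul]
  congr 1; funext t
  rw [prod_ins]; ring

lemma integrable_outer_weighted (i : Fin (n + 1)) (G : (Fin (n + 1) → ℝ) → ℝ)
    (w : Fin (n + 1) → ℝ → ℝ) (h : Integrable (fun y => G y * ∏ k, w k (y k))) :
    Integrable (fun z : Fin n → ℝ =>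
      (∏ j, w (i.succAbove j) (z j)) * ∫ t, G (ins i t z) * w i t) := by
  refine (integrable_outer i h).congr (Filter.Eventually.of_forall fun z => ?_)
  simp only
  rw [← integral_const_mul]
  congr 1; funext t
  rw [prod_ins]; ring

/-- The function `e^{t/2} ew t` is integrable. -/
lemma integrable_half : Integrable (fun t : ℝ => Real.exp (t / 2) * ew t) := by
  have h : IntegrableOn (fun t : ℝ => Real.exp (-(1 / 2) * t)) (Ici 0) :=
    (integrableOn_Ici_iff_integrableOn_Ioi' (by simp)).2 (exp_neg_integrableOn_Ioi 0 (by norm_num))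
  have h2 := (integrable_indicator_iff measurableSet_Ici).2 h
  refine h2.congr (Filter.Eventually.of_forall fun t => ?_)
  rcases lt_or_ge t 0 with ht | ht
  · simp [indicator_of_notMem (show t ∉ Ici (0 : ℝ) by simpa using ht), ew_of_neg ht]
  · simp only [indicator_of_mem (show t ∈ Ici (0 : ℝ) by simpa using ht), ew_of_nonneg ht]
    rw [← Real.exp_add]; congr 1; ring

/-- General integrability criterion for weighted integrands. -/
lemma integrable_of_bound {G : (Fin n → ℝ) → ℝ} (hG : Measurable G) {C : ℝ} (hC : 0 ≤ C)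
    (hb : ∀ y ∈ orth n, |G y| ≤ C * Real.exp ((∑ j, y j) / 2))
    {w : Fin n → ℝ → ℝ} (hwm : ∀ j, Measurable (w j)) {D : ℝ} (hD : 0 ≤ D)
    (hw : ∀ j t, 0 ≤ w j t ∧ w j t ≤ D * ew t) :
    Integrable (fun y => G y * ∏ j, w j (y j)) := by
  have hdom : Integrable (fun y : Fin n → ℝ => C * D ^ n *
      ∏ j, (Real.exp (y j / 2) * ew (y j))) :=
    (Integrable.fintype_prod (μ := fun _ : Fin n => (volume : Measure ℝ))
      (f := fun _ t => Real.exp (t / 2) * ew t) (fun _ => integrable_half)).const_mul _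
  refine Integrable.mono' hdom ?_ ?_
  · apply Measurable.aestronglyMeasurable
    exact hG.mul (Finset.measurable_prod _ fun j _ => (hwm j).comp (measurable_pi_apply j))
  · filter_upwards with y
    by_cases hy : y ∈ orth n
    · rw [norm_mul, Real.norm_eq_abs, Real.norm_of_nonneg
        (Finset.prod_nonneg fun j _ => (hw j (y j)).1)]
      have h1 : ∏ j, w j (y j) ≤ ∏ j, (D * ew (y j)) :=
        Finset.prod_le_prod (fun j _ => (hw j (y j)).1) (fun j _ => (hw j (y j)).2)
      have h2 : ∏ j, (Real.exp (y j / 2) * ew (y j)) =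
          Real.exp ((∑ j, y j) / 2) * ∏ j, ew (y j) := by
        rw [Finset.prod_mul_distrib, ← Real.exp_sum, Finset.sum_div]
      have h3 : ∏ j, (D * ew (y j)) = D ^ n * ∏ j, ew (y j) := by
        rw [Finset.prod_mul_distrib]; simp
      have h4 : 0 ≤ ∏ j, ew (y j) := Finset.prod_nonneg fun j _ => ew_nonneg _
      have h5 := hb y hy
      calc |G y| * ∏ j, w j (y j) ≤ (C * Real.exp ((∑ j, y j) / 2)) * (D ^ n * ∏ j, ew (y j)) := by
            rw [← h3]
            exact mul_le_mul h5 h1 (Finset.prod_nonneg fun j _ => (hw j (y j)).1)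
              (by positivity)
        _ = _ := by rw [h2]; ring
    · simp only [orth, Set.mem_ofPred_eq, not_forall, not_le] at hy
      obtain ⟨j, hj⟩ := hy
      have h0 : w j (y j) = 0 := by
        have := hw j (y j)
        rw [ew_of_neg hj] at this
        nlinarith [this.1, this.2]
      have h1 : ∏ k, w k (y k) = 0 := Finset.prod_eq_zero (Finset.mem_univ j) h0
      rw [h1]
      simp only [mul_zero, norm_zero]
      have h4 : 0 ≤ ∏ j, (Real.exp (y j / 2) * ew (y j)) :=
        Finset.prod_nonneg fun j _ => mul_nonneg (Real.exp_pos _).le (ew_nonneg _)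
      positivity

/-- Convex functions on the orthant that vanish at `(1, …, 1)`, of linear growth. -/
structure Adm (U : (Fin n → ℝ) → ℝ) (c : ℝ) : Prop where
  meas : Measurable U
  conv : ConvexOn ℝ (orth n) U
  nonneg : ∀ y ∈ orth n, 0 ≤ U y
  growth : ∀ y ∈ orth n, U y ≤ c * (1 + ∑ j, y j)
  zero : U (fun _ => 1) = 0

variable {U : (Fin n → ℝ) → ℝ} {c : ℝ}

lemma zero_mem_orth : (0 : Fin n → ℝ) ∈ orth n := fun _ => le_rfl

lemma Adm.c_nonneg (hU : Adm U c) : 0 ≤ c := by
  have h0 := hU.nonneg 0 zero_mem_orth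
  have h1 := hU.growth 0 zero_mem_orth
  simp at h1; linarith

lemma sum_nonneg_of_orth {y : Fin n → ℝ} (hy : y ∈ orth n) : 0 ≤ ∑ j, y j :=
  Finset.sum_nonneg fun j _ => hy j

lemma Adm.bound (hU : Adm U c) {y : Fin n → ℝ} (hy : y ∈ orth n) :
    |U y| ≤ 4 * c * Real.exp ((∑ j, y j) / 4) := by
  have hc := hU.c_nonneg
  rw [abs_of_nonneg (hU.nonneg y hy)]
  have h1 := hU.growth y hy
  have h2 : (∑ j, y j) / 4 + 1 ≤ Real.exp ((∑ j, y j) / 4) := Real.add_one_le_exp _
  have h3 := sum_nonneg_of_orth hy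
  nlinarith

lemma exp_mono_quarter {s : ℝ} (hs : 0 ≤ s) : Real.exp (s / 4) ≤ Real.exp (s / 2) :=
  Real.exp_le_exp.2 (by linarith)

lemma Adm.bound_half (hU : Adm U c) {y : Fin n → ℝ} (hy : y ∈ orth n) :
    |U y| ≤ 4 * c * Real.exp ((∑ j, y j) / 2) := by
  have hc := hU.c_nonneg
  calc |U y| ≤ 4 * c * Real.exp ((∑ j, y j) / 4) := hU.bound hy
    _ ≤ _ := by
      have := exp_mono_quarter (sum_nonneg_of_orth hy)
      gcongr

lemma abs_L2_le {t : ℝ} (ht : 0 ≤ t) : |L2 t| ≤ 50 * Real.exp (t / 4) := by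
  have h1 : 1 + t / 4 + (t / 4) ^ 2 / 2 ≤ Real.exp (t / 4) :=
    Real.quadratic_le_exp_of_nonneg (by positivity)
  rw [abs_le]
  simp only [L2]
  constructor <;> nlinarith [sq_nonneg t]

lemma single_le_sum_orth {y : Fin n → ℝ} (hy : y ∈ orth n) (j : Fin n) : y j ≤ ∑ k, y k :=
  Finset.single_le_sum (f := y) (fun k _ => hy k) (Finset.mem_univ j)

lemma Adm.bound_L2 (hU : Adm U c) {y : Fin n → ℝ} (hy : y ∈ orth n) (j : Fin n) :
    |U y * L2 (y j)| ≤ 200 * c * Real.exp ((∑ k, y k) / 2) := by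
  have hc := hU.c_nonneg
  rw [abs_mul]
  have h1 := hU.bound hy
  have h2 := abs_L2_le (hy j)
  have h3 : Real.exp (y j / 4) ≤ Real.exp ((∑ k, y k) / 4) :=
    Real.exp_le_exp.2 (by linarith [single_le_sum_orth hy j])
  have h4 : |L2 (y j)| ≤ 50 * Real.exp ((∑ k, y k) / 4) := by linarith
  calc |U y| * |L2 (y j)| ≤ (4 * c * Real.exp ((∑ k, y k) / 4))
        * (50 * Real.exp ((∑ k, y k) / 4)) := by gcongr
    _ = 200 * c * (Real.exp ((∑ k, y k) / 4) * Real.exp ((∑ k, y k) / 4)) := by ring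
    _ = 200 * c * Real.exp ((∑ k, y k) / 2) := by
      rw [← Real.exp_add]; congr 2; ring

lemma Adm.integrable (hU : Adm U c) {w : Fin n → ℝ → ℝ} (hwm : ∀ j, Measurable (w j)) {D : ℝ}
    (hD : 0 ≤ D) (hw : ∀ j t, 0 ≤ w j t ∧ w j t ≤ D * ew t) :
    Integrable (fun y => U y * ∏ j, w j (y j)) :=
  integrable_of_bound hU.meas (by have := hU.c_nonneg; positivity) (fun _ hy => hU.bound_half hy)
    hwm hD hw

lemma Adm.integrable_L2 (hU : Adm U c) (k : Fin n) {w : Fin n → ℝ → ℝ}
    (hwm : ∀ j, Measurable (w j)) {D : ℝ}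
    (hD : 0 ≤ D) (hw : ∀ j t, 0 ≤ w j t ∧ w j t ≤ D * ew t) :
    Integrable (fun y => (U y * L2 (y k)) * ∏ j, w j (y j)) :=
  integrable_of_bound (hU.meas.mul (measurable_L2.comp (measurable_pi_apply k)))
    (by have := hU.c_nonneg; positivity) (fun _ hy => hU.bound_L2 hy k) hwm hD hw

lemma Adm.slice {U : (Fin (n + 1) → ℝ) → ℝ} (hU : Adm U c) (i : Fin (n + 1)) {z : Fin n → ℝ}
    (hz : z ∈ orth n) : Cvx1 (fun t => U (ins i t z)) (c * (1 + ∑ j, z j)) where
  meas := hU.meas.comp (measurable_ins_left i z)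
  conv := by
    refine ⟨convex_Ici 0, fun t ht t' ht' a b ha hb hab => ?_⟩
    have e := ins_combo i t t' a b z hab
    have := hU.conv.2 (ins_mem_orth i ht hz) (ins_mem_orth i ht' hz) ha hb hab
    simp only [e]
    exact this
  nonneg := fun t ht => hU.nonneg _ (ins_mem_orth i ht hz)
  growth := fun t ht => by
    have h1 := hU.growth _ (ins_mem_orth i ht hz)
    rw [sum_ins] at h1
    have hc := hU.c_nonneg
    have h2 := sum_nonneg_of_orth hz
    calc U (ins i t z) ≤ c * (1 + (t + ∑ j, z j)) := h1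
      _ ≤ c * ((1 + ∑ j, z j) * (1 + t)) := by
        apply mul_le_mul_of_nonneg_left _ hc
        nlinarith
      _ = _ := by ring

/-- The hybrid family of weights. -/
noncomputable def wA (A : Finset (Fin n)) (r : ℝ) (j : Fin n) : ℝ → ℝ :=
  if j ∈ A then ew else pw r

/-- The common domination constant. -/
noncomputable def DD (r : ℝ) : ℝ := (1 / (2 * r)) * Real.exp 2

lemma DD_ge_one {r : ℝ} (h0 : 0 < r) (h1 : r ≤ 1 / 2) : 1 ≤ DD r := by
  unfold DD
  have h2 : 1 ≤ 1 / (2 * r) := by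
    rw [le_div_iff₀ (by positivity)]; linarith
  have h3 : 1 ≤ Real.exp 2 := Real.one_le_exp (by norm_num)
  nlinarith

lemma wA_bound (A : Finset (Fin n)) {r : ℝ} (h0 : 0 < r) (h1 : r ≤ 1 / 2) (j : Fin n) (t : ℝ) :
    0 ≤ wA A r j t ∧ wA A r j t ≤ DD r * ew t := by
  unfold wA
  split_ifs
  · refine ⟨ew_nonneg t, ?_⟩
    have := DD_ge_one h0 h1
    nlinarith [ew_nonneg t]
  · exact ⟨pw_nonneg r h0 t, pw_le r h0 h1 t⟩

lemma measurable_wA (A : Finset (Fin n)) (r : ℝ) (j : Fin n) : Measurable (wA A r j) := by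
  unfold wA
  split_ifs
  · exact measurable_ew
  · exact measurable_pw r

/-- The hybrid inequality. -/
theorem hybrid {U : (Fin (n + 1) → ℝ) → ℝ} (hU : Adm U c) {r : ℝ} (h0 : 0 < r) (h1 : r ≤ 1 / 2)
    (A : Finset (Fin (n + 1))) :
    ∫ y, U y * ∏ j, wA A r j (y j) ≤ (∫ y, U y * ∏ j, wA ∅ r j (y j))
      + 4 * DD r ^ n * ∑ k ∈ A, ∫ y, (U y * L2 (y k)) * ∏ j, ew (y j) := by
  have hDD := DD_ge_one h0 h1
  induction A using Finset.induction_on with
  | empty => simp
  | insert k A hk ih =>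
    rw [Finset.sum_insert hk]
    refine le_trans ?_ (by
      have := ih
      calc (∫ y, U y * ∏ j, wA A r j (y j)) +
            4 * DD r ^ n * ∫ y, (U y * L2 (y k)) * ∏ j, ew (y j)
          ≤ ((∫ y, U y * ∏ j, wA ∅ r j (y j))
            + 4 * DD r ^ n * ∑ k ∈ A, ∫ y, (U y * L2 (y k)) * ∏ j, ew (y j)) +
            4 * DD r ^ n * ∫ y, (U y * L2 (y k)) * ∏ j, ew (y j) := by
              exact add_le_add_left this _
        _ = _ := by ring)
    -- the single step
    have hew : ∀ (j : Fin (n + 1)) (t : ℝ), 0 ≤ ew t ∧ ew t ≤ (1 : ℝ) * ew t :=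
      fun _ t => ⟨ew_nonneg t, by simp⟩
    have hW : ∫ y, (U y * L2 (y k)) * ∏ j, ew (y j) =
        ∫ z, (∏ j : Fin n, ew (z j)) * ∫ t, U (ins k t z) * L2 t * ew t := by
      have := integral_ins_weighted k (fun y => U y * L2 (y k)) (fun _ => ew)
        (hU.integrable_L2 k (fun _ => measurable_ew) zero_le_one hew)
      simpa only [ins_same] using this
    have hWi : Integrable (fun z : Fin n → ℝ =>
        (∏ j : Fin n, ew (z j)) * ∫ t, U (ins k t z) * L2 t * ew t) := by
      have := integrable_outer_weighted k (fun y => U y * L2 (y k)) (fun _ => ew)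
        (hU.integrable_L2 k (fun _ => measurable_ew) zero_le_one hew)
      simpa only [ins_same] using this
    have hA' : ∫ y, U y * ∏ j, wA (insert k A) r j (y j) =
        ∫ z, (∏ j : Fin n, wA A r (k.succAbove j) (z j)) * ∫ t, U (ins k t z) * ew t := by
      have := integral_ins_weighted k U (wA (insert k A) r)
        (hU.integrable (measurable_wA _ r) (by linarith) (wA_bound _ h0 h1))
      rw [this]
      congr 1; funext z
      have e1 : wA (insert k A) r k = ew := by simp [wA]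
      have e2 : ∀ j : Fin n, wA (insert k A) r (k.succAbove j) = wA A r (k.succAbove j) := by
        intro j
        simp [wA, Fin.succAbove_ne]
      simp only [e1, e2]
    have hA'i : Integrable (fun z : Fin n → ℝ =>
        (∏ j : Fin n, wA A r (k.succAbove j) (z j)) * ∫ t, U (ins k t z) * ew t) := by
      have := integrable_outer_weighted k U (wA (insert k A) r)
        (hU.integrable (measurable_wA _ r) (by linarith) (wA_bound _ h0 h1))
      refine this.congr (Filter.Eventually.of_forall fun z => ?_)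
      have e1 : wA (insert k A) r k = ew := by simp [wA]
      have e2 : ∀ j : Fin n, wA (insert k A) r (k.succAbove j) = wA A r (k.succAbove j) := by
        intro j
        simp [wA, Fin.succAbove_ne]
      simp only [e1, e2]
    have hB : ∫ y, U y * ∏ j, wA A r j (y j) =
        ∫ z, (∏ j : Fin n, wA A r (k.succAbove j) (z j)) * ∫ t, U (ins k t z) * pw r t := by
      have := integral_ins_weighted k U (wA A r)
        (hU.integrable (measurable_wA _ r) (by linarith) (wA_bound _ h0 h1))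
      rw [this]
      congr 1; funext z
      have e1 : wA A r k = pw r := by simp [wA, hk]
      simp only [e1]
    have hBi : Integrable (fun z : Fin n → ℝ =>
        (∏ j : Fin n, wA A r (k.succAbove j) (z j)) * ∫ t, U (ins k t z) * pw r t) := by
      have := integrable_outer_weighted k U (wA A r)
        (hU.integrable (measurable_wA _ r) (by linarith) (wA_bound _ h0 h1))
      have e1 : wA A r k = pw r := by simp [wA, hk]
      simpa only [e1] using this
    rw [hA', hB, hW, ← integral_const_mul, ← integral_add hBi (hWi.const_mul _)]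
    refine integral_mono hA'i (hBi.add (hWi.const_mul _)) fun z => ?_
    simp only
    by_cases hz : z ∈ orth n
    · have hf := hU.slice k hz
      have h2 := hf.main
      have h3 := hf.smear r h0 h1
      have h4 := hf.theta_nonneg
      set Θ := ∫ t, U (ins k t z) * L2 t * ew t with hΘ
      have hO : 0 ≤ ∏ j : Fin n, wA A r (k.succAbove j) (z j) :=
        Finset.prod_nonneg fun j _ => (wA_bound A h0 h1 _ _).1
      have hO2 : ∏ j : Fin n, wA A r (k.succAbove j) (z j) ≤ DD r ^ n * ∏ j : Fin n, ew (z j) := by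
        calc ∏ j : Fin n, wA A r (k.succAbove j) (z j)
            ≤ ∏ j : Fin n, (DD r * ew (z j)) :=
              Finset.prod_le_prod (fun j _ => (wA_bound A h0 h1 _ _).1)
                (fun j _ => (wA_bound A h0 h1 _ _).2)
          _ = _ := by rw [Finset.prod_mul_distrib]; simp
      have h5 : (∏ j : Fin n, wA A r (k.succAbove j) (z j)) * (∫ t, U (ins k t z) * ew t) ≤
          (∏ j : Fin n, wA A r (k.succAbove j) (z j)) *
            ((∫ t, U (ins k t z) * pw r t) + 4 * Θ) :=
        mul_le_mul_of_nonneg_left (by linarith) hO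
      have h6 : (∏ j : Fin n, wA A r (k.succAbove j) (z j)) * (4 * Θ) ≤
          (DD r ^ n * ∏ j : Fin n, ew (z j)) * (4 * Θ) :=
        mul_le_mul_of_nonneg_right hO2 (by positivity)
      nlinarith
    · simp only [orth, Set.mem_ofPred_eq, not_forall, not_le] at hz
      obtain ⟨j0, hj0⟩ := hz
      have h2 : ∏ j : Fin n, wA A r (k.succAbove j) (z j) = 0 := by
        refine Finset.prod_eq_zero (Finset.mem_univ j0) ?_
        have := wA_bound A h0 h1 (k.succAbove j0) (z j0)
        rw [ew_of_neg hj0] at this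
        nlinarith [this.1, this.2]
      have h3 : ∏ j : Fin n, ew (z j) = 0 :=
        Finset.prod_eq_zero (Finset.mem_univ j0) (ew_of_neg hj0)
      simp [h2, h3]

lemma pw_scale {r : ℝ} (h0 : 0 < r) (t : ℝ) :
    pw r (2 * r * t + (1 - 2 * r)) = (1 / (2 * r)) * pw (1 / 2) t := by
  unfold pw
  have hiff : (1 - r ≤ 2 * r * t + (1 - 2 * r) ∧ 2 * r * t + (1 - 2 * r) ≤ 1 + r) ↔
      (1 - 1 / 2 ≤ t ∧ t ≤ 1 + 1 / 2) := by
    constructor
    · rintro ⟨h1, h2⟩
      constructor
      · by_contra h; push Not at h; nlinarith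
      · by_contra h; push Not at h; nlinarith
    · rintro ⟨h1, h2⟩
      constructor <;> nlinarith
  by_cases h : 1 - 1 / 2 ≤ t ∧ t ≤ 1 + 1 / 2
  · rw [if_pos (hiff.2 h), if_pos h]; norm_num
  · rw [if_neg (fun h' => h (hiff.1 h')), if_neg h]; simp

/-- Near the point `(1, …, 1)`: the smeared average of `U` is small. -/
theorem near_diag {U : (Fin (n + 1) → ℝ) → ℝ} (hU : Adm U c) {r : ℝ} (h0 : 0 < r) (h1 : r ≤ 1 / 2) :
    ∫ y, U y * ∏ j, pw r (y j) ≤ (2 * r) * DD (1 / 2) ^ (n + 1) * ∫ y, U y * ∏ j, ew (y j) := by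
  set R : ℝ := 2 * r with hR
  have hR0 : 0 < R := by positivity
  have hR1 : R ≤ 1 := by rw [hR]; linarith
  set d : Fin (n + 1) → ℝ := fun _ => 1 with hd
  set F : (Fin (n + 1) → ℝ) → ℝ := fun y => U y * ∏ j, pw r (y j) with hF
  have hscale : ∫ y, F y = R ^ (n + 1) * ∫ y, F (R • y + (1 - R) • d) := by
    have h2 := Measure.integral_comp_smul (μ := (volume : Measure (Fin (n + 1) → ℝ)))
      (fun y => F (y + (1 - R) • d)) R
    rw [integral_add_right_eq_self F ((1 - R) • d)] at h2
    rw [h2]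
    simp only [Module.finrank_fin_fun, smul_eq_mul]
    rw [abs_of_pos (by positivity)]
    field_simp
  have hpt : ∀ y : Fin (n + 1) → ℝ, R ^ (n + 1) * F (R • y + (1 - R) • d)
      = U (R • y + (1 - R) • d) * ∏ j, pw (1 / 2) (y j) := by
    intro y
    simp only [hF]
    have h3 : ∀ j, pw r ((R • y + (1 - R) • d) j) = (1 / R) * pw (1 / 2) (y j) := by
      intro j
      simp only [Pi.add_apply, Pi.smul_apply, smul_eq_mul, hd, mul_one]
      exact pw_scale h0 (y j)
    simp only [h3]
    rw [Finset.prod_mul_distrib]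
    simp only [Finset.prod_const, Finset.card_univ, Fintype.card_fin]
    have hRR : R ^ (n + 1) * (1 / R) ^ (n + 1) = 1 := by
      rw [← mul_pow, mul_one_div_cancel hR0.ne', one_pow]
    calc R ^ (n + 1) * (U (R • y + (1 - R) • d) * ((1 / R) ^ (n + 1) * ∏ i, pw (1 / 2) (y i)))
        = (R ^ (n + 1) * (1 / R) ^ (n + 1)) * (U (R • y + (1 - R) • d) * ∏ i, pw (1 / 2) (y i)) := by
          ring
      _ = _ := by rw [hRR, one_mul]
  have hInt : Integrable (fun y => U y * ∏ j, ew (y j)) :=
    hU.integrable (fun _ => measurable_ew) zero_le_one (fun _ t => ⟨ew_nonneg t, by simp⟩)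
  have hbox : ∀ y : Fin (n + 1) → ℝ, (∏ j, pw (1 / 2) (y j)) ≠ 0 → y ∈ orth (n + 1) := by
    intro y hy j
    by_contra hj
    push Not at hj
    apply hy
    refine Finset.prod_eq_zero (Finset.mem_univ j) ?_
    unfold pw
    rw [if_neg]
    rintro ⟨h3, -⟩
    linarith
  have hcomb : ∀ y ∈ orth (n + 1), R • y + (1 - R) • d ∈ orth (n + 1) := by
    intro y hy j
    simp only [Pi.add_apply, Pi.smul_apply, smul_eq_mul, hd, mul_one]
    have := hy j
    have h4 : 0 ≤ 1 - R := by linarith
    positivity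
  have hdo : d ∈ orth (n + 1) := fun _ => zero_le_one
  have hmono : ∫ y, R ^ (n + 1) * F (R • y + (1 - R) • d) ≤
      ∫ y, (R * DD (1 / 2) ^ (n + 1)) * (U y * ∏ j, ew (y j)) := by
    refine integral_mono_of_nonneg ?_ (hInt.const_mul _) ?_
    · filter_upwards with y
      rw [hpt y]
      by_cases hy : (∏ j, pw (1 / 2) (y j)) = 0
      · rw [hy, mul_zero]; exact le_rfl
      · have h5 := hbox y hy
        have h6 : 0 ≤ ∏ j, pw (1 / 2) (y j) :=
          Finset.prod_nonneg fun j _ => pw_nonneg _ (by norm_num) _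
        exact mul_nonneg (hU.nonneg _ (hcomb y h5)) h6
    · filter_upwards with y
      rw [hpt y]
      by_cases hy : (∏ j, pw (1 / 2) (y j)) = 0
      · simp only [hy, mul_zero]
        by_cases hy2 : y ∈ orth (n + 1)
        · have h6 : 0 ≤ ∏ j, ew (y j) := Finset.prod_nonneg fun j _ => ew_nonneg _
          have h7 := hU.nonneg y hy2
          have h8 : 0 < DD (1 / 2) := lt_of_lt_of_le one_pos (DD_ge_one (by norm_num) le_rfl)
          positivity
        · simp only [orth, Set.mem_ofPred_eq, not_forall, not_le] at hy2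
          obtain ⟨j0, hj0⟩ := hy2
          have h3 : ∏ j, ew (y j) = 0 :=
            Finset.prod_eq_zero (Finset.mem_univ j0) (ew_of_neg hj0)
          simp [h3]
      · have h5 := hbox y hy
        have h6 : 0 ≤ ∏ j, pw (1 / 2) (y j) :=
          Finset.prod_nonneg fun j _ => pw_nonneg _ (by norm_num) _
        have h7 : U (R • y + (1 - R) • d) ≤ R * U y := by
          have h8 := hU.conv.2 h5 hdo hR0.le (by linarith : 0 ≤ 1 - R) (by ring)
          have h9 : U d = 0 := hU.zero
          simp only [smul_eq_mul, h9, mul_zero, add_zero] at h8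
          exact h8
        have h10 : ∏ j, pw (1 / 2) (y j) ≤ DD (1 / 2) ^ (n + 1) * ∏ j, ew (y j) := by
          calc ∏ j, pw (1 / 2) (y j) ≤ ∏ j, (DD (1 / 2) * ew (y j)) :=
                Finset.prod_le_prod (fun j _ => pw_nonneg _ (by norm_num) _)
                  (fun j _ => pw_le (1 / 2) (by norm_num) le_rfl (y j))
            _ = _ := by
                rw [Finset.prod_mul_distrib]
                simp
        have h11 := hU.nonneg y h5
        calc U (R • y + (1 - R) • d) * ∏ j, pw (1 / 2) (y j)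
            ≤ (R * U y) * ∏ j, pw (1 / 2) (y j) := mul_le_mul_of_nonneg_right h7 h6
          _ ≤ (R * U y) * (DD (1 / 2) ^ (n + 1) * ∏ j, ew (y j)) :=
              mul_le_mul_of_nonneg_left h10 (by positivity)
          _ = _ := by ring
  rw [integral_const_mul, integral_const_mul] at hmono
  rw [hscale]
  exact hmono

lemma wA_empty (r : ℝ) (j : Fin n) : wA ∅ r j = pw r := by simp [wA]

lemma wA_univ (r : ℝ) (j : Fin n) : wA Finset.univ r j = ew := by simp [wA]

/-- **Key lemma.** -/
theorem key_lemma (n : ℕ) : ∃ κ : ℝ, 0 < κ ∧ ∀ (U : (Fin (n + 1) → ℝ) → ℝ) (c : ℝ), Adm U c →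
    κ * ∫ y, U y * ∏ j, ew (y j) ≤ ∑ k, ∫ y, (U y * L2 (y k)) * ∏ j, ew (y j) := by
  set B : ℝ := DD (1 / 2) ^ (n + 1) with hB
  have hB1 : 1 ≤ B := one_le_pow₀ (DD_ge_one (by norm_num) le_rfl)
  set r : ℝ := 1 / (4 * B) with hr
  have hr0 : 0 < r := by positivity
  have hr1 : r ≤ 1 / 2 := by
    rw [hr, div_le_div_iff₀ (by positivity) (by norm_num)]
    linarith
  have hDD := DD_ge_one hr0 hr1
  refine ⟨1 / (8 * DD r ^ n), by positivity, fun U c hU => ?_⟩
  have h1 := hybrid hU hr0 hr1 Finset.univ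
  have h2 := near_diag hU hr0 hr1
  simp only [wA_empty, wA_univ] at h1
  have h3 : (2 * r) * B = 1 / 2 := by
    rw [hr]; field_simp; norm_num
  rw [h3] at h2
  have h4 : ∫ y, U y * ∏ j, ew (y j) ≤
      8 * DD r ^ n * ∑ k, ∫ y, (U y * L2 (y k)) * ∏ j, ew (y j) := by
    nlinarith
  have h5 : 0 < 8 * DD r ^ n := by positivity
  rw [div_mul_eq_mul_div, one_mul, div_le_iff₀ h5]
  linarith

end Vale.Agent.Lib.P254
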